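import Vale.Agent.P125.Chain

open scoped BigOperators Topology

namespace Vale.Agent.P125

namespace LGraph

section BadWBound

variable {I Ω : Type} [Fintype I] [DecidableEq I] [Fintype Ω] [DecidableEq Ω]
  {q N M : ℕ} (Γ : LGraph (I × Ω) (Fin M → Fin N) N) (cl : I → Fin q)
  (Near : Fin q → Fin q → Prop) [DecidableRel Near]

noncomputable def nearW (a : Fin q) (z : Fin M → Fin N) : ℝ :=
  ∑ e', if Γ.src e' = z ∧ Near a (cl e'.1) then 1 / Γ.deg z else 0

theorem sum_deg_le_one (z : Fin M → Fin N) :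
    ∑ e', (if Γ.src e' = z then 1 / Γ.deg z else 0) ≤ 1 := by
  have h : ∑ e', (if Γ.src e' = z then 1 / Γ.deg z else 0) = Γ.deg z * (1 / Γ.deg z) := by
    rw [← Γ.sum_src z, Finset.sum_mul]
    refine Finset.sum_congr rfl fun e' _ => ?_
    rw [Γ.sum_src z]
    split_ifs <;> simp
  rw [h]
  rcases eq_or_lt_of_le (Γ.deg_nonneg z) with h0 | h0
  · rw [← h0]; norm_num
  · rw [mul_one_div_cancel h0.ne']

theorem nearW_nonneg (a : Fin q) (z : Fin M → Fin N) : 0 ≤ Γ.nearW cl Near a z := by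
  unfold nearW
  refine Finset.sum_nonneg fun e' _ => ?_
  split_ifs
  · exact div_nonneg zero_le_one (Γ.deg_nonneg _)
  · exact le_rfl

theorem nearW_le_one (a : Fin q) (z : Fin M → Fin N) : Γ.nearW cl Near a z ≤ 1 := by
  unfold nearW
  refine le_trans (Finset.sum_le_sum fun e' _ => ?_) (Γ.sum_deg_le_one z)
  have h0 : 0 ≤ 1 / Γ.deg z := div_nonneg zero_le_one (Γ.deg_nonneg _)
  by_cases h : Γ.src e' = z
  · by_cases h2 : Near a (cl e'.1)
    · simp [h, h2]
    · simp only [h, h2, and_false, if_false, if_true]; exact h0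
  · simp [h]

theorem sum_nearW_le (hnear : ∀ b, (Finset.univ.filter fun a => Near a b).card ≤ 3)
    (z : Fin M → Fin N) : ∑ a, Γ.nearW cl Near a z ≤ 3 := by
  unfold nearW
  rw [Finset.sum_comm]
  have h0 : 0 ≤ 1 / Γ.deg z := div_nonneg zero_le_one (Γ.deg_nonneg _)
  have h1 : ∀ e' : I × Ω, ∑ a, (if Γ.src e' = z ∧ Near a (cl e'.1) then 1 / Γ.deg z else 0)
      ≤ 3 * (if Γ.src e' = z then 1 / Γ.deg z else 0) := by
    intro e'
    by_cases h : Γ.src e' = z
    · simp only [h, true_and, if_true]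
      rw [← Finset.sum_filter, Finset.sum_const, nsmul_eq_mul]
      refine mul_le_mul_of_nonneg_right ?_ h0
      exact_mod_cast hnear (cl e'.1)
    · simp [h]
  calc ∑ e' : I × Ω, ∑ a, (if Γ.src e' = z ∧ Near a (cl e'.1) then 1 / Γ.deg z else 0)
      ≤ ∑ e' : I × Ω, 3 * (if Γ.src e' = z then 1 / Γ.deg z else 0) :=
        Finset.sum_le_sum fun e' _ => h1 e'
    _ = 3 * ∑ e' : I × Ω, (if Γ.src e' = z then 1 / Γ.deg z else 0) := by
        rw [Finset.mul_sum]
    _ ≤ 3 * 1 := by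
        refine mul_le_mul_of_nonneg_left (Γ.sum_deg_le_one z) (by norm_num)
    _ = 3 := by norm_num

theorem badW_le_nearW (Bad : I × Ω → I × Ω → Prop) [DecidableRel Bad]
    (hBad : ∀ e e', Bad e e' → Near (cl (Γ.inv e).1) (cl e'.1)) (e : I × Ω) :
    Γ.badW Bad e ≤ Γ.nearW cl Near (cl (Γ.inv e).1) (Γ.src (Γ.inv e)) := by
  unfold badW nearW
  refine Finset.sum_le_sum fun e' _ => ?_
  have h0 : 0 ≤ 1 / Γ.deg (Γ.src (Γ.inv e)) := div_nonneg zero_le_one (Γ.deg_nonneg _)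
  by_cases h : Γ.src e' = Γ.src (Γ.inv e) ∧ Bad e e'
  · rw [if_pos h, if_pos ⟨h.1, hBad e e' h.2⟩, h.1]
  · rw [if_neg h]
    split_ifs
    · exact h0
    · exact le_rfl

end BadWBound

end LGraph

theorem badW_le {I Ω : Type} [Fintype I] [DecidableEq I] [Nonempty I] [Fintype Ω]
    [DecidableEq Ω] [Nonempty Ω] {q N M : ℕ} (hq : 0 < q)
    (Γ : LGraph (I × Ω) (Fin M → Fin N) N) (cl : I → Fin q)
    (hcl : ∀ a, q * (Finset.univ.filter fun i => cl i = a).card = Fintype.card I)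
    (Near : Fin q → Fin q → Prop) [DecidableRel Near]
    (hnear : ∀ b, (Finset.univ.filter fun a => Near a b).card ≤ 3)
    (Bad : I × Ω → I × Ω → Prop) [DecidableRel Bad]
    (hBad : ∀ e e', Bad e e' → Near (cl (Γ.inv e).1) (cl e'.1)) {ε : ℝ}
    (hsp : ∀ (i i' : I) (F : (Fin M → Fin N) → ℝ), (∀ s, 0 ≤ F s) → (∀ s, F s ≤ 1) →
      |(∑ ω, F (Γ.src (i, ω))) / Fintype.card Ω
        - (∑ ω, F (Γ.src (i', ω))) / Fintype.card Ω| ≤ ε) :
    (∑ e, Γ.badW Bad e) / Fintype.card (I × Ω) ≤ 3 / q + ε := by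
  obtain ⟨i0⟩ := ‹Nonempty I›
  have hI : (0 : ℝ) < Fintype.card I := by exact_mod_cast Fintype.card_pos_iff.2 ⟨i0⟩
  have hΩ : (0 : ℝ) < Fintype.card Ω := by exact_mod_cast Fintype.card_pos
  have hq' : (0 : ℝ) < q := by exact_mod_cast hq
  set m : Fin q → ℝ := fun a => (∑ ω, Γ.nearW cl Near a (Γ.src (i0, ω))) / Fintype.card Ω with hm
  have hsum : ∑ e, Γ.badW Bad e ≤ ∑ i, ∑ ω, Γ.nearW cl Near (cl i) (Γ.src (i, ω)) := by
    calc ∑ e, Γ.badW Bad e
        ≤ ∑ e, Γ.nearW cl Near (cl (Γ.inv e).1) (Γ.src (Γ.inv e)) :=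
          Finset.sum_le_sum fun e _ => Γ.badW_le_nearW cl Near Bad hBad e
      _ = ∑ e : I × Ω, Γ.nearW cl Near (cl e.1) (Γ.src e) :=
          Equiv.sum_comp (⟨Γ.inv, Γ.inv, Γ.inv_inv, Γ.inv_inv⟩ : I × Ω ≃ I × Ω)
            (fun e => Γ.nearW cl Near (cl e.1) (Γ.src e))
      _ = _ := Fintype.sum_prod_type _
  have hi : ∀ i, ∑ ω, Γ.nearW cl Near (cl i) (Γ.src (i, ω)) ≤
      Fintype.card Ω * (m (cl i) + ε) := by
    intro i
    have h := (abs_le.1 (hsp i i0 (Γ.nearW cl Near (cl i)) (Γ.nearW_nonneg cl Near (cl i))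
      (Γ.nearW_le_one cl Near (cl i)))).2
    have h2 : (∑ ω, Γ.nearW cl Near (cl i) (Γ.src (i, ω))) / Fintype.card Ω ≤ m (cl i) + ε := by
      simp only [hm]; linarith
    rw [div_le_iff₀ hΩ] at h2
    linarith
  have hmsum : ∑ a, m a ≤ 3 := by
    simp only [hm]
    rw [← Finset.sum_div, Finset.sum_comm, div_le_iff₀ hΩ]
    calc ∑ ω, ∑ a, Γ.nearW cl Near a (Γ.src (i0, ω)) ≤ ∑ _ω : Ω, (3 : ℝ) :=
          Finset.sum_le_sum fun ω _ => Γ.sum_nearW_le cl Near hnear _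
      _ = 3 * Fintype.card Ω := by
          rw [Finset.sum_const, nsmul_eq_mul, Finset.card_univ]; ring
  have hcard : ∑ i, m (cl i) = Fintype.card I / q * ∑ a, m a := by
    rw [← Finset.sum_fiberwise Finset.univ cl (fun i => m (cl i)), Finset.mul_sum]
    refine Finset.sum_congr rfl fun a _ => ?_
    have h1 : ∑ i ∈ Finset.univ.filter (fun i => cl i = a), m (cl i)
        = ∑ i ∈ Finset.univ.filter (fun i => cl i = a), m a := by
      refine Finset.sum_congr rfl fun i hi => ?_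
      rw [(Finset.mem_filter.1 hi).2]
    rw [h1, Finset.sum_const, nsmul_eq_mul]
    have h2 : (q : ℝ) * ((Finset.univ.filter fun i => cl i = a).card : ℝ) = Fintype.card I := by
      exact_mod_cast hcl a
    rw [← h2]
    field_simp
  have hprod : ((Fintype.card (I × Ω) : ℕ) : ℝ) = Fintype.card I * Fintype.card Ω := by
    rw [Fintype.card_prod]; push_cast; ring
  rw [hprod, div_le_iff₀ (mul_pos hI hΩ)]
  calc ∑ e, Γ.badW Bad e ≤ ∑ i, ∑ ω, Γ.nearW cl Near (cl i) (Γ.src (i, ω)) := hsum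
    _ ≤ ∑ i, Fintype.card Ω * (m (cl i) + ε) := Finset.sum_le_sum fun i _ => hi i
    _ = Fintype.card Ω * (∑ i, m (cl i)) + Fintype.card I * Fintype.card Ω * ε := by
        rw [← Finset.mul_sum, Finset.sum_add_distrib, Finset.sum_const, nsmul_eq_mul,
          Finset.card_univ]
        ring
    _ = Fintype.card Ω * (Fintype.card I / q * ∑ a, m a)
        + Fintype.card I * Fintype.card Ω * ε := by rw [hcard]
    _ ≤ Fintype.card Ω * (Fintype.card I / q * 3)
        + Fintype.card I * Fintype.card Ω * ε := by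
        have : 0 ≤ (Fintype.card Ω : ℝ) * (Fintype.card I / q) := by positivity
        nlinarith
    _ = (3 / q + ε) * (Fintype.card I * Fintype.card Ω) := by
        field_simp

end Vale.Agent.P125
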