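import Mathlib

open scoped BigOperators Topology

namespace Vale.Agent.P125

def MarkovTypeWith (X : Type*) [NormedAddCommGroup X] [NormedSpace ℝ X] (p K : ℝ) : Prop :=
  ∀ (n : ℕ) (π : Fin n → ℝ) (P : Matrix (Fin n) (Fin n) ℝ),
    (∀ i, 0 ≤ π i) → ∑ i, π i = 1 → (∀ i j, 0 ≤ P i j) → (∀ i, ∑ j, P i j = 1) →
    (∀ i j, π i * P i j = π j * P j i) →
    ∀ (f : Fin n → X) (t : ℕ), 1 ≤ t →
      ∑ i, ∑ j, π i * (P ^ t) i j * ‖f j - f i‖ ^ p ≤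
        K ^ p * t * ∑ i, ∑ j, π i * P i j * ‖f j - f i‖ ^ p

def HasMarkovType (X : Type*) [NormedAddCommGroup X] [NormedSpace ℝ X] (p : ℝ) : Prop :=
  ∃ K : ℝ, 0 < K ∧ MarkovTypeWith X p K

def EquivNorm {X : Type*} [NormedAddCommGroup X] [NormedSpace ℝ X] (N : Seminorm ℝ X) : Prop :=
  ∃ a b : ℝ, 0 < a ∧ 0 < b ∧ ∀ x, a * ‖x‖ ≤ N x ∧ N x ≤ b * ‖x‖

noncomputable def smoothModulus {X : Type*} [NormedAddCommGroup X] [NormedSpace ℝ X]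
    (N : Seminorm ℝ X) (τ : ℝ) : ℝ :=
  sSup {s | ∃ x y : X, N x = 1 ∧ N y = 1 ∧ s = (N (x + τ • y) + N (x - τ • y)) / 2 - 1}

def UniformlySmooth {X : Type*} [NormedAddCommGroup X] [NormedSpace ℝ X]
    (N : Seminorm ℝ X) : Prop :=
  Filter.Tendsto (fun τ : ℝ => smoothModulus N τ / τ) (𝓝[>] 0) (𝓝 0)

noncomputable def stepOp {X : Type*} [NormedAddCommGroup X] [NormedSpace ℝ X] (τ : ℝ)
    (Ψ : X → ℝ) (x : X) : ℝ :=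
  ⨆ v : {v : X // ‖v‖ ≤ τ}, (Ψ (x + v) + Ψ (x - v)) / 2

noncomputable def growth (X : Type*) [NormedAddCommGroup X] [NormedSpace ℝ X] (n : ℕ) : ℝ :=
  ((stepOp (X := X) 1)^[n] (fun x => ‖x‖)) 0

def WindowSeq (Y : Type*) [NormedAddCommGroup Y] [NormedSpace ℝ Y] (θ : ℝ) (n : ℕ) : Prop :=
  ∃ x : ℕ → Y, (∀ i, ‖x i‖ ≤ 1) ∧ ∀ (a : ℕ → ℝ) (A B : ℕ), A ≤ B → B ≤ n →
    (∀ i ∈ Finset.Ico A B, a i ≤ 0) →
      θ * ∑ i ∈ Finset.Ico A B, |a i| ≤ ‖∑ i ∈ Finset.range n, a i • x i‖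

end Vale.Agent.P125
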