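import Mathlib
import Vale.Agent.P125.Defs

open scoped BigOperators Topology

namespace Vale.Agent.P125

open Finset

universe u

/-- regrouping a sum in blocks -/
lemma sum_blocks {V : Type*} [AddCommMonoid V] (F : ℕ → ℕ → V) (m : ℕ) {b : ℕ} (hb : 0 < b) :
    ∑ i ∈ range m, ∑ l ∈ range b, F i l = ∑ j ∈ range (m * b), F (j / b) (j % b) := by
  induction m with
  | zero => simp
  | succ m ih =>
    rw [sum_range_succ, ih, Nat.succ_mul, sum_range_add]
    congr 1
    refine sum_congr rfl fun l hl => ?_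
    have hl' : l < b := mem_range.1 hl
    have h1 : (m * b + l) / b = m := by
      rw [mul_comm, Nat.mul_add_div hb, Nat.div_eq_of_lt hl', add_zero]
    have h2 : (m * b + l) % b = l := by
      rw [mul_comm, Nat.mul_add_mod, Nat.mod_eq_of_lt hl']
    rw [h1, h2]

section

variable {V : Type*} [NormedAddCommGroup V] [NormedSpace ℝ V]

/-- block average -/
noncomputable def blk (e : ℕ → V) (b : ℕ) (x : ℕ) : V :=
  ∑ l ∈ range b, (1 / (b : ℝ)) • e (x * b + l)

lemma norm_blk_le {e : ℕ → V} (he : ∀ i, ‖e i‖ ≤ 1) {b : ℕ} (hb : 0 < b) (x : ℕ) :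
    ‖blk e b x‖ ≤ 1 := by
  unfold blk
  refine (norm_sum_le _ _).trans ?_
  have h : ∀ l ∈ range b, ‖(1 / (b : ℝ)) • e (x * b + l)‖ ≤ 1 / (b : ℝ) := by
    intro l _
    rw [norm_smul, Real.norm_of_nonneg (by positivity)]
    calc 1 / (b : ℝ) * ‖e (x * b + l)‖ ≤ 1 / (b : ℝ) * 1 :=
          mul_le_mul_of_nonneg_left (he _) (by positivity)
      _ = 1 / (b : ℝ) := mul_one _
  refine (sum_le_sum h).trans ?_
  rw [sum_const, card_range, nsmul_eq_mul]
  have : (b : ℝ) ≠ 0 := by positivity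
  field_simp
  exact le_rfl

lemma sum_blk (e : ℕ → V) {b : ℕ} (hb : 0 < b) (m : ℕ) (c : ℕ → ℝ) (κ : ℕ → ℕ) :
    ∑ i ∈ range m, c i • blk e b (κ i) =
      ∑ j ∈ range (m * b), (c (j / b) / b) • e (κ (j / b) * b + j % b) := by
  unfold blk
  rw [← sum_blocks (fun i l => (c i / b) • e (κ i * b + l)) m hb]
  refine sum_congr rfl fun i _ => ?_
  rw [smul_sum]
  refine sum_congr rfl fun l _ => ?_
  rw [smul_smul]
  congr 1
  ring

lemma block_strict {b : ℕ} (hb : 0 < b) {m : ℕ} {κ : ℕ → ℕ}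
    (hκ : ∀ i j, i < j → j < m → κ i < κ j) {i j : ℕ} (hij : i < j) (hj : j < m * b) :
    κ (i / b) * b + i % b < κ (j / b) * b + j % b := by
  have hi' : i / b * b + i % b = i := Nat.div_add_mod' i b
  have hj' : j / b * b + j % b = j := Nat.div_add_mod' j b
  have h1 : i / b ≤ j / b := Nat.div_le_div_right hij.le
  have hjb : j / b < m := Nat.div_lt_of_lt_mul (by rwa [mul_comm] at hj)
  rcases h1.lt_or_eq with h | h
  · have h2 := hκ _ _ h hjb
    have h3 : i % b < b := Nat.mod_lt _ hb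
    have h4 : (κ (i / b) + 1) * b ≤ κ (j / b) * b := Nat.mul_le_mul_right b h2
    rw [Nat.add_mul, one_mul] at h4
    omega
  · rw [h]
    rw [h] at hi'
    omega

lemma block_lt {b : ℕ} (hb : 0 < b) {m N : ℕ} {κ : ℕ → ℕ} (hκ : ∀ i, i < m → κ i < N) {j : ℕ}
    (hj : j < m * b) : κ (j / b) * b + j % b < N * b := by
  have hjb : j / b < m := Nat.div_lt_of_lt_mul (by rwa [mul_comm] at hj)
  have h2 := hκ _ hjb
  have h3 : j % b < b := Nat.mod_lt _ hb
  have h4 : (κ (j / b) + 1) * b ≤ N * b := Nat.mul_le_mul_right b h2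
  rw [Nat.add_mul, one_mul] at h4
  omega

/-- the spreading inequality for shorter sums -/
lemma spread_short {p ε : ℝ} {M N : ℕ} {e : ℕ → V}
    (hs : ∀ (a : Fin M → ℝ) (κ κ' : Fin M → Fin N), StrictMono κ → StrictMono κ' →
      |‖∑ i, a i • e (κ i)‖ ^ p - ‖∑ i, a i • e (κ' i)‖ ^ p| ≤ ε * (∑ i, |a i|) ^ p)
    {m : ℕ} (hm : m ≤ M) {N' : ℕ} (hN : N' + M ≤ N) (a : ℕ → ℝ) (κ κ' : ℕ → ℕ)
    (h1 : ∀ i j, i < j → j < m → κ i < κ j) (h2 : ∀ i, i < m → κ i < N')
    (h1' : ∀ i j, i < j → j < m → κ' i < κ' j) (h2' : ∀ i, i < m → κ' i < N') :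
    |‖∑ i ∈ range m, a i • e (κ i)‖ ^ p - ‖∑ i ∈ range m, a i • e (κ' i)‖ ^ p| ≤
      ε * (∑ i ∈ range m, |a i|) ^ p := by
  -- extension of an index map
  have key : ∀ κ : ℕ → ℕ, (∀ i j, i < j → j < m → κ i < κ j) → (∀ i, i < m → κ i < N') →
      ∃ K : Fin M → Fin N, StrictMono K ∧
        ∑ i : Fin M, (if (i : ℕ) < m then a i else 0) • e (K i) =
          ∑ i ∈ range m, a i • e (κ i) := by
    intro κ h1 h2
    have hlt : ∀ i : Fin M, (if (i : ℕ) < m then κ i else N' + i) < N := by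
      intro i
      have := i.2
      split_ifs with h
      · have := h2 _ h; omega
      · omega
    refine ⟨fun i => ⟨if (i : ℕ) < m then κ i else N' + i, hlt i⟩, ?_, ?_⟩
    · intro i j hij
      have hij' : (i : ℕ) < j := hij
      change (if (i : ℕ) < m then κ i else N' + i) < if (j : ℕ) < m then κ j else N' + j
      by_cases hj : (j : ℕ) < m
      · rw [if_pos hj, if_pos (hij'.trans hj)]
        exact h1 _ _ hij' hj
      · rw [if_neg hj]
        by_cases hi : (i : ℕ) < m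
        · rw [if_pos hi]
          have := h2 _ hi
          omega
        · rw [if_neg hi]
          omega
    · change ∑ i : Fin M, (if (i : ℕ) < m then a i else 0) •
        e (if (i : ℕ) < m then κ i else N' + i) = _
      rw [Fin.sum_univ_eq_sum_range (fun i : ℕ => (if i < m then a i else 0) •
        e (if i < m then κ i else N' + i)) M]
      rw [← sum_subset (range_mono hm)]
      · refine sum_congr rfl fun i hi => ?_
        rw [if_pos (mem_range.1 hi), if_pos (mem_range.1 hi)]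
      · intro i _ hi
        rw [mem_range] at hi
        rw [if_neg hi, zero_smul]
  obtain ⟨K, hK, hKs⟩ := key κ h1 h2
  obtain ⟨K', hK', hKs'⟩ := key κ' h1' h2'
  have h := hs (fun i => if (i : ℕ) < m then a i else 0) K K' hK hK'
  rw [hKs, hKs'] at h
  have e : ∑ i : Fin M, |if (i : ℕ) < m then a i else 0| = ∑ i ∈ range m, |a i| := by
    rw [Fin.sum_univ_eq_sum_range (fun i : ℕ => |if i < m then a i else 0|) M]
    rw [← sum_subset (range_mono hm)]
    · refine sum_congr rfl fun i hi => ?_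
      rw [if_pos (mem_range.1 hi)]
    · intro i _ hi
      rw [mem_range] at hi
      rw [if_neg hi, abs_zero]
  rw [e] at h
  exact h

lemma sum_div_block (c : ℕ → ℝ) {b : ℕ} (hb : 0 < b) (m : ℕ) :
    ∑ j ∈ range (m * b), |c (j / b) / b| = ∑ i ∈ range m, |c i| := by
  rw [← sum_blocks (fun i _ => |c i / b|) m hb]
  refine sum_congr rfl fun i _ => ?_
  rw [sum_const, card_range, nsmul_eq_mul, abs_div, Nat.abs_cast]
  have : (b : ℝ) ≠ 0 := by positivity
  field_simp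

lemma win_blk {θ : ℝ} {N1 : ℕ} {e : ℕ → V}
    (hw : ∀ (a : ℕ → ℝ) (A B : ℕ), A ≤ B → B ≤ N1 → (∀ i ∈ Ico A B, a i ≤ 0) →
      θ * ∑ i ∈ Ico A B, |a i| ≤ ‖∑ i ∈ range N1, a i • e i‖)
    {b : ℕ} (hb : 0 < b) {m : ℕ} (hm : m * b ≤ N1) (c : ℕ → ℝ) {A B : ℕ} (hAB : A ≤ B)
    (hB : B ≤ m) (hc : ∀ i ∈ Ico A B, c i ≤ 0) :
    θ * ∑ i ∈ Ico A B, |c i| ≤ ‖∑ i ∈ range m, c i • blk e b i‖ := by
  have hBm : B * b ≤ m * b := Nat.mul_le_mul_right b hB
  have h := hw (fun j => if j < m * b then c (j / b) / b else 0) (A * b) (B * b)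
    (Nat.mul_le_mul_right b hAB) (hBm.trans hm) (by
      intro j hj
      rw [mem_Ico] at hj
      have hjm : j < m * b := hj.2.trans_le hBm
      simp only [if_pos hjm]
      have h1 : A ≤ j / b := (Nat.le_div_iff_mul_le hb).2 hj.1
      have h2 : j / b < B := Nat.div_lt_of_lt_mul (by rw [mul_comm]; exact hj.2)
      exact div_nonpos_of_nonpos_of_nonneg (hc _ (mem_Ico.2 ⟨h1, h2⟩)) (Nat.cast_nonneg b))
  have e1 : ∑ j ∈ Ico (A * b) (B * b), |if j < m * b then c (j / b) / b else 0| =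
      ∑ i ∈ Ico A B, |c i| := by
    have : ∑ j ∈ Ico (A * b) (B * b), |if j < m * b then c (j / b) / b else 0| =
        ∑ j ∈ Ico (A * b) (B * b), |c (j / b) / b| := by
      refine sum_congr rfl fun j hj => ?_
      rw [if_pos ((mem_Ico.1 hj).2.trans_le hBm)]
    rw [this, sum_Ico_eq_sub _ (Nat.mul_le_mul_right b hAB), sum_Ico_eq_sub _ hAB,
      sum_div_block c hb, sum_div_block c hb]
  have e2 : ∑ j ∈ range N1, (if j < m * b then c (j / b) / b else 0) • e j =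
      ∑ i ∈ range m, c i • blk e b i := by
    have h3 := sum_blk e hb m c (fun i => i)
    rw [h3, ← sum_subset (range_mono hm)]
    · refine sum_congr rfl fun j hj => ?_
      rw [if_pos (mem_range.1 hj), Nat.div_add_mod']
    · intro j _ hj
      rw [mem_range] at hj
      rw [if_neg hj, zero_smul]
  rw [e1, e2] at h
  exact h

lemma neg_one_pow_abs (k : ℕ) : |(-1 : ℝ) ^ k| = 1 := by rw [abs_pow, abs_neg, abs_one, one_pow]

/-- the norm of an alternating sum of block averages -/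
noncomputable def alt (e : ℕ → V) (r b : ℕ) : ℝ :=
  ‖∑ i ∈ range (2 * r), ((-1 : ℝ) ^ (i + 1)) • blk e b i‖

lemma alt_le {e : ℕ → V} (he : ∀ i, ‖e i‖ ≤ 1) (r : ℕ) {b : ℕ} (hb : 0 < b) :
    alt e r b ≤ 2 * r := by
  unfold alt
  refine (norm_sum_le _ _).trans ?_
  have h : ∀ i ∈ range (2 * r), ‖((-1 : ℝ) ^ (i + 1)) • blk e b i‖ ≤ 1 := by
    intro i _
    rw [norm_smul, Real.norm_eq_abs, neg_one_pow_abs, one_mul]
    exact norm_blk_le he hb i
  refine (sum_le_sum h).trans ?_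
  rw [sum_const, card_range, nsmul_eq_mul, mul_one]
  push_cast
  exact le_rfl

lemma le_alt {θ : ℝ} {N1 : ℕ} {e : ℕ → V}
    (hw : ∀ (a : ℕ → ℝ) (A B : ℕ), A ≤ B → B ≤ N1 → (∀ i ∈ Ico A B, a i ≤ 0) →
      θ * ∑ i ∈ Ico A B, |a i| ≤ ‖∑ i ∈ range N1, a i • e i‖)
    {r b : ℕ} (hr : 1 ≤ r) (hb : 0 < b) (hm : 2 * r * b ≤ N1) : θ ≤ alt e r b := by
  have h := win_blk hw hb hm (fun i => (-1 : ℝ) ^ (i + 1)) (A := 0) (B := 1) (by omega) (by omega)
    (by
      intro i hi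
      have : i = 0 := by
        have := (mem_Ico.1 hi).2
        omega
      subst this
      norm_num)
  rw [Nat.Ico_zero_eq_range] at h
  simpa [alt] using h

lemma exists_scale {θ : ℝ} (al : ℕ → ℝ) (kmax : ℕ) {C : ℝ} (h0 : al 0 ≤ C)
    (hθ : θ ≤ al (kmax + 1)) (hC : C < θ * 2 ^ (kmax + 1)) :
    ∃ k ≤ kmax, al k / 2 ≤ al (k + 1) := by
  by_contra hcon
  push Not at hcon
  have h : ∀ k ≤ kmax + 1, al k ≤ C / 2 ^ k := by
    intro k
    induction k with
    | zero => intro _; simpa using h0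
    | succ k ih =>
      intro hk
      have h1 := hcon k (by omega)
      have h2 := ih (by omega)
      refine h1.le.trans ?_
      rw [pow_succ, ← div_div]
      linarith
  have h1 := h (kmax + 1) le_rfl
  rw [le_div_iff₀ (by positivity)] at h1
  have h2 : θ * 2 ^ (kmax + 1) ≤ al (kmax + 1) * 2 ^ (kmax + 1) :=
    mul_le_mul_of_nonneg_right hθ (by positivity)
  linarith

theorem block_abs {p θ ε : ℝ} (hp : 1 ≤ p) (hθ : 0 < θ) {T r N kmax M1 N1 : ℕ} (hT : 1 ≤ T)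
    (hr : 1 ≤ r) (hk : (2 * r : ℝ) < θ * 2 ^ (kmax + 1)) (hM1 : 2 * r * T ^ (kmax + 1) ≤ M1)
    (hN1 : N * T ^ kmax + M1 + M1 ≤ N1) (hε : ε * (2 * r) ^ p = (θ / 4) ^ p)
    {e : ℕ → V} (he : ∀ i, ‖e i‖ ≤ 1)
    (hw : ∀ (a : ℕ → ℝ) (A B : ℕ), A ≤ B → B ≤ N1 → (∀ i ∈ Ico A B, a i ≤ 0) →
      θ * ∑ i ∈ Ico A B, |a i| ≤ ‖∑ i ∈ range N1, a i • e i‖)
    (hs : ∀ (a : Fin M1 → ℝ) (κ κ' : Fin M1 → Fin N1), StrictMono κ → StrictMono κ' →
      |‖∑ i, a i • e (κ i)‖ ^ p - ‖∑ i, a i • e (κ' i)‖ ^ p| ≤ ε * (∑ i, |a i|) ^ p) :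
    ∃ (u : ℕ → V) (a : ℝ), 0 < a ∧ (∀ i, ‖u i‖ ≤ 1) ∧
      (∀ (D : ℕ → ℝ) (A B : ℕ), A ≤ B → B ≤ N → (∀ i ∈ Ico A B, D i ≤ 0) →
        θ * ∑ i ∈ Ico A B, |D i| ≤ ‖∑ i ∈ range N, D i • u i‖) ∧
      (∀ κ : ℕ → ℕ, (∀ i j, i < j → j < 2 * r → κ i < κ j) → (∀ i, i < 2 * r → κ i < N) →
        ‖∑ i ∈ range (2 * r), ((-1 : ℝ) ^ (i + 1)) • u (κ i)‖ ≤ 2 * a) ∧
      (∀ κ : ℕ → ℕ, (∀ i j, i < j → j < 2 * r * T → κ i < κ j) →
        (∀ i, i < 2 * r * T → κ i < N) →
        T * a / 4 ≤ ‖∑ i ∈ range (2 * r * T), ((-1 : ℝ) ^ (i / T + 1)) • u (κ i)‖) := by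
  have hTpos : 0 < T := hT
  have hpow : ∀ k, 0 < T ^ k := fun k => pow_pos hTpos k
  have hmonopow : ∀ {k l}, k ≤ l → T ^ k ≤ T ^ l := fun h => Nat.pow_le_pow_right hTpos h
  have hMN : M1 ≤ N1 := by omega
  have halt : ∀ k ≤ kmax + 1, θ ≤ alt e r (T ^ k) := by
    intro k hk
    refine le_alt hw hr (hpow k) ?_
    exact ((Nat.mul_le_mul_left (2 * r) (hmonopow hk)).trans hM1).trans hMN
  obtain ⟨k, hkk, hk2⟩ := exists_scale (θ := θ) (fun k => alt e r (T ^ k)) kmax (C := 2 * r)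
    (alt_le he r (hpow 0)) (halt _ le_rfl) hk
  set b := T ^ k with hb
  have hb0 : 0 < b := hpow k
  have hbmax : b ≤ T ^ kmax := hmonopow hkk
  have hNb : N * b ≤ N * T ^ kmax := Nat.mul_le_mul_left N hbmax
  have hTb : T ^ (k + 1) = b * T := by rw [pow_succ]
  have hrb : 2 * r * b ≤ M1 := (Nat.mul_le_mul_left (2 * r)
    ((hmonopow (by omega : k ≤ kmax + 1)))).trans hM1
  have hrTb : 2 * r * T * b ≤ M1 := by
    have h1 : 2 * r * T * b = 2 * r * T ^ (k + 1) := by rw [hTb]; ring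
    rw [h1]
    exact (Nat.mul_le_mul_left (2 * r) (hmonopow (by omega : k + 1 ≤ kmax + 1))).trans hM1
  have hα : θ ≤ alt e r b := halt k (by omega)
  have hα0 : 0 < alt e r b := hθ.trans_le hα
  refine ⟨blk e b, alt e r b, hα0, norm_blk_le he hb0, ?_, ?_, ?_⟩
  · intro D A B hAB hB hD
    exact win_blk hw hb0 (by omega) D hAB hB hD
  · intro κ h1 h2
    have h3 := spread_short hs (m := 2 * r * b) hrb (N' := N * b + M1) (by omega)
      (fun j => (-1 : ℝ) ^ (j / b + 1) / b) (fun j => κ (j / b) * b + j % b) (fun j => j)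
      (fun i j hij hj => block_strict hb0 h1 hij hj)
      (fun j hj => (block_lt hb0 h2 hj).trans_le (by omega))
      (fun i j hij _ => hij) (fun j hj => by omega)
    have e1 := sum_blk e hb0 (2 * r) (fun i => (-1 : ℝ) ^ (i + 1)) κ
    have e2 := sum_blk e hb0 (2 * r) (fun i => (-1 : ℝ) ^ (i + 1)) (fun i => i)
    have e2' : ∑ j ∈ range (2 * r * b), ((-1 : ℝ) ^ (j / b + 1) / b) • e j =
        ∑ i ∈ range (2 * r), ((-1 : ℝ) ^ (i + 1)) • blk e b i := by
      rw [e2]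
      refine sum_congr rfl fun j _ => ?_
      rw [Nat.div_add_mod']
    have e3 := sum_div_block (fun i => (-1 : ℝ) ^ (i + 1)) hb0 (2 * r)
    simp only [neg_one_pow_abs, sum_const, card_range, nsmul_eq_mul, mul_one] at e3
    rw [e2', ← e1, e3] at h3
    push_cast at h3
    rw [hε] at h3
    change |‖∑ i ∈ range (2 * r), ((-1 : ℝ) ^ (i + 1)) • blk e b (κ i)‖ ^ p - alt e r b ^ p| ≤ _
      at h3
    have h4 := (abs_le.1 h3).2
    have h5 : (θ / 4) ^ p ≤ alt e r b ^ p :=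
      Real.rpow_le_rpow (by positivity) (by linarith) (by linarith)
    have h6 : 2 * alt e r b ^ p ≤ (2 * alt e r b) ^ p := by
      rw [Real.mul_rpow (by norm_num) hα0.le]
      have : (2 : ℝ) ≤ 2 ^ p := by
        calc (2 : ℝ) = 2 ^ (1 : ℝ) := (Real.rpow_one 2).symm
          _ ≤ 2 ^ p := Real.rpow_le_rpow_of_exponent_le (by norm_num) hp
      exact mul_le_mul_of_nonneg_right this (by positivity)
    have h7 : ‖∑ i ∈ range (2 * r), ((-1 : ℝ) ^ (i + 1)) • blk e b (κ i)‖ ^ p ≤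
        (2 * alt e r b) ^ p := by linarith
    exact (Real.rpow_le_rpow_iff (norm_nonneg _) (by positivity) (by linarith)).1 h7
  · intro κ h1 h2
    have h3 := spread_short hs (m := 2 * r * T * b) hrTb (N' := N * b + M1) (by omega)
      (fun j => (-1 : ℝ) ^ (j / b / T + 1) / b) (fun j => κ (j / b) * b + j % b) (fun j => j)
      (fun i j hij hj => block_strict hb0 h1 hij hj)
      (fun j hj => (block_lt hb0 h2 hj).trans_le (by omega))
      (fun i j hij _ => hij) (fun j hj => by omega)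
    have e1 := sum_blk e hb0 (2 * r * T) (fun i => (-1 : ℝ) ^ (i / T + 1)) κ
    have hbT : 0 < b * T := Nat.mul_pos hb0 hTpos
    have e2 := sum_blk e hbT (2 * r) (fun i => (-1 : ℝ) ^ (i + 1)) (fun i => i)
    have e2' : ∑ j ∈ range (2 * r * T * b), ((-1 : ℝ) ^ (j / b / T + 1) / b) • e j =
        (T : ℝ) • ∑ i ∈ range (2 * r), ((-1 : ℝ) ^ (i + 1)) • blk e (b * T) i := by
      rw [e2, smul_sum]
      have : 2 * r * T * b = 2 * r * (b * T) := by ring
      rw [this]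
      refine sum_congr rfl fun j _ => ?_
      rw [Nat.div_add_mod', Nat.div_div_eq_div_mul, smul_smul]
      congr 1
      push_cast
      have hbr : (b : ℝ) ≠ 0 := by positivity
      have hTr : (T : ℝ) ≠ 0 := by positivity
      field_simp
    have e3 := sum_div_block (fun i => (-1 : ℝ) ^ (i / T + 1)) hb0 (2 * r * T)
    simp only [neg_one_pow_abs, sum_const, card_range, nsmul_eq_mul, mul_one] at e3
    rw [e2', ← e1, e3, norm_smul, Real.norm_of_nonneg (Nat.cast_nonneg T)] at h3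
    have hk2' : alt e r b / 2 ≤ alt e r (b * T) := by rw [← hTb]; exact hk2
    change |‖∑ i ∈ range (2 * r * T), ((-1 : ℝ) ^ (i / T + 1)) • blk e b (κ i)‖ ^ p -
      ((T : ℝ) * alt e r (b * T)) ^ p| ≤ _ at h3
    have hTr : (0 : ℝ) < T := by exact_mod_cast hTpos
    have e4 : ε * ((2 * r * T : ℕ) : ℝ) ^ p = (T : ℝ) ^ p * (θ / 4) ^ p := by
      push_cast
      rw [Real.mul_rpow (by positivity) hTr.le, ← hε]
      ring
    rw [e4] at h3
    have h4 := (abs_le.1 h3).1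
    have h5 : (θ / 4) ^ p ≤ (alt e r b / 4) ^ p :=
      Real.rpow_le_rpow (by positivity) (by linarith) (by linarith)
    have h6 : 2 * (alt e r b / 4) ^ p ≤ (alt e r b / 2) ^ p := by
      have : alt e r b / 2 = 2 * (alt e r b / 4) := by ring
      rw [this, Real.mul_rpow (by norm_num) (by positivity)]
      have : (2 : ℝ) ≤ 2 ^ p := by
        calc (2 : ℝ) = 2 ^ (1 : ℝ) := (Real.rpow_one 2).symm
          _ ≤ 2 ^ p := Real.rpow_le_rpow_of_exponent_le (by norm_num) hp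
      exact mul_le_mul_of_nonneg_right this (by positivity)
    have h7 : (alt e r b / 2) ^ p ≤ alt e r (b * T) ^ p :=
      Real.rpow_le_rpow (by positivity) hk2' (by linarith)
    have h8 : ((T : ℝ) * alt e r (b * T)) ^ p = (T : ℝ) ^ p * alt e r (b * T) ^ p :=
      Real.mul_rpow hTr.le (norm_nonneg _)
    rw [h8] at h4
    have h9 : (T : ℝ) ^ p * (alt e r b / 4) ^ p ≤
        ‖∑ i ∈ range (2 * r * T), ((-1 : ℝ) ^ (i / T + 1)) • blk e b (κ i)‖ ^ p := by
      have hTp : 0 < (T : ℝ) ^ p := Real.rpow_pos_of_pos hTr p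
      have : (T : ℝ) ^ p * (alt e r b / 4) ^ p ≤
          (T : ℝ) ^ p * (alt e r (b * T) ^ p - (θ / 4) ^ p) :=
        mul_le_mul_of_nonneg_left (by linarith) hTp.le
      linarith
    rw [← Real.mul_rpow hTr.le (by positivity)] at h9
    have := (Real.rpow_le_rpow_iff (by positivity) (norm_nonneg _) (by linarith)).1 h9
    linarith

end

end Vale.Agent.P125
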