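import Vale.Agent.P125.Defs

open scoped BigOperators

namespace Vale.Agent.P125

namespace Spread

def val {n : ℕ} (b : ℕ) (d : Fin n → ℕ) : ℕ := ∑ q : Fin n, d q * b ^ (q : ℕ)

theorem low_lt (b p : ℕ) (d : ℕ → ℕ) (hd : ∀ q, q < p → d q < b) :
    ∑ q ∈ Finset.range p, d q * b ^ q < b ^ p := by
  induction p with
  | zero => simp
  | succ p ih =>
    rw [Finset.sum_range_succ, pow_succ]
    have h1 := ih (fun q hq => hd q (hq.trans p.lt_succ_self))
    have h2 : d p + 1 ≤ b := hd p p.lt_succ_self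
    calc ∑ q ∈ Finset.range p, d q * b ^ q + d p * b ^ p < b ^ p + d p * b ^ p := by omega
      _ = (d p + 1) * b ^ p := by ring
      _ ≤ b * b ^ p := Nat.mul_le_mul_right _ h2
      _ = b ^ p * b := mul_comm _ _

theorem val_eq {n : ℕ} (b : ℕ) (d : Fin n → ℕ) :
    val b d = ∑ q ∈ Finset.range n, (if h : q < n then d ⟨q, h⟩ else 0) * b ^ q := by
  rw [val, Finset.sum_range]
  refine Finset.sum_congr rfl fun q _ => ?_
  simp

theorem val_lt_pow {n : ℕ} (b : ℕ) (d : Fin n → ℕ) (hd : ∀ q, d q < b) : val b d < b ^ n := by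
  rw [val_eq]
  refine low_lt b n _ fun q hq => ?_
  simp only [dif_pos hq]
  exact hd _

theorem val_lt {n : ℕ} (b : ℕ) (d d' : Fin n → ℕ) (p : Fin n) (hd : ∀ q, d q < b)
    (hp : d p < d' p) (hag : ∀ q, p < q → d q = d' q) : val b d < val b d' := by
  rw [val_eq, val_eq]
  set e : ℕ → ℕ := fun q => if h : q < n then d ⟨q, h⟩ else 0 with he
  set e' : ℕ → ℕ := fun q => if h : q < n then d' ⟨q, h⟩ else 0 with he'
  have hpn : (p : ℕ) + 1 ≤ n := p.2
  have hs : ∀ f : ℕ → ℕ, ∑ q ∈ Finset.range n, f q * b ^ q =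
      ∑ q ∈ Finset.range (p : ℕ), f q * b ^ q + f p * b ^ (p : ℕ) +
        ∑ q ∈ Finset.Ico ((p : ℕ) + 1) n, f q * b ^ q := by
    intro f
    rw [← Finset.sum_range_succ, Finset.sum_range_add_sum_Ico _ hpn]
  change ∑ q ∈ Finset.range n, e q * b ^ q < ∑ q ∈ Finset.range n, e' q * b ^ q
  rw [hs e, hs e']
  have h1 : ∑ q ∈ Finset.Ico ((p : ℕ) + 1) n, e q * b ^ q =
      ∑ q ∈ Finset.Ico ((p : ℕ) + 1) n, e' q * b ^ q := by
    refine Finset.sum_congr rfl fun q hq => ?_
    rw [Finset.mem_Ico] at hq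
    have : e q = e' q := by
      simp only [he, he', dif_pos hq.2]
      exact hag ⟨q, hq.2⟩ (Fin.lt_def.2 hq.1)
    rw [this]
  have h2 : ∑ q ∈ Finset.range (p : ℕ), e q * b ^ q < b ^ (p : ℕ) := by
    refine low_lt b p e fun q hq => ?_
    simp only [he, dif_pos (hq.trans p.2)]
    exact hd _
  have h3 : e p + 1 ≤ e' p := by
    simp only [he, he', dif_pos p.2]
    exact hp
  have h4 : (e p + 1) * b ^ (p : ℕ) ≤ e' p * b ^ (p : ℕ) := Nat.mul_le_mul_right _ h3
  have h5 : (e p + 1) * b ^ (p : ℕ) = e p * b ^ (p : ℕ) + b ^ (p : ℕ) := by ring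
  rw [h1]
  omega

def mix {n B : ℕ} (a : ℕ) (Z y : Fin n → Fin B) : Fin n → ℕ := fun q =>
  if (q : ℕ) < a then y q else if (q : ℕ) = a then (Z q : ℕ) + 1 else Z q

theorem mix_lt {n B : ℕ} (a : ℕ) (Z y : Fin n → Fin B) (q : Fin n) : mix a Z y q < B + 1 := by
  have h1 := (y q).2
  have h2 := (Z q).2
  unfold mix
  split_ifs <;> omega

theorem val_mix_lt {n B : ℕ} {a a' : ℕ} (haa : a < a') (ha' : a' < n) (Z y y' : Fin n → Fin B) :
    val (B + 1) (mix a Z y) < val (B + 1) (mix a' Z y') := by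
  refine val_lt (B + 1) _ _ ⟨a', ha'⟩ (mix_lt a Z y) ?_ ?_
  · unfold mix
    simp [haa.ne', haa.not_gt]
  · intro q hq
    have hq' : a' < (q : ℕ) := hq
    unfold mix
    rw [if_neg (by omega), if_neg (by omega), if_neg (by omega), if_neg (by omega)]

abbrev Rnd (n B : ℕ) : Type := (Fin n → Fin B) × (Fin n → Fin n → Fin B)

def gfun {n B : ℕ} (r : Rnd n B) (a : ℕ) : ℕ :=
  if h : a < n then val (B + 1) (mix a r.1 (r.2 ⟨a, h⟩)) else 0

theorem gfun_lt {n B : ℕ} (r : Rnd n B) {a a' : ℕ} (haa : a < a') (ha' : a' < n) :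
    gfun r a < gfun r a' := by
  unfold gfun
  rw [dif_pos (haa.trans ha'), dif_pos ha']
  exact val_mix_lt haa ha' _ _ _

theorem gfun_lt_pow {n B : ℕ} (r : Rnd n B) (a : ℕ) : gfun r a < (B + 1) ^ n := by
  unfold gfun
  split_ifs with h
  · exact val_lt_pow _ _ (mix_lt _ _ _)
  · positivity

def swapFun {n B : ℕ} (a : Fin n) (r : Rnd n B) : Rnd n B :=
  (fun q => if q < a then r.2 a q else r.1 q,
    Function.update r.2 a (fun q => if q < a then r.1 q else r.2 a q))

theorem swap_invol {n B : ℕ} (a : Fin n) : Function.Involutive (swapFun (B := B) a) := by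
  intro r
  unfold swapFun
  refine Prod.ext ?_ ?_
  · funext q
    simp only [Function.update_self]
    split_ifs <;> rfl
  · simp only [Function.update_self, Function.update_idem]
    funext i
    by_cases hi : i = a
    · subst hi
      simp only [Function.update_self]
      funext q
      split_ifs <;> rfl
    · rw [Function.update_of_ne hi]

theorem tele {B : ℕ} (k : ℕ → ℝ) (h0 : ∀ i, 0 ≤ k i) (h1 : ∀ i, k i ≤ 1) :
    |∑ v : Fin B, (k ((v : ℕ) + 1) - k v)| ≤ 1 := by
  have : ∑ v : Fin B, (k ((v : ℕ) + 1) - k v) = k B - k 0 := by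
    rw [← Finset.sum_range_sub k B, Finset.sum_range]
  rw [this, abs_le]
  have a1 := h0 B
  have a2 := h1 B
  have a3 := h0 0
  have a4 := h1 0
  constructor <;> linarith

theorem shift_le {n B : ℕ} (hB : 0 < B) (a : Fin n) (h : (Fin n → Fin B) → ℕ → ℝ)
    (h0 : ∀ Z i, 0 ≤ h Z i) (h1 : ∀ Z i, h Z i ≤ 1)
    (hind : ∀ Z v i, h (Function.update Z a v) i = h Z i) :
    |∑ Z : Fin n → Fin B, (h Z ((Z a : ℕ) + 1) - h Z (Z a))| ≤
      (Fintype.card (Fin n → Fin B) : ℝ) / B := by
  classical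
  rw [← Equiv.sum_comp (Equiv.funSplitAt a (Fin B)).symm, Fintype.sum_prod_type,
    Finset.sum_comm]
  have hcard : (Fintype.card (Fin n → Fin B) : ℝ) =
      B * Fintype.card ({j // j ≠ a} → Fin B) := by
    rw [Fintype.card_congr (Equiv.funSplitAt a (Fin B)), Fintype.card_prod, Fintype.card_fin]
    push_cast
    ring
  have hB' : (B : ℝ) ≠ 0 := by positivity
  rw [hcard, mul_div_assoc, mul_div_assoc', mul_div_cancel_left₀ _ hB']
  refine (Finset.abs_sum_le_sum_abs _ _).trans ?_
  have : (Fintype.card ({j // j ≠ a} → Fin B) : ℝ) = ∑ R : ({j // j ≠ a} → Fin B), (1 : ℝ) := by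
    simp
  rw [this]
  refine Finset.sum_le_sum fun R _ => ?_
  set Z0 : Fin n → Fin B := (Equiv.funSplitAt a (Fin B)).symm (⟨0, hB⟩, R) with hZ0
  have hZ : ∀ v, (Equiv.funSplitAt a (Fin B)).symm (v, R) = Function.update Z0 a v := by
    intro v
    funext j
    by_cases hj : j = a
    · subst hj
      simp [Equiv.funSplitAt, Equiv.piSplitAt]
    · rw [Function.update_of_ne hj, hZ0]
      simp [Equiv.funSplitAt, Equiv.piSplitAt, hj]
  simp only [hZ, hind, Function.update_self]
  exact tele (h Z0) (h0 Z0) (h1 Z0)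


theorem gfun_swap_self {n B : ℕ} (a : Fin n) (r : Rnd n B) :
    gfun (swapFun a r) a = val (B + 1) (fun q => if q = a then (r.1 a : ℕ) + 1 else (r.1 q : ℕ)) := by
  unfold gfun
  rw [dif_pos a.2]
  congr 1
  funext q
  simp only [swapFun, Fin.eta, Function.update_self, mix]
  by_cases hq : (q : ℕ) < a
  · have hq' : q < a := hq
    have hne : q ≠ a := ne_of_lt hq'
    rw [if_pos hq, if_pos hq', if_neg hne]
  · by_cases hqa : q = a
    · subst hqa
      simp
    · have h1 : (q : ℕ) ≠ a := fun h => hqa (Fin.ext h)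
      have h2 : ¬ q < a := hq
      rw [if_neg hq, if_neg h1, if_neg h2, if_neg hqa]

theorem gfun_swap_of_gt {n B : ℕ} (a : Fin n) (r : Rnd n B) (s : ℕ) (hs : (a : ℕ) < s) :
    gfun (swapFun a r) s = gfun r s := by
  unfold gfun
  split_ifs with h
  · congr 1
    funext q
    have hne : (⟨s, h⟩ : Fin n) ≠ a := by
      intro h'
      rw [← h'] at hs
      exact lt_irrefl _ hs
    simp only [swapFun, Function.update_of_ne hne, mix]
    by_cases hq : (q : ℕ) < s
    · rw [if_pos hq, if_pos hq]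
    · have h2 : ¬ q < a := by
        intro h'
        have : (q : ℕ) < a := h'
        omega
      rw [if_neg hq, if_neg hq, if_neg h2]
  · rfl

theorem gfun_update_of_gt {n B : ℕ} (a : Fin n) (Z : Fin n → Fin B) (Y : Fin n → Fin n → Fin B)
    (v : Fin B) (s : ℕ) (hs : (a : ℕ) < s) :
    gfun (Function.update Z a v, Y) s = gfun (Z, Y) s := by
  unfold gfun
  split_ifs with h
  · congr 1
    funext q
    simp only [mix]
    by_cases hq : (q : ℕ) < s
    · rw [if_pos hq, if_pos hq]
    · have h2 : q ≠ a := by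
        rintro rfl
        exact hq hs
      rw [if_neg hq, if_neg hq, Function.update_of_ne h2]
  · rfl

noncomputable def can {M : ℕ} (n B : ℕ) (F : (Fin (M + 1) → ℕ) → ℝ) (s : Fin M → ℕ) : ℝ :=
  (∑ r : Rnd n B, F (Fin.cons (val (B + 1) (fun q => (r.1 q : ℕ))) (fun i => gfun r (s i)))) /
    Fintype.card (Rnd n B)

theorem approx {M n B : ℕ} (hB : 0 < B) (F : (Fin (M + 1) → ℕ) → ℝ) (h0 : ∀ s, 0 ≤ F s)
    (h1 : ∀ s, F s ≤ 1) (s : Fin (M + 1) → ℕ) (hs : StrictMono s) (hn : s 0 < n) :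
    |(∑ r : Rnd n B, F (fun i => gfun r (s i))) / Fintype.card (Rnd n B) -
      can n B F (fun i => s i.succ)| ≤ 1 / B := by
  classical
  have : NeZero B := ⟨hB.ne'⟩
  set a : Fin n := ⟨s 0, hn⟩ with ha
  have has : ∀ i : Fin M, (a : ℕ) < s i.succ := fun i => hs (Fin.succ_pos i)
  have hcons : ∀ r : Rnd n B, (fun i => gfun r (s i)) =
      (Fin.cons (gfun r (a : ℕ)) (fun i : Fin M => gfun r (s i.succ)) : Fin (M + 1) → ℕ) := by
    intro r
    funext i
    refine Fin.cases ?_ (fun i => ?_) i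
    · simp [ha]
    · simp
  have e1 : ∑ r : Rnd n B, F (fun i => gfun r (s i)) =
      ∑ r : Rnd n B, F (Fin.cons (val (B + 1)
        (fun q => if q = a then (r.1 a : ℕ) + 1 else (r.1 q : ℕ)))
        (fun i => gfun r (s i.succ))) := by
    rw [← Equiv.sum_comp (swap_invol (B := B) a).toPerm]
    refine Finset.sum_congr rfl fun r _ => ?_
    rw [hcons]
    change F (Fin.cons (gfun (swapFun a r) (a : ℕ))
      (fun i : Fin M => gfun (swapFun a r) (s i.succ))) = _
    rw [gfun_swap_self]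
    congr 2
    funext i
    exact gfun_swap_of_gt a r _ (has i)
  have hcardpos : (0 : ℝ) < Fintype.card (Rnd n B) := by
    exact_mod_cast Fintype.card_pos
  unfold can
  rw [e1, ← sub_div, abs_div, abs_of_pos hcardpos, div_le_iff₀ hcardpos, ← Finset.sum_sub_distrib,
    Fintype.sum_prod_type_right]
  refine (Finset.abs_sum_le_sum_abs _ _).trans ?_
  have hc : (Fintype.card (Rnd n B) : ℝ) =
      ∑ Y : Fin n → Fin n → Fin B, (Fintype.card (Fin n → Fin B) : ℝ) := by
    rw [Finset.sum_const, nsmul_eq_mul, Finset.card_univ, Fintype.card_prod]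
    push_cast
    ring
  rw [hc, Finset.mul_sum]
  refine Finset.sum_le_sum fun Y _ => ?_
  have key := shift_le hB a (fun Z v => F (Fin.cons (val (B + 1)
      (fun q => if q = a then v else (Z q : ℕ))) (fun i : Fin M => gfun (Z, Y) (s i.succ))))
    (fun Z v => h0 _) (fun Z v => h1 _) (by
      intro Z v i
      congr 2
      · congr 1
        funext q
        by_cases hq : q = a
        · rw [if_pos hq, if_pos hq]
        · rw [if_neg hq, if_neg hq, Function.update_of_ne hq]
      · funext j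
        exact gfun_update_of_gt a Z Y v _ (has j))
  rw [one_div, inv_mul_eq_div]
  refine le_trans (le_of_eq ?_) key
  congr 1
  refine Finset.sum_congr rfl fun Z _ => ?_
  congr 3
  congr 1
  funext q
  by_cases hq : q = a
  · subst hq
    simp
  · rw [if_neg hq]

end Spread

theorem spread (M L : ℕ) (ε : ℝ) (hε : 0 < ε) : ∃ (Ω : Type) (_ : Fintype Ω) (_ : Nonempty Ω)
    (N : ℕ) (c : Ω → Fin L → ℕ), (∀ ω, StrictMono (c ω)) ∧ (∀ ω i, c ω i < N) ∧
    ∀ (κ κ' : Fin M → Fin L), StrictMono κ → StrictMono κ' →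
    ∀ F : (Fin M → ℕ) → ℝ, (∀ s, 0 ≤ F s) → (∀ s, F s ≤ 1) →
    |(∑ ω, F (fun i => c ω (κ i))) / Fintype.card Ω -
      (∑ ω, F (fun i => c ω (κ' i))) / Fintype.card Ω| ≤ ε := by
  classical
  induction M generalizing ε with
  | zero =>
    refine ⟨Unit, inferInstance, inferInstance, L, fun _ i => i, fun _ i j h => h,
      fun _ i => i.2, fun κ κ' _ _ F _ _ => ?_⟩
    have : κ = κ' := Subsingleton.elim _ _
    subst this
    simp [hε.le]
  | succ M ih =>
    obtain ⟨Ω, hΩ, hne, n, t, htm, htn, ht⟩ := ih (ε / 2) (half_pos hε)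
    obtain ⟨B, hB⟩ := exists_nat_gt (4 / ε)
    have hBpos : 0 < B := by
      have : (0 : ℝ) < B := (by positivity : (0 : ℝ) < 4 / ε).trans hB
      exact_mod_cast this
    have hBR : (0 : ℝ) < B := by exact_mod_cast hBpos
    have : NeZero B := ⟨hBpos.ne'⟩
    have h1B : 1 / (B : ℝ) ≤ ε / 4 := by
      rw [div_lt_iff₀ hε] at hB
      rw [div_le_div_iff₀ hBR (by norm_num)]
      linarith
    refine ⟨Ω × Spread.Rnd n B, inferInstance, inferInstance, (B + 1) ^ n,
      fun ω i => Spread.gfun ω.2 (t ω.1 i), ?_, fun ω i => Spread.gfun_lt_pow _ _, ?_⟩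
    · intro ω i j hij
      exact Spread.gfun_lt _ (htm ω.1 hij) (htn ω.1 j)
    · intro κ κ' hκ hκ' F h0 h1
      have hΩpos : (0 : ℝ) < Fintype.card Ω := by exact_mod_cast Fintype.card_pos
      have hRpos : (0 : ℝ) < Fintype.card (Spread.Rnd n B) := by exact_mod_cast Fintype.card_pos
      -- one side
      have side : ∀ k : Fin (M + 1) → Fin L, StrictMono k →
          |(∑ ω : Ω × Spread.Rnd n B, F (fun i => Spread.gfun ω.2 (t ω.1 (k i)))) /
              Fintype.card (Ω × Spread.Rnd n B) -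
            (∑ ω : Ω, Spread.can n B F (fun i => t ω (k i.succ))) / Fintype.card Ω| ≤ ε / 4 := by
        intro k hk
        have e : (∑ ω : Ω × Spread.Rnd n B, F (fun i => Spread.gfun ω.2 (t ω.1 (k i)))) /
              Fintype.card (Ω × Spread.Rnd n B) =
            (∑ ω : Ω, (∑ r : Spread.Rnd n B, F (fun i => Spread.gfun r (t ω (k i)))) /
              Fintype.card (Spread.Rnd n B)) / Fintype.card Ω := by
          rw [Fintype.sum_prod_type, ← Finset.sum_div, div_div, Fintype.card_prod]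
          push_cast
          rw [mul_comm (Fintype.card Ω : ℝ)]
        rw [e, ← sub_div, abs_div, abs_of_pos hΩpos, div_le_iff₀ hΩpos, ← Finset.sum_sub_distrib]
        refine (Finset.abs_sum_le_sum_abs _ _).trans ?_
        have : ε / 4 * (Fintype.card Ω : ℝ) = ∑ ω : Ω, ε / 4 := by
          rw [Finset.sum_const, nsmul_eq_mul, Finset.card_univ, mul_comm]
        rw [this]
        refine Finset.sum_le_sum fun ω _ => ?_
        exact (Spread.approx hBpos F h0 h1 (fun i => t ω (k i)) ((htm ω).comp hk)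
          (htn ω _)).trans h1B
      have hcan0 : ∀ s, 0 ≤ Spread.can n B F s := fun s =>
        div_nonneg (Finset.sum_nonneg fun _ _ => h0 _) hRpos.le
      have hcan1 : ∀ s, Spread.can n B F s ≤ 1 := by
        intro s
        unfold Spread.can
        rw [div_le_one hRpos]
        calc _ ≤ ∑ r : Spread.Rnd n B, (1 : ℝ) := Finset.sum_le_sum fun _ _ => h1 _
          _ = _ := by simp
      have hmid := ht (fun i => κ i.succ) (fun i => κ' i.succ)
        (fun i j h => hκ (Fin.succ_lt_succ_iff.2 h)) (fun i j h => hκ' (Fin.succ_lt_succ_iff.2 h))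
        (Spread.can n B F) hcan0 hcan1
      have s1 := side κ hκ
      have s2 := side κ' hκ'
      rw [abs_le] at s1 s2 hmid ⊢
      constructor <;> linarith [s1.1, s1.2, s2.1, s2.2, hmid.1, hmid.2]

end Vale.Agent.P125
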