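import Vale.Agent.P125.Mart
import Vale.Agent.P125.Spread

open scoped BigOperators

namespace Vale.Agent.P125

universe u

theorem window_push {Y : Type u} [NormedAddCommGroup Y] [NormedSpace ℝ Y] {θ : ℝ} {n N : ℕ}
    {x : ℕ → Y}
    (hx : ∀ (a : ℕ → ℝ) (A B : ℕ), A ≤ B → B ≤ n → (∀ i ∈ Finset.Ico A B, a i ≤ 0) →
      θ * ∑ i ∈ Finset.Ico A B, |a i| ≤ ‖∑ i ∈ Finset.range n, a i • x i‖)
    (c : ℕ → ℕ) (hc : ∀ i j, i < j → j < N → c i < c j) (hn : ∀ i, i < N → c i < n)
    (a : ℕ → ℝ) (A B : ℕ) (hAB : A ≤ B) (hBN : B ≤ N) (ha : ∀ i ∈ Finset.Ico A B, a i ≤ 0) :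
    θ * ∑ i ∈ Finset.Ico A B, |a i| ≤ ‖∑ i ∈ Finset.range N, a i • x (c i)‖ := by
  classical
  rcases hAB.eq_or_lt with rfl | hlt
  · simp
  have hinj : ∀ i j, i < N → j < N → c i = c j → i = j := by
    intro i j hi hj h
    rcases lt_trichotomy i j with h1 | h1 | h1
    · exact absurd h (hc i j h1 hj).ne
    · exact h1
    · exact absurd h.symm (hc j i h1 hi).ne
  have hmono : ∀ i j, i ≤ j → j < N → c i ≤ c j := by
    intro i j hij hj
    rcases hij.eq_or_lt with rfl | h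
    · exact le_rfl
    · exact (hc i j h hj).le
  set b : ℕ → ℝ := fun m => ∑ i ∈ Finset.range N, if c i = m then a i else 0 with hb
  have hbsum : ∑ m ∈ Finset.range n, b m • x m = ∑ i ∈ Finset.range N, a i • x (c i) := by
    simp only [hb, Finset.sum_smul]
    rw [Finset.sum_comm]
    refine Finset.sum_congr rfl fun i hi => ?_
    rw [Finset.sum_eq_single (c i)]
    · simp
    · intro m _ hm
      simp [Ne.symm hm]
    · intro h
      exact absurd (Finset.mem_range.2 (hn i (Finset.mem_range.1 hi))) h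
  obtain ⟨B', hB'n, hAB', hB'⟩ : ∃ B', B' ≤ n ∧ c A ≤ B' ∧
      ∀ i, i < N → (c i < B' ↔ i < B) := by
    rcases lt_or_ge B N with h | h
    · refine ⟨c B, (hn B h).le, (hc A B hlt h).le, fun i hi => ⟨fun h1 => ?_, fun h1 => hc i B h1 h⟩⟩
      by_contra h2
      exact absurd (hmono B i (not_lt.1 h2) hi) (not_le.2 h1)
    · have hBN' : B = N := le_antisymm hBN h
      subst hBN'
      exact ⟨n, le_rfl, (hn A hlt).le, fun i hi => ⟨fun _ => hi, fun _ => hn i hi⟩⟩
  have hA' : ∀ i, i < N → (c A ≤ c i ↔ A ≤ i) := by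
    intro i hi
    refine ⟨fun h1 => ?_, fun h1 => hmono A i h1 hi⟩
    by_contra h2
    exact absurd (hc i A (not_le.1 h2) (lt_of_lt_of_le hlt hBN)) (not_lt.2 h1)
  have hbneg : ∀ m ∈ Finset.Ico (c A) B', b m ≤ 0 := by
    intro m hm
    rw [Finset.mem_Ico] at hm
    refine Finset.sum_nonpos fun i hi => ?_
    split_ifs with h
    · refine ha i ?_
      rw [Finset.mem_Ico]
      have hi' := Finset.mem_range.1 hi
      exact ⟨(hA' i hi').1 (h ▸ hm.1), (hB' i hi').1 (h ▸ hm.2)⟩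
    · exact le_rfl
  have hsum : ∑ m ∈ Finset.Ico (c A) B', |b m| = ∑ i ∈ Finset.Ico A B, |a i| := by
    have e1 : ∑ m ∈ Finset.Ico (c A) B', |b m| = -∑ m ∈ Finset.Ico (c A) B', b m := by
      rw [← Finset.sum_neg_distrib]
      exact Finset.sum_congr rfl fun m hm => abs_of_nonpos (hbneg m hm)
    have e2 : ∑ i ∈ Finset.Ico A B, |a i| = -∑ i ∈ Finset.Ico A B, a i := by
      rw [← Finset.sum_neg_distrib]
      exact Finset.sum_congr rfl fun m hm => abs_of_nonpos (ha m hm)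
    rw [e1, e2]
    congr 1
    simp only [hb]
    rw [Finset.sum_comm]
    have e3 : ∀ i ∈ Finset.range N, (∑ m ∈ Finset.Ico (c A) B', if c i = m then a i else 0) =
        if i ∈ Finset.Ico A B then a i else 0 := by
      intro i hi
      have hi' := Finset.mem_range.1 hi
      rw [Finset.sum_ite_eq]
      have : (c i ∈ Finset.Ico (c A) B') ↔ i ∈ Finset.Ico A B := by
        rw [Finset.mem_Ico, Finset.mem_Ico, hA' i hi', hB' i hi']
      simp only [this]
    rw [Finset.sum_congr rfl e3, Finset.sum_ite_mem]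
    congr 1
    ext i
    simp only [Finset.mem_inter, Finset.mem_range, Finset.mem_Ico]
    constructor
    · exact fun h => h.2
    · exact fun h => ⟨lt_of_lt_of_le h.2 hBN, h⟩
  have := hx b (c A) B' hAB' hB'n hbneg
  rw [hsum, hbsum] at this
  exact this

theorem spreading_vectors {p θ : ℝ} (hp : 1 ≤ p) [Fact (1 ≤ ENNReal.ofReal p)] (M N : ℕ) (ε : ℝ)
    (hε : 0 < ε) : ∃ n : ℕ, ∀ (Y : Type u) [NormedAddCommGroup Y] [NormedSpace ℝ Y],
    WindowSeq Y θ n →
    ∃ (Ω : Type) (_ : Fintype Ω) (_ : Nonempty Ω)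
      (e : ℕ → PiLp (ENNReal.ofReal p) (fun _ : Ω => Y)),
      (∀ i, ‖e i‖ ≤ 1) ∧
      (∀ (a : ℕ → ℝ) (A B : ℕ), A ≤ B → B ≤ N → (∀ i ∈ Finset.Ico A B, a i ≤ 0) →
        θ * ∑ i ∈ Finset.Ico A B, |a i| ≤ ‖∑ i ∈ Finset.range N, a i • e i‖) ∧
      ∀ (a : Fin M → ℝ) (κ κ' : Fin M → Fin N), StrictMono κ → StrictMono κ' →
        |‖∑ i, a i • e (κ i)‖ ^ p - ‖∑ i, a i • e (κ' i)‖ ^ p| ≤ ε * (∑ i, |a i|) ^ p := by
  classical
  obtain ⟨Ω, hΩ, hne, n, c, hcm, hcn, hF⟩ := spread M N ε hε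
  refine ⟨n, fun Y _ _ hY => ?_⟩
  obtain ⟨x, hx1, hx⟩ := hY
  have hp0 : 0 < p := by linarith
  have hcard : (0 : ℝ) < Fintype.card Ω := by exact_mod_cast Fintype.card_pos
  set r : ℝ := (Fintype.card Ω : ℝ) ^ (-(1 / p)) with hr
  have hr0 : 0 ≤ r := Real.rpow_nonneg hcard.le _
  have hrp : r ^ p = (Fintype.card Ω : ℝ)⁻¹ := by
    rw [hr, ← Real.rpow_mul hcard.le]
    have : -(1 / p) * p = -1 := by field_simp
    rw [this, Real.rpow_neg_one]
  let d : Ω → ℕ → ℕ := fun ω i => if h : i < N then c ω ⟨i, h⟩ else 0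
  let e : ℕ → PiLp (ENNReal.ofReal p) (fun _ : Ω => Y) := fun i =>
    WithLp.toLp _ (fun ω => r • x (d ω i))
  have heω : ∀ i ω, e i ω = r • x (d ω i) := fun i ω => rfl
  -- the key norm formula
  have key : ∀ {ι : Type} (s : Finset ι) (a : ι → ℝ) (k : ι → ℕ),
      ‖∑ i ∈ s, a i • e (k i)‖ ^ p =
        (∑ ω, ‖∑ i ∈ s, a i • x (d ω (k i))‖ ^ p) / Fintype.card Ω := by
    intro ι s a k
    rw [pilp_norm_rpow hp, Finset.sum_div]
    refine Finset.sum_congr rfl fun ω _ => ?_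
    have : (∑ i ∈ s, a i • e (k i)) ω = r • ∑ i ∈ s, a i • x (d ω (k i)) := by
      rw [Finset.smul_sum]
      have h1 : (∑ i ∈ s, a i • e (k i)) ω = ∑ i ∈ s, (a i • e (k i)) ω := by
        simp [WithLp.ofLp_sum]
      rw [h1]
      refine Finset.sum_congr rfl fun i _ => ?_
      change a i • (e (k i) ω) = _
      rw [heω, smul_comm]
    rw [this, norm_smul, Real.norm_of_nonneg hr0, Real.mul_rpow hr0 (norm_nonneg _), hrp]
    rw [div_eq_mul_inv, mul_comm]
  refine ⟨Ω, hΩ, hne, e, ?_, ?_, ?_⟩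
  · intro i
    have h1 : ‖e i‖ ^ p ≤ 1 := by
      have := key (Finset.univ : Finset (Fin 1)) (fun _ => 1) (fun _ => i)
      simp only [Finset.univ_unique, one_smul, Finset.sum_singleton] at this
      rw [this, div_le_one hcard]
      calc ∑ ω : Ω, ‖x (d ω i)‖ ^ p ≤ ∑ ω : Ω, (1 : ℝ) :=
            Finset.sum_le_sum fun ω _ => Real.rpow_le_one (norm_nonneg _) (hx1 _) hp0.le
        _ = Fintype.card Ω := by simp
    by_contra hcon
    push Not at hcon
    exact absurd h1 (not_le.2 (Real.one_lt_rpow hcon hp0))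
  · intro a A B hAB hBN ha
    set S := ∑ i ∈ Finset.Ico A B, |a i| with hS
    rcases lt_or_ge (θ * S) 0 with h0 | h0
    · exact h0.le.trans (norm_nonneg _)
    have h1 : ∀ ω, θ * S ≤ ‖∑ i ∈ Finset.range N, a i • x (d ω i)‖ := by
      intro ω
      refine window_push hx (d ω) ?_ ?_ a A B hAB hBN ha
      · intro i j hij hj
        simp only [d, dif_pos hj, dif_pos (hij.trans hj)]
        exact hcm ω (by simpa using hij)
      · intro i hi
        simp only [d, dif_pos hi]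
        exact hcn ω _
    have h2 : (θ * S) ^ p ≤ ‖∑ i ∈ Finset.range N, a i • e i‖ ^ p := by
      rw [key (Finset.range N) a (fun i => i), le_div_iff₀ hcard]
      calc (θ * S) ^ p * Fintype.card Ω = ∑ ω : Ω, (θ * S) ^ p := by
            simp [mul_comm]
        _ ≤ _ := Finset.sum_le_sum fun ω _ => Real.rpow_le_rpow h0 (h1 ω) hp0.le
    exact (Real.rpow_le_rpow_iff h0 (norm_nonneg _) hp0).1 h2
  · intro a κ κ' hκ hκ'
    set S := ∑ i, |a i| with hS
    have hS0 : 0 ≤ S := Finset.sum_nonneg fun i _ => abs_nonneg _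
    rw [key Finset.univ a (fun i => (κ i : ℕ)), key Finset.univ a (fun i => (κ' i : ℕ))]
    have hd : ∀ ω (j : Fin N), d ω j = c ω j := by
      intro ω j
      simp only [d, dif_pos j.2]
    simp only [hd]
    rcases hS0.eq_or_lt with h0 | h0
    · have ha : ∀ i, a i = 0 := by
        intro i
        have := (Finset.sum_eq_zero_iff_of_nonneg (fun i _ => abs_nonneg (a i))).1 (hS ▸ h0.symm) i
          (Finset.mem_univ i)
        exact abs_eq_zero.1 this
      simp [ha, ← h0, Real.zero_rpow hp0.ne']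
    · have hSp : 0 < S ^ p := Real.rpow_pos_of_pos h0 p
      have hle : ∀ s : Fin M → ℕ, ‖∑ i, a i • x (s i)‖ ≤ S := by
        intro s
        refine (norm_sum_le _ _).trans (Finset.sum_le_sum fun i _ => ?_)
        rw [norm_smul, Real.norm_eq_abs]
        exact mul_le_of_le_one_right (abs_nonneg _) (hx1 _)
      have := hF κ κ' hκ hκ' (fun s => ‖∑ i, a i • x (s i)‖ ^ p / S ^ p)
        (fun s => div_nonneg (Real.rpow_nonneg (norm_nonneg _) _) hSp.le)
        (fun s => (div_le_one hSp).2 (Real.rpow_le_rpow (norm_nonneg _) (hle s) hp0.le))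
      simp only [← Finset.sum_div] at this
      rw [div_right_comm, div_right_comm _ (S ^ p), ← sub_div, abs_div, abs_of_pos hSp,
        div_le_iff₀ hSp] at this
      exact this

end Vale.Agent.P125
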