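import Mathlib
import Vale.Agent.P125.BlockAbs
import Vale.Agent.P125.Vec

open scoped BigOperators Topology

namespace Vale.Agent.P125

universe u

theorem block_vectors {p θ : ℝ} (hp : 1 ≤ p) [Fact (1 ≤ ENNReal.ofReal p)] (hθ : 0 < θ)
    (T ρ N : ℕ) (hT : 1 ≤ T) (hρ : 1 ≤ ρ) :
    ∃ n : ℕ, ∀ (Y : Type u) [NormedAddCommGroup Y] [NormedSpace ℝ Y], WindowSeq Y θ n →
      ∃ (Ω : Type) (_ : Fintype Ω) (_ : Nonempty Ω)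
        (u : ℕ → PiLp (ENNReal.ofReal p) (fun _ : Ω => Y)) (a : ℝ),
        0 < a ∧ (∀ i, ‖u i‖ ≤ 1) ∧
        (∀ (D : ℕ → ℝ) (A B : ℕ), A ≤ B → B ≤ N → (∀ i ∈ Finset.Ico A B, D i ≤ 0) →
          θ * ∑ i ∈ Finset.Ico A B, |D i| ≤ ‖∑ i ∈ Finset.range N, D i • u i‖) ∧
        (∀ κ : ℕ → ℕ, (∀ i j, i < j → j < 2 * ρ → κ i < κ j) → (∀ i, i < 2 * ρ → κ i < N) →
          ‖∑ i ∈ Finset.range (2 * ρ), ((-1 : ℝ) ^ (i + 1)) • u (κ i)‖ ≤ 2 * a) ∧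
        (∀ κ : ℕ → ℕ, (∀ i j, i < j → j < 2 * ρ * T → κ i < κ j) →
          (∀ i, i < 2 * ρ * T → κ i < N) →
          T * a / 4 ≤ ‖∑ i ∈ Finset.range (2 * ρ * T), ((-1 : ℝ) ^ (i / T + 1)) • u (κ i)‖) := by
  obtain ⟨kmax, hk⟩ : ∃ kmax : ℕ, (2 * ρ : ℝ) < θ * 2 ^ (kmax + 1) := by
    obtain ⟨k, hk⟩ := pow_unbounded_of_one_lt (2 * ρ / θ : ℝ) (by norm_num : (1 : ℝ) < 2)
    refine ⟨k, ?_⟩
    rw [div_lt_iff₀ hθ] at hk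
    have : (2 : ℝ) ^ k ≤ 2 ^ (k + 1) := pow_le_pow_right₀ (by norm_num) (Nat.le_succ k)
    nlinarith
  have hρ' : (0 : ℝ) < 2 * ρ := by
    have : (0 : ℝ) < ρ := by exact_mod_cast hρ
    positivity
  set M1 : ℕ := 2 * ρ * T ^ (kmax + 1) with hM1
  set N1 : ℕ := N * T ^ kmax + M1 + M1 with hN1
  set ε : ℝ := (θ / 4) ^ p / (2 * ρ) ^ p with hε
  have hε0 : 0 < ε := by positivity
  obtain ⟨n, hn⟩ := spreading_vectors.{u} (θ := θ) hp M1 N1 ε hε0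
  refine ⟨n, fun Y _ _ hY => ?_⟩
  obtain ⟨Ω, i1, i2, e, he, hw, hs⟩ := hn Y hY
  refine ⟨Ω, i1, i2, ?_⟩
  exact block_abs hp hθ hT hρ hk le_rfl le_rfl (by rw [hε]; field_simp) he hw hs

end Vale.Agent.P125
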