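import Vale.Agent.P125.Convex

open scoped BigOperators Topology

namespace Vale.Agent.P125

variable {X : Type*} [NormedAddCommGroup X] [NormedSpace ℝ X]

/-- bounded separated martingale of length `m` with mean `x`, without filtrations -/
def BTree (ε : ℝ) (m : ℕ) (x : X) : Prop :=
  ∃ (Ω : Type) (_ : Fintype Ω) (w : Ω → ℝ) (M : ℕ → Ω → X), (∀ ω, 0 ≤ w ω) ∧ ∑ ω, w ω = 1 ∧
    (∀ i ω, ‖M i ω‖ ≤ 1) ∧ (∀ i, i ≤ m → ∑ ω, w ω • M i ω = x) ∧
    ∀ (b : X) (a : ℕ → ℝ) (k : ℕ), 1 ≤ k → k ≤ m →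
      ε / 2 * |∑ i ∈ Finset.Ico k (m + 1), a i| ≤
        ∑ ω, w ω * ‖b + ∑ i ∈ Finset.range (m + 1), a i • M i ω‖

theorem btree_zero {ε : ℝ} {x : X} (hx : ‖x‖ ≤ 1) : BTree ε 0 x := by
  refine ⟨Unit, inferInstance, fun _ => 1, fun _ _ => x, fun _ => zero_le_one, by simp,
    fun _ _ => hx, fun _ _ => by simp, fun b a k hk hk0 => ?_⟩
  omega

theorem btree_mix {ε : ℝ} {m : ℕ} {x y : X} (hx : BTree ε m x) (hy : BTree ε m y) {s t : ℝ}
    (hs : 0 ≤ s) (ht : 0 ≤ t) (hst : s + t = 1) : BTree ε m (s • x + t • y) := by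
  obtain ⟨Ω₁, _, w₁, M₁, h1, h2, h3, h4, h5⟩ := hx
  obtain ⟨Ω₂, _, w₂, M₂, k1, k2, k3, k4, k5⟩ := hy
  refine ⟨Ω₁ ⊕ Ω₂, inferInstance, Sum.elim (fun ω => s * w₁ ω) (fun ω => t * w₂ ω),
    fun i => Sum.elim (M₁ i) (M₂ i), ?_, ?_, ?_, ?_, ?_⟩
  · rintro (ω | ω)
    · exact mul_nonneg hs (h1 ω)
    · exact mul_nonneg ht (k1 ω)
  · rw [Fintype.sum_sum_type]
    simp only [Sum.elim_inl, Sum.elim_inr]
    rw [← Finset.mul_sum, ← Finset.mul_sum, h2, k2, mul_one, mul_one, hst]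
  · rintro i (ω | ω)
    · exact h3 i ω
    · exact k3 i ω
  · intro i hi
    rw [Fintype.sum_sum_type]
    simp only [Sum.elim_inl, Sum.elim_inr, mul_smul]
    rw [← Finset.smul_sum, ← Finset.smul_sum, h4 i hi, k4 i hi]
  · intro b a k hk hkm
    rw [Fintype.sum_sum_type]
    simp only [Sum.elim_inl, Sum.elim_inr, mul_assoc]
    rw [← Finset.mul_sum, ← Finset.mul_sum]
    have e1 := mul_le_mul_of_nonneg_left (h5 b a k hk hkm) hs
    have e2 := mul_le_mul_of_nonneg_left (k5 b a k hk hkm) ht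
    calc ε / 2 * |∑ i ∈ Finset.Ico k (m + 1), a i|
        = s * (ε / 2 * |∑ i ∈ Finset.Ico k (m + 1), a i|)
          + t * (ε / 2 * |∑ i ∈ Finset.Ico k (m + 1), a i|) := by
          rw [← add_mul, hst, one_mul]
      _ ≤ _ := add_le_add e1 e2

theorem jensen_norm {Ω : Type} [Fintype Ω] {w : Ω → ℝ} (hw : ∀ ω, 0 ≤ w ω) (f : Ω → X) :
    ‖∑ ω, w ω • f ω‖ ≤ ∑ ω, w ω * ‖f ω‖ := by
  refine (norm_sum_le _ _).trans (le_of_eq ?_)
  refine Finset.sum_congr rfl fun ω _ => ?_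
  rw [norm_smul, Real.norm_of_nonneg (hw ω)]

theorem btree_step {ε : ℝ} {m : ℕ} {u v : X} (hu : BTree ε m u) (hv : BTree ε m v)
    (hu1 : ‖u‖ ≤ 1) (hv1 : ‖v‖ ≤ 1) (huv : ε ≤ ‖u - v‖) :
    BTree ε (m + 1) ((1 / 2 : ℝ) • (u + v)) := by
  obtain ⟨Ω₁, _, w₁, M₁, h1, h2, h3, h4, h5⟩ := hu
  obtain ⟨Ω₂, _, w₂, M₂, k1, k2, k3, k4, k5⟩ := hv
  set z := (1 / 2 : ℝ) • (u + v) with hz
  have hzn : ‖z‖ ≤ 1 := by
    rw [hz, norm_smul]
    have e1 := norm_add_le u v
    have e2 : ‖(1 / 2 : ℝ)‖ = 1 / 2 := by norm_num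
    rw [e2]
    linarith
  refine ⟨Ω₁ ⊕ Ω₂, inferInstance, Sum.elim (fun ω => 1 / 2 * w₁ ω) (fun ω => 1 / 2 * w₂ ω),
    fun i => if i = 0 then fun _ => z else Sum.elim (M₁ (i - 1)) (M₂ (i - 1)), ?_, ?_, ?_, ?_, ?_⟩
  · rintro (ω | ω)
    · exact mul_nonneg (by norm_num) (h1 ω)
    · exact mul_nonneg (by norm_num) (k1 ω)
  · rw [Fintype.sum_sum_type]
    simp only [Sum.elim_inl, Sum.elim_inr]
    rw [← Finset.mul_sum, ← Finset.mul_sum, h2, k2]
    norm_num
  · rintro i ω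
    by_cases hi : i = 0
    · simp only [hi, if_true]; exact hzn
    · simp only [hi, if_false]
      rcases ω with ω | ω
      · exact h3 _ ω
      · exact k3 _ ω
  · intro i hi
    rw [Fintype.sum_sum_type]
    by_cases hi0 : i = 0
    · simp only [hi0, if_true, Sum.elim_inl, Sum.elim_inr, mul_smul]
      rw [← Finset.smul_sum, ← Finset.smul_sum, ← Finset.sum_smul, ← Finset.sum_smul, h2, k2,
        one_smul, ← add_smul]
      norm_num
    · simp only [hi0, if_false, Sum.elim_inl, Sum.elim_inr, mul_smul]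
      rw [← Finset.smul_sum, ← Finset.smul_sum, h4 (i - 1) (by omega), k4 (i - 1) (by omega),
        ← smul_add]
  · intro b a k hk hkm
    rw [Fintype.sum_sum_type]
    simp only [Sum.elim_inl, Sum.elim_inr, mul_assoc]
    rw [← Finset.mul_sum, ← Finset.mul_sum]
    have split1 : ∀ ω : Ω₁, b + ∑ i ∈ Finset.range (m + 1 + 1),
        a i • (if i = 0 then fun _ => z else Sum.elim (M₁ (i - 1)) (M₂ (i - 1))) (Sum.inl ω)
        = (b + a 0 • z) + ∑ i ∈ Finset.range (m + 1), a (i + 1) • M₁ i ω := by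
      intro ω
      rw [Finset.sum_range_succ']
      simp
      abel
    have split2 : ∀ ω : Ω₂, b + ∑ i ∈ Finset.range (m + 1 + 1),
        a i • (if i = 0 then fun _ => z else Sum.elim (M₁ (i - 1)) (M₂ (i - 1))) (Sum.inr ω)
        = (b + a 0 • z) + ∑ i ∈ Finset.range (m + 1), a (i + 1) • M₂ i ω := by
      intro ω
      rw [Finset.sum_range_succ']
      simp
      abel
    simp_rw [split1, split2]
    set b' := b + a 0 • z with hb'
    have hshift : ∀ l, ∑ i ∈ Finset.Ico (l + 1) (m + 1 + 1), a i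
        = ∑ i ∈ Finset.Ico l (m + 1), a (i + 1) := by
      intro l
      rw [Finset.sum_Ico_add' a l (m + 1) 1]
    obtain ⟨l, rfl⟩ : ∃ l, k = l + 1 := ⟨k - 1, by omega⟩
    rw [hshift]
    rcases Nat.eq_zero_or_pos l with hl | hl
    · subst hl
      set σ := ∑ i ∈ Finset.Ico 0 (m + 1), a (i + 1) with hσ
      have e1 : ‖b' + σ • u‖ ≤ ∑ ω, w₁ ω * ‖b' + ∑ i ∈ Finset.range (m + 1), a (i + 1) • M₁ i ω‖ := by
        have e : b' + σ • u
            = ∑ ω, w₁ ω • (b' + ∑ i ∈ Finset.range (m + 1), a (i + 1) • M₁ i ω) := by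
          simp_rw [smul_add, Finset.smul_sum]
          rw [Finset.sum_add_distrib, ← Finset.sum_smul, h2, one_smul, Finset.sum_comm]
          congr 1
          rw [hσ, Finset.sum_smul, ← Finset.range_eq_Ico]
          refine Finset.sum_congr rfl fun i hi => ?_
          rw [← h4 i (by have := Finset.mem_range.1 hi; omega), Finset.smul_sum]
          exact Finset.sum_congr rfl fun ω _ => smul_comm _ _ _
        rw [e]
        exact jensen_norm h1 _
      have e2 : ‖b' + σ • v‖ ≤ ∑ ω, w₂ ω * ‖b' + ∑ i ∈ Finset.range (m + 1), a (i + 1) • M₂ i ω‖ := by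
        have e : b' + σ • v
            = ∑ ω, w₂ ω • (b' + ∑ i ∈ Finset.range (m + 1), a (i + 1) • M₂ i ω) := by
          simp_rw [smul_add, Finset.smul_sum]
          rw [Finset.sum_add_distrib, ← Finset.sum_smul, k2, one_smul, Finset.sum_comm]
          congr 1
          rw [hσ, Finset.sum_smul, ← Finset.range_eq_Ico]
          refine Finset.sum_congr rfl fun i hi => ?_
          rw [← k4 i (by have := Finset.mem_range.1 hi; omega), Finset.smul_sum]
          exact Finset.sum_congr rfl fun ω _ => smul_comm _ _ _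
        rw [e]
        exact jensen_norm k1 _
      have e3 : |σ| * ε ≤ ‖b' + σ • u‖ + ‖b' + σ • v‖ := by
        calc |σ| * ε ≤ |σ| * ‖u - v‖ := mul_le_mul_of_nonneg_left huv (abs_nonneg _)
          _ = ‖(b' + σ • u) - (b' + σ • v)‖ := by
              have : (b' + σ • u) - (b' + σ • v) = σ • (u - v) := by
                rw [smul_sub]; abel
              rw [this, norm_smul, Real.norm_eq_abs]
          _ ≤ _ := norm_sub_le _ _
      linarith
    · have e1 := h5 b' (fun i => a (i + 1)) l hl (by omega)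
      have e2 := k5 b' (fun i => a (i + 1)) l hl (by omega)
      linarith

theorem norm_le_of_bush {ε : ℝ} : ∀ (m : ℕ) {x : X}, x ∈ bush X ε m → ‖x‖ ≤ 1 := by
  intro m
  induction m with
  | zero => intro x hx; exact mem_closedBall_zero_iff.1 hx
  | succ m ih =>
    intro x hx
    have hsub : bush X ε (m + 1) ⊆ Metric.closedBall (0 : X) 1 := by
      refine convexHull_min ?_ (convex_closedBall 0 1)
      rintro _ ⟨u, hu, v, hv, _, rfl⟩
      rw [mem_closedBall_zero_iff, norm_smul]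
      have e1 := norm_add_le u v
      have e2 := ih hu
      have e3 := ih hv
      have e4 : ‖(1 / 2 : ℝ)‖ = 1 / 2 := by norm_num
      rw [e4]
      linarith
    exact mem_closedBall_zero_iff.1 (hsub hx)

theorem btree_of_bush {ε : ℝ} : ∀ (m : ℕ) {x : X}, x ∈ bush X ε m → BTree ε m x := by
  intro m
  induction m with
  | zero => intro x hx; exact btree_zero (mem_closedBall_zero_iff.1 hx)
  | succ m ih =>
    intro x hx
    have hsub : bush X ε (m + 1) ⊆ {x | BTree ε (m + 1) x} := by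
      refine convexHull_min ?_ ?_
      · rintro _ ⟨u, hu, v, hv, huv, rfl⟩
        exact btree_step (ih hu) (ih hv) (norm_le_of_bush m hu) (norm_le_of_bush m hv) huv
      · intro x hx y hy s t hs ht hst
        exact btree_mix hx hy hs ht hst
    exact hsub hx

theorem window_of_bush {ε : ℝ} (hε : 0 < ε) (m : ℕ) (h : (bush X ε m).Nonempty) (p : ℝ)
    (hp : 1 ≤ p) [Fact (1 ≤ ENNReal.ofReal p)] :
    ∃ (Ω : Type) (_ : Fintype Ω),
      WindowSeq (PiLp (ENNReal.ofReal p) (fun _ : Ω => X)) (ε / 4) m := by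
  have hp0 : 0 < p := by linarith
  obtain ⟨x, hx⟩ := h
  obtain ⟨Ω, _, w, M, hw, hw1, hM, -, hgap⟩ := btree_of_bush m hx
  refine ⟨Ω, inferInstance, ?_⟩
  have hwp : ∀ ω, 0 ≤ w ω ^ (1 / p) := fun ω => Real.rpow_nonneg (hw ω) _
  have hwpp : ∀ ω, (w ω ^ (1 / p)) ^ p = w ω := fun ω => by
    rw [← Real.rpow_mul (hw ω), one_div, inv_mul_cancel₀ hp0.ne', Real.rpow_one]
  have hnorm : ∀ f : Ω → X, ‖(WithLp.toLp (ENNReal.ofReal p) (fun ω => w ω ^ (1 / p) • f ω) :
      PiLp (ENNReal.ofReal p) (fun _ : Ω => X))‖ ^ p = ∑ ω, w ω * ‖f ω‖ ^ p := by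
    intro f
    rw [pilp_norm_rpow hp]
    refine Finset.sum_congr rfl fun ω _ => ?_
    change ‖w ω ^ (1 / p) • f ω‖ ^ p = _
    rw [norm_smul, Real.norm_of_nonneg (hwp ω), Real.mul_rpow (hwp ω) (norm_nonneg _), hwpp]
  refine ⟨fun i => WithLp.toLp (ENNReal.ofReal p) (fun ω => w ω ^ (1 / p) • M (i + 1) ω),
    fun i => ?_, fun a A B hAB hBm ha => ?_⟩
  · have h1 : ‖(WithLp.toLp (ENNReal.ofReal p) (fun ω => w ω ^ (1 / p) • M (i + 1) ω) :
      PiLp (ENNReal.ofReal p) (fun _ : Ω => X))‖ ^ p ≤ 1 ^ p := by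
      rw [hnorm, Real.one_rpow, ← hw1]
      refine Finset.sum_le_sum fun ω _ => ?_
      have := Real.rpow_le_one (norm_nonneg (M (i + 1) ω)) (hM _ _) hp0.le
      have := hw ω
      nlinarith
    exact (Real.rpow_le_rpow_iff (norm_nonneg _) zero_le_one hp0).1 h1
  · set a' : ℕ → ℝ := fun i => if i = 0 then 0 else a (i - 1) with ha'
    have hsumM : ∀ ω, ∑ i ∈ Finset.range (m + 1), a' i • M i ω
        = ∑ i ∈ Finset.range m, a i • M (i + 1) ω := by
      intro ω
      rw [Finset.sum_range_succ']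
      simp [ha']
    have hsuma : ∀ l, ∑ i ∈ Finset.Ico (l + 1) (m + 1), a' i = ∑ i ∈ Finset.Ico l m, a i := by
      intro l
      rw [← Finset.sum_Ico_add' a' l m 1]
      refine Finset.sum_congr rfl fun i _ => ?_
      simp [ha']
    set S := ∑ ω, w ω * ‖∑ i ∈ Finset.range m, a i • M (i + 1) ω‖ with hS
    have hSle : S ≤ ‖∑ i ∈ Finset.range m, a i • (WithLp.toLp (ENNReal.ofReal p)
        (fun ω => w ω ^ (1 / p) • M (i + 1) ω) : PiLp (ENNReal.ofReal p) (fun _ : Ω => X))‖ := by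
      have e1 : ∑ i ∈ Finset.range m, a i • (WithLp.toLp (ENNReal.ofReal p)
          (fun ω => w ω ^ (1 / p) • M (i + 1) ω) : PiLp (ENNReal.ofReal p) (fun _ : Ω => X))
          = WithLp.toLp (ENNReal.ofReal p)
            (fun ω => w ω ^ (1 / p) • ∑ i ∈ Finset.range m, a i • M (i + 1) ω) := by
        ext ω
        simp [WithLp.ofLp_sum, Finset.sum_apply, Finset.smul_sum, smul_comm (w ω ^ (p⁻¹))]
      rw [e1]
      refine (Real.rpow_le_rpow_iff ?_ (norm_nonneg _) hp0).1 ?_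
      · exact Finset.sum_nonneg fun ω _ => mul_nonneg (hw ω) (norm_nonneg _)
      · rw [hnorm]
        exact Real.rpow_arith_mean_le_arith_mean_rpow (Finset.univ : Finset Ω) w
          (fun ω => ‖∑ i ∈ Finset.range m, a i • M (i + 1) ω‖) (fun ω _ => hw ω) hw1
          (fun _ _ => norm_nonneg _) hp
    have hkey : ∀ l, l ≤ m → ε / 2 * |∑ i ∈ Finset.Ico l m, a i| ≤ S := by
      intro l hl
      rcases Nat.lt_or_ge l m with h1 | h1
      · have h2 := hgap 0 a' (l + 1) (by omega) (by omega)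
        rw [hsuma] at h2
        refine h2.trans (le_of_eq ?_)
        refine Finset.sum_congr rfl fun ω _ => ?_
        rw [zero_add, hsumM]
      · have h2 : l = m := le_antisymm hl h1
        subst h2
        simp only [Finset.Ico_self, Finset.sum_empty, abs_zero, mul_zero]
        exact Finset.sum_nonneg fun ω _ => mul_nonneg (hw ω) (norm_nonneg _)
    have hA := hkey A (hAB.trans hBm)
    have hB := hkey B hBm
    have hsplit : ∑ i ∈ Finset.Ico A B, a i
        = ∑ i ∈ Finset.Ico A m, a i - ∑ i ∈ Finset.Ico B m, a i := by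
      rw [← Finset.sum_Ico_consecutive a hAB hBm]
      ring
    have habs : ∑ i ∈ Finset.Ico A B, |a i| = |∑ i ∈ Finset.Ico A B, a i| := by
      rw [Finset.sum_congr rfl fun i hi => abs_of_nonpos (ha i hi), Finset.sum_neg_distrib,
        abs_of_nonpos (Finset.sum_nonpos ha)]
    rw [habs, hsplit]
    have h3 := abs_sub (∑ i ∈ Finset.Ico A m, a i) (∑ i ∈ Finset.Ico B m, a i)
    have h4 : ε / 4 * |∑ i ∈ Finset.Ico A m, a i - ∑ i ∈ Finset.Ico B m, a i|
        ≤ ε / 4 * (|∑ i ∈ Finset.Ico A m, a i| + |∑ i ∈ Finset.Ico B m, a i|) :=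
      mul_le_mul_of_nonneg_left h3 (by positivity)
    linarith

end Vale.Agent.P125
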