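import Vale.Agent.P125.Defs

open scoped BigOperators Topology

namespace Vale.Agent.P125

theorem markov_fintype {Y : Type*} [NormedAddCommGroup Y] [NormedSpace ℝ Y] {p K : ℝ}
    (h : MarkovTypeWith Y p K) {V : Type} [Fintype V] [DecidableEq V] (π : V → ℝ)
    (P : Matrix V V ℝ) (hπ : ∀ i, 0 ≤ π i) (hπ1 : ∑ i, π i = 1) (hP : ∀ i j, 0 ≤ P i j)
    (hP1 : ∀ i, ∑ j, P i j = 1) (hrev : ∀ i j, π i * P i j = π j * P j i)
    (f : V → Y) (t : ℕ) (ht : 1 ≤ t) :
    ∑ i, ∑ j, π i * (P ^ t) i j * ‖f j - f i‖ ^ p ≤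
      K ^ p * t * ∑ i, ∑ j, π i * P i j * ‖f j - f i‖ ^ p := by
  classical
  set φ : V ≃ Fin (Fintype.card V) := Fintype.equivFin V with hφ
  have hpow : ∀ t : ℕ, ((Matrix.reindex φ φ P) ^ t) = Matrix.reindex φ φ (P ^ t) := by
    intro t
    have := map_pow (Matrix.reindexAlgEquiv ℝ ℝ φ) P t
    simpa using this.symm
  have key := h (Fintype.card V) (fun i => π (φ.symm i)) (Matrix.reindex φ φ P)
    (fun i => hπ _) (by rw [← hπ1]; exact Equiv.sum_comp φ.symm π)
    (fun i j => hP _ _)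
    (fun i => by
      have := Equiv.sum_comp φ.symm (fun j => P (φ.symm i) j)
      simpa [hP1] using this)
    (fun i j => hrev _ _) (fun i => f (φ.symm i)) t ht
  rw [hpow] at key
  have e1 : ∀ Q : Matrix V V ℝ,
      ∑ i, ∑ j, π (φ.symm i) * (Matrix.reindex φ φ Q) i j * ‖f (φ.symm j) - f (φ.symm i)‖ ^ p
        = ∑ i, ∑ j, π i * Q i j * ‖f j - f i‖ ^ p := by
    intro Q
    rw [← Equiv.sum_comp φ.symm (fun i => ∑ j, π i * Q i j * ‖f j - f i‖ ^ p)]
    refine Finset.sum_congr rfl fun i _ => ?_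
    rw [← Equiv.sum_comp φ.symm (fun j => π (φ.symm i) * Q (φ.symm i) j * ‖f j - f (φ.symm i)‖ ^ p)]
    rfl
  rw [e1, e1] at key
  exact key

theorem sum4 {α β : Type} [Fintype α] [Fintype β] (F : α → β → β → α → ℝ) :
    ∑ y, ∑ e', ∑ w, ∑ e, F w e e' y = ∑ w, ∑ e, ∑ e', ∑ y, F w e e' y := by
  calc ∑ y, ∑ e', ∑ w, ∑ e, F w e e' y = ∑ y, ∑ w, ∑ e', ∑ e, F w e e' y :=
        Finset.sum_congr rfl fun y _ => Finset.sum_comm
    _ = ∑ w, ∑ y, ∑ e', ∑ e, F w e e' y := Finset.sum_comm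
    _ = ∑ w, ∑ y, ∑ e, ∑ e', F w e e' y :=
        Finset.sum_congr rfl fun w _ => Finset.sum_congr rfl fun y _ => Finset.sum_comm
    _ = ∑ w, ∑ e, ∑ y, ∑ e', F w e e' y := Finset.sum_congr rfl fun w _ => Finset.sum_comm
    _ = ∑ w, ∑ e, ∑ e', ∑ y, F w e e' y :=
        Finset.sum_congr rfl fun w _ => Finset.sum_congr rfl fun e _ => Finset.sum_comm

structure LGraph (E S : Type) (N : ℕ) where
  src : E → S
  inv : E → E
  g : E → Fin N → ℤ
  inv_inv : ∀ e, inv (inv e) = e
  g_inv : ∀ e j, g (inv e) j = - g e j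
  g_le : ∀ e j, |g e j| ≤ 1

namespace LGraph

variable {E S : Type} [Fintype E] [DecidableEq E] [Fintype S] [DecidableEq S] {N : ℕ}
  (Γ : LGraph E S N) (B : ℕ)

noncomputable def deg (z : S) : ℝ := ((Finset.univ.filter fun e => Γ.src e = z).card : ℝ)

def Move (x y : S × (Fin N → Fin B)) (e : E) : Prop :=
  Γ.src e = x.1 ∧ Γ.src (Γ.inv e) = y.1 ∧
    ∀ j, ((y.2 j : ℕ) : ℤ) = ((x.2 j : ℕ) : ℤ) + Γ.g e j

instance (x y : S × (Fin N → Fin B)) (e : E) : Decidable (Γ.Move B x y e) := by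
  unfold Move; infer_instance

noncomputable def G1 (x y : S × (Fin N → Fin B)) (e : E) : ℝ :=
  if Γ.Move B x y e then 1 / Γ.deg x.1 else 0

noncomputable def Am : Matrix (S × (Fin N → Fin B)) (S × (Fin N → Fin B)) ℝ :=
  fun x y => ∑ e, Γ.G1 B x y e

noncomputable def Pm : Matrix (S × (Fin N → Fin B)) (S × (Fin N → Fin B)) ℝ :=
  fun x y => Γ.Am B x y + if x = y then 1 - ∑ w, Γ.Am B x w else 0

noncomputable def pim (x : S × (Fin N → Fin B)) : ℝ :=
  Γ.deg x.1 / (Fintype.card E * Fintype.card (Fin N → Fin B))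

theorem deg_nonneg (z : S) : 0 ≤ Γ.deg z := Nat.cast_nonneg _

theorem deg_pos (e : E) : 0 < Γ.deg (Γ.src e) := by
  unfold deg
  exact_mod_cast Finset.card_pos.2 ⟨e, by simp⟩

theorem G1_nonneg (x y : S × (Fin N → Fin B)) (e : E) : 0 ≤ Γ.G1 B x y e := by
  unfold G1
  split_ifs
  · exact div_nonneg zero_le_one (Γ.deg_nonneg _)
  · exact le_rfl

theorem move_symm (x y : S × (Fin N → Fin B)) (e : E) :
    Γ.Move B x y e ↔ Γ.Move B y x (Γ.inv e) := by
  unfold Move
  rw [Γ.inv_inv]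
  constructor
  · rintro ⟨h1, h2, h3⟩
    refine ⟨h2, h1, fun j => ?_⟩
    rw [Γ.g_inv, h3 j]; ring
  · rintro ⟨h1, h2, h3⟩
    refine ⟨h2, h1, fun j => ?_⟩
    have := h3 j
    rw [Γ.g_inv] at this
    linarith

theorem move_unique {x y y' : S × (Fin N → Fin B)} {e : E} (h : Γ.Move B x y e)
    (h' : Γ.Move B x y' e) : y = y' := by
  refine Prod.ext (h.2.1.symm.trans h'.2.1) (funext fun j => Fin.ext ?_)
  have := (h.2.2 j).trans (h'.2.2 j).symm
  exact_mod_cast this

theorem sum_G1_le (x : S × (Fin N → Fin B)) (e : E) :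
    ∑ y, Γ.G1 B x y e ≤ if Γ.src e = x.1 then 1 / Γ.deg x.1 else 0 := by
  unfold G1
  by_cases hs : Γ.src e = x.1
  · rw [if_pos hs, ← Finset.sum_filter, Finset.sum_const, nsmul_eq_mul]
    have hc : (Finset.univ.filter fun y => Γ.Move B x y e).card ≤ 1 := by
      rw [Finset.card_le_one]
      intro a ha b hb
      simp only [Finset.mem_filter, Finset.mem_univ, true_and] at ha hb
      exact Γ.move_unique B ha hb
    have hc' : ((Finset.univ.filter fun y => Γ.Move B x y e).card : ℝ) ≤ 1 := by exact_mod_cast hc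
    have : (0 : ℝ) ≤ 1 / Γ.deg x.1 := div_nonneg zero_le_one (Γ.deg_nonneg _)
    nlinarith
  · rw [if_neg hs]
    refine (Finset.sum_eq_zero fun y _ => ?_).le
    rw [if_neg]
    exact fun h => hs h.1

theorem pim_G1 (x y : S × (Fin N → Fin B)) (e : E) :
    Γ.pim B x * Γ.G1 B x y e =
      if Γ.Move B x y e then 1 / (Fintype.card E * Fintype.card (Fin N → Fin B) : ℝ) else 0 := by
  unfold pim G1
  split_ifs with h
  · have h1 : 0 < Γ.deg x.1 := by rw [← h.1]; exact Γ.deg_pos e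
    field_simp
  · simp

theorem sum_src (z : S) :
    ∑ e, (if Γ.src e = z then (1 : ℝ) else 0) = Γ.deg z := by
  unfold deg
  rw [← Finset.sum_filter]
  simp

theorem sum_tgt (z : S) :
    ∑ e, (if Γ.src (Γ.inv e) = z then (1 : ℝ) else 0) = Γ.deg z := by
  rw [← Γ.sum_src z]
  have hinv : Function.Involutive Γ.inv := Γ.inv_inv
  exact Equiv.sum_comp (hinv.toPerm) (fun e => if Γ.src e = z then (1 : ℝ) else 0)

theorem Am_nonneg (x y : S × (Fin N → Fin B)) : 0 ≤ Γ.Am B x y :=
  Finset.sum_nonneg fun e _ => Γ.G1_nonneg B x y e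

theorem sum_Am_le (x : S × (Fin N → Fin B)) : ∑ y, Γ.Am B x y ≤ 1 := by
  unfold Am
  rw [Finset.sum_comm]
  calc ∑ e, ∑ y, Γ.G1 B x y e ≤ ∑ e, if Γ.src e = x.1 then 1 / Γ.deg x.1 else 0 :=
        Finset.sum_le_sum fun e _ => Γ.sum_G1_le B x e
    _ = (∑ e, if Γ.src e = x.1 then (1 : ℝ) else 0) * (1 / Γ.deg x.1) := by
        rw [Finset.sum_mul]
        refine Finset.sum_congr rfl fun e _ => ?_
        split_ifs <;> simp
    _ = Γ.deg x.1 * (1 / Γ.deg x.1) := by rw [Γ.sum_src]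
    _ ≤ 1 := by
        by_cases h : Γ.deg x.1 = 0
        · rw [h]; simp
        · rw [mul_one_div, div_self h]

theorem Am_symm (x y : S × (Fin N → Fin B)) :
    Γ.pim B x * Γ.Am B x y = Γ.pim B y * Γ.Am B y x := by
  unfold Am
  rw [Finset.mul_sum, Finset.mul_sum]
  simp_rw [Γ.pim_G1]
  have hinv : Function.Involutive Γ.inv := Γ.inv_inv
  rw [← Equiv.sum_comp (hinv.toPerm) (fun e => if Γ.Move B y x e then
    1 / (Fintype.card E * Fintype.card (Fin N → Fin B) : ℝ) else 0)]
  refine Finset.sum_congr rfl fun e _ => ?_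
  have : Γ.Move B x y e ↔ Γ.Move B y x (Γ.inv e) := Γ.move_symm B x y e
  have e1 : (hinv.toPerm : Equiv.Perm E) e = Γ.inv e := rfl
  rw [e1]
  by_cases h : Γ.Move B x y e
  · rw [if_pos h, if_pos (this.1 h)]
  · rw [if_neg h, if_neg (fun h' => h (this.2 h'))]

theorem Pm_nonneg (x y : S × (Fin N → Fin B)) : 0 ≤ Γ.Pm B x y := by
  unfold Pm
  have h1 := Γ.Am_nonneg B x y
  have h2 := Γ.sum_Am_le B x
  split_ifs <;> linarith

theorem Am_le_Pm (x y : S × (Fin N → Fin B)) : Γ.Am B x y ≤ Γ.Pm B x y := by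
  unfold Pm
  have h2 := Γ.sum_Am_le B x
  split_ifs <;> linarith

theorem Pm_sum (x : S × (Fin N → Fin B)) : ∑ y, Γ.Pm B x y = 1 := by
  unfold Pm
  rw [Finset.sum_add_distrib]
  simp

theorem Pm_symm (x y : S × (Fin N → Fin B)) :
    Γ.pim B x * Γ.Pm B x y = Γ.pim B y * Γ.Pm B y x := by
  unfold Pm
  rw [mul_add, mul_add, Γ.Am_symm B x y]
  by_cases h : x = y
  · subst h; rfl
  · rw [if_neg h, if_neg (Ne.symm h)]; ring

theorem pim_nonneg (x : S × (Fin N → Fin B)) : 0 ≤ Γ.pim B x :=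
  div_nonneg (Γ.deg_nonneg _) (by positivity)

theorem pim_sum [Nonempty E] (hB : 0 < B) : ∑ x, Γ.pim B x = 1 := by
  unfold pim
  rw [← Finset.sum_div, Fintype.sum_prod_type]
  simp only [Finset.sum_const, Finset.card_univ, nsmul_eq_mul]
  rw [← Finset.mul_sum]
  have h1 : ∑ z, Γ.deg z = Fintype.card E := by
    simp_rw [← Γ.sum_src]
    rw [Finset.sum_comm]
    simp
  rw [h1]
  have hE : (0 : ℝ) < Fintype.card E := by exact_mod_cast Fintype.card_pos
  have hne : Nonempty (Fin N → Fin B) := ⟨fun _ => ⟨0, hB⟩⟩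
  have hbox : (0 : ℝ) < Fintype.card (Fin N → Fin B) := by exact_mod_cast Fintype.card_pos
  rw [mul_comm]
  exact div_self (by positivity)

theorem pow_mono (t : ℕ) (x y : S × (Fin N → Fin B)) :
    0 ≤ ((Γ.Am B) ^ t) x y ∧ ((Γ.Am B) ^ t) x y ≤ ((Γ.Pm B) ^ t) x y := by
  induction t generalizing y with
  | zero =>
    simp only [pow_zero]
    refine ⟨?_, le_rfl⟩
    rw [Matrix.one_apply]
    split_ifs <;> norm_num
  | succ t ih =>
    rw [pow_succ, pow_succ, Matrix.mul_apply, Matrix.mul_apply]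
    refine ⟨Finset.sum_nonneg fun w _ => mul_nonneg (ih w).1 (Γ.Am_nonneg B w y),
      Finset.sum_le_sum fun w _ => mul_le_mul (ih w).2 (Γ.Am_le_Pm B w y) (Γ.Am_nonneg B w y)
        ((ih w).1.trans (ih w).2)⟩

section Good

variable (Bad : E → E → Prop) [DecidableRel Bad]

noncomputable def GG : ℕ → (S × (Fin N → Fin B)) → (S × (Fin N → Fin B)) → E → ℝ
  | 0 => fun x y e => Γ.G1 B x y e
  | (t + 1) => fun x y e' => ∑ w, ∑ e, GG t x w e * (if Bad e e' then 0 else Γ.G1 B w y e')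

theorem GG_nonneg (t : ℕ) (x y : S × (Fin N → Fin B)) (e : E) : 0 ≤ Γ.GG B Bad t x y e := by
  induction t generalizing y e with
  | zero => exact Γ.G1_nonneg B x y e
  | succ t ih =>
    unfold GG
    refine Finset.sum_nonneg fun w _ => Finset.sum_nonneg fun e' _ => mul_nonneg (ih w e') ?_
    split_ifs
    · exact le_rfl
    · exact Γ.G1_nonneg B w y e

theorem sum_GG_le (t : ℕ) (x y : S × (Fin N → Fin B)) :
    ∑ e, Γ.GG B Bad t x y e ≤ ((Γ.Am B) ^ (t + 1)) x y := by
  induction t generalizing y with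
  | zero => simp [GG, Am]
  | succ t ih =>
    rw [pow_succ, Matrix.mul_apply]
    unfold GG
    rw [Finset.sum_comm]
    refine Finset.sum_le_sum fun w _ => ?_
    calc ∑ e', ∑ e, Γ.GG B Bad t x w e * (if Bad e e' then 0 else Γ.G1 B w y e')
        ≤ ∑ e', ∑ e, Γ.GG B Bad t x w e * Γ.G1 B w y e' := by
          refine Finset.sum_le_sum fun e' _ => Finset.sum_le_sum fun e _ =>
            mul_le_mul_of_nonneg_left ?_ (Γ.GG_nonneg B Bad t x w e)
          split_ifs
          · exact Γ.G1_nonneg B w y e'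
          · exact le_rfl
      _ = (∑ e, Γ.GG B Bad t x w e) * Γ.Am B w y := by
          unfold Am
          rw [Finset.sum_mul_sum, Finset.sum_comm]
      _ ≤ _ := mul_le_mul_of_nonneg_right (ih w) (Γ.Am_nonneg B w y)

theorem GG_support {Inv : ℕ → E → (Fin N → ℤ) → Prop} {T : ℕ}
    (h1 : ∀ e, Inv 1 e (Γ.g e))
    (hstep : ∀ t e e' D, 1 ≤ t → t < T → Inv t e D → Γ.src e' = Γ.src (Γ.inv e) → ¬ Bad e e' →
      Inv (t + 1) e' (fun j => D j + Γ.g e' j))
    (t : ℕ) (ht : t < T) (x y : S × (Fin N → Fin B)) (e : E)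
    (h : Γ.GG B Bad t x y e ≠ 0) :
    Γ.src (Γ.inv e) = y.1 ∧
      Inv (t + 1) e (fun j => ((y.2 j : ℕ) : ℤ) - ((x.2 j : ℕ) : ℤ)) := by
  induction t generalizing y e with
  | zero =>
    unfold GG G1 at h
    have hm : Γ.Move B x y e := by
      by_contra hm
      exact h (if_neg hm)
    refine ⟨hm.2.1, ?_⟩
    have : (fun j => ((y.2 j : ℕ) : ℤ) - ((x.2 j : ℕ) : ℤ)) = Γ.g e := by
      funext j
      rw [hm.2.2 j]; ring
    rw [this]
    exact h1 e
  | succ t ih =>
    unfold GG at h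
    obtain ⟨w, _, hw⟩ := Finset.exists_ne_zero_of_sum_ne_zero h
    obtain ⟨e₀, _, he⟩ := Finset.exists_ne_zero_of_sum_ne_zero hw
    have hG : Γ.GG B Bad t x w e₀ ≠ 0 := left_ne_zero_of_mul he
    have hR := right_ne_zero_of_mul he
    have hbad : ¬ Bad e₀ e := by
      intro hb
      exact hR (if_pos hb)
    rw [if_neg hbad] at hR
    have hm : Γ.Move B w y e := by
      by_contra hm
      exact hR (if_neg hm)
    obtain ⟨i1, i2⟩ := ih (by omega) w e₀ hG
    refine ⟨hm.2.1, ?_⟩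
    have := hstep (t + 1) e₀ e _ (by omega) ht i2 (hm.1.trans i1.symm) hbad
    convert this using 2
    rw [hm.2.2]
    ring

theorem agg_le (t : ℕ) (w : S × (Fin N → Fin B)) (e : E) :
    ∑ x, Γ.pim B x * Γ.GG B Bad t x w e ≤
      if Γ.src (Γ.inv e) = w.1 then 1 / (Fintype.card E * Fintype.card (Fin N → Fin B) : ℝ)
        else 0 := by
  set c : ℝ := 1 / (Fintype.card E * Fintype.card (Fin N → Fin B) : ℝ) with hc
  have hc0 : 0 ≤ c := by positivity
  have base : ∀ (w : S × (Fin N → Fin B)) (e : E),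
      ∑ x, Γ.pim B x * Γ.G1 B x w e ≤ if Γ.src (Γ.inv e) = w.1 then c else 0 := by
    intro w e
    simp_rw [Γ.pim_G1]
    by_cases hs : Γ.src (Γ.inv e) = w.1
    · rw [if_pos hs, ← Finset.sum_filter, Finset.sum_const, nsmul_eq_mul]
      have hcard : (Finset.univ.filter fun x => Γ.Move B x w e).card ≤ 1 := by
        rw [Finset.card_le_one]
        intro a ha b hb
        simp only [Finset.mem_filter, Finset.mem_univ, true_and] at ha hb
        exact Γ.move_unique B ((Γ.move_symm B a w e).1 ha) ((Γ.move_symm B b w e).1 hb)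
      have hcard' : ((Finset.univ.filter fun x => Γ.Move B x w e).card : ℝ) ≤ 1 := by
        exact_mod_cast hcard
      rw [← hc]
      nlinarith
    · rw [if_neg hs]
      refine (Finset.sum_eq_zero fun x _ => ?_).le
      rw [if_neg]
      exact fun h => hs h.2.1
  induction t generalizing w e with
  | zero => exact base w e
  | succ t ih =>
    unfold GG
    calc ∑ x, Γ.pim B x * ∑ w', ∑ e', Γ.GG B Bad t x w' e' * (if Bad e' e then 0 else Γ.G1 B w' w e)
        ≤ ∑ x, Γ.pim B x * ∑ w', ∑ e', Γ.GG B Bad t x w' e' * Γ.G1 B w' w e := by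
          refine Finset.sum_le_sum fun x _ => mul_le_mul_of_nonneg_left ?_ (Γ.pim_nonneg B x)
          refine Finset.sum_le_sum fun w' _ => Finset.sum_le_sum fun e' _ =>
            mul_le_mul_of_nonneg_left ?_ (Γ.GG_nonneg B Bad t x w' e')
          split_ifs
          · exact Γ.G1_nonneg B w' w e
          · exact le_rfl
      _ = ∑ w', ∑ e', (∑ x, Γ.pim B x * Γ.GG B Bad t x w' e') * Γ.G1 B w' w e := by
          simp_rw [Finset.mul_sum, Finset.sum_mul]
          rw [Finset.sum_comm]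
          refine Finset.sum_congr rfl fun w' _ => ?_
          rw [Finset.sum_comm]
          refine Finset.sum_congr rfl fun e' _ => Finset.sum_congr rfl fun x _ => ?_
          ring
      _ ≤ ∑ w', ∑ e', (if Γ.src (Γ.inv e') = w'.1 then c else 0) * Γ.G1 B w' w e := by
          refine Finset.sum_le_sum fun w' _ => Finset.sum_le_sum fun e' _ =>
            mul_le_mul_of_nonneg_right (ih w' e') (Γ.G1_nonneg B w' w e)
      _ = ∑ w', Γ.pim B w' * Γ.G1 B w' w e := by
          refine Finset.sum_congr rfl fun w' _ => ?_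
          rw [← Finset.sum_mul]
          congr 1
          have : ∑ e', (if Γ.src (Γ.inv e') = w'.1 then c else 0) = Γ.deg w'.1 * c := by
            rw [← Γ.sum_tgt w'.1, Finset.sum_mul]
            refine Finset.sum_congr rfl fun e' _ => ?_
            split_ifs <;> simp
          rw [this, hc]
          unfold pim
          ring
      _ ≤ _ := base w e

noncomputable def badW (e : E) : ℝ :=
  ∑ e', if Γ.src e' = Γ.src (Γ.inv e) ∧ Bad e e' then 1 / Γ.deg (Γ.src e') else 0

theorem badW_nonneg (e : E) : 0 ≤ Γ.badW Bad e := by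
  unfold badW
  refine Finset.sum_nonneg fun e' _ => ?_
  split_ifs
  · exact div_nonneg zero_le_one (Γ.deg_nonneg _)
  · exact le_rfl

theorem sum_G1_eq {x : S × (Fin N → Fin B)} {e : E} (hs : Γ.src e = x.1)
    (hx : ∀ j, 1 ≤ (x.2 j : ℕ) ∧ (x.2 j : ℕ) + 1 < B) :
    ∑ y, Γ.G1 B x y e = 1 / Γ.deg x.1 := by
  have hb : ∀ j, 0 ≤ ((x.2 j : ℕ) : ℤ) + Γ.g e j ∧ ((x.2 j : ℕ) : ℤ) + Γ.g e j < B := by
    intro j
    have h1 := abs_le.1 (Γ.g_le e j)
    have h2 := hx j
    constructor <;> omega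
  set y₀ : S × (Fin N → Fin B) := (Γ.src (Γ.inv e),
    fun j => ⟨(((x.2 j : ℕ) : ℤ) + Γ.g e j).toNat, by have := hb j; omega⟩) with hy₀
  have hm : Γ.Move B x y₀ e := by
    refine ⟨hs, rfl, fun j => ?_⟩
    simp only [hy₀]
    exact Int.toNat_of_nonneg (hb j).1
  unfold G1
  rw [Finset.sum_eq_single y₀]
  · rw [if_pos hm]
  · intro y _ hy
    rw [if_neg]
    intro h
    exact hy (Γ.move_unique B h hm)
  · intro h
    exact absurd (Finset.mem_univ _) h

theorem sum_deg_inv {z : S} (hz : Γ.deg z ≠ 0) :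
    ∑ e, (if Γ.src e = z then 1 / Γ.deg z else 0) = 1 := by
  have : ∑ e, (if Γ.src e = z then 1 / Γ.deg z else 0)
      = (∑ e, if Γ.src e = z then (1 : ℝ) else 0) * (1 / Γ.deg z) := by
    rw [Finset.sum_mul]
    refine Finset.sum_congr rfl fun e _ => ?_
    split_ifs <;> simp
  rw [this, Γ.sum_src, mul_one_div, div_self hz]

def inner (T : ℕ) (x : S × (Fin N → Fin B)) : Prop := ∀ j, T ≤ (x.2 j : ℕ) ∧ (x.2 j : ℕ) + T < B

instance (T : ℕ) (x : S × (Fin N → Fin B)) : Decidable (inner B T x) := by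
  unfold inner; infer_instance

theorem mass_step {T t : ℕ} (ht : t + 1 < T) {x : S × (Fin N → Fin B)} (hx : inner B T x) :
    ∑ w, ∑ e, Γ.GG B Bad t x w e * (1 - Γ.badW Bad e) ≤ ∑ y, ∑ e', Γ.GG B Bad (t + 1) x y e' := by
  have hR : ∑ y, ∑ e', Γ.GG B Bad (t + 1) x y e'
      = ∑ w, ∑ e, Γ.GG B Bad t x w e * ∑ e', (if Bad e e' then 0 else ∑ y, Γ.G1 B w y e') := by
    have e1 : ∀ y e', Γ.GG B Bad (t + 1) x y e'
      = ∑ w, ∑ e, Γ.GG B Bad t x w e * (if Bad e e' then 0 else Γ.G1 B w y e') := fun _ _ => rfl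
    simp_rw [e1]
    calc ∑ y, ∑ e', ∑ w, ∑ e, Γ.GG B Bad t x w e * (if Bad e e' then 0 else Γ.G1 B w y e')
        = ∑ w, ∑ e, ∑ e', ∑ y, Γ.GG B Bad t x w e * (if Bad e e' then 0 else Γ.G1 B w y e') :=
          sum4 (fun w e e' y => Γ.GG B Bad t x w e * (if Bad e e' then 0 else Γ.G1 B w y e'))
      _ = _ := by
          refine Finset.sum_congr rfl fun w _ => Finset.sum_congr rfl fun e _ => ?_
          rw [Finset.mul_sum]
          refine Finset.sum_congr rfl fun e' _ => ?_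
          rw [← Finset.mul_sum]
          split_ifs <;> simp
  rw [hR]
  refine Finset.sum_le_sum fun w _ => Finset.sum_le_sum fun e _ => ?_
  by_cases h0 : Γ.GG B Bad t x w e = 0
  · rw [h0]; simp
  refine mul_le_mul_of_nonneg_left ?_ (Γ.GG_nonneg B Bad t x w e)
  have hsup := Γ.GG_support B Bad (Inv := fun t _ D => ∀ j, |D j| ≤ (t : ℤ)) (T := T)
    (fun e j => by simpa using Γ.g_le e j)
    (fun t e e' D _ _ hD _ _ j => by
      have h1 := hD j
      have h2 := Γ.g_le e' j
      push_cast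
      exact (abs_add_le _ _).trans (add_le_add h1 h2)) t (by omega) x w e h0
  have hw : ∀ j, 1 ≤ (w.2 j : ℕ) ∧ (w.2 j : ℕ) + 1 < B := by
    intro j
    have h1 := abs_le.1 (hsup.2 j)
    have h2 := hx j
    push_cast at h1
    constructor <;> omega
  have hdeg : Γ.deg w.1 ≠ 0 := by
    rw [← hsup.1]
    exact (Γ.deg_pos _).ne'
  have e2 : ∑ e', (if Bad e e' then 0 else ∑ y, Γ.G1 B w y e')
      = ∑ e', ((if Γ.src e' = w.1 then 1 / Γ.deg w.1 else 0)
        - if Γ.src e' = Γ.src (Γ.inv e) ∧ Bad e e' then 1 / Γ.deg (Γ.src e') else 0) := by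
    refine Finset.sum_congr rfl fun e' _ => ?_
    rw [hsup.1]
    by_cases hs : Γ.src e' = w.1
    · rw [Γ.sum_G1_eq B hs hw]
      by_cases hb : Bad e e'
      · rw [if_pos hb, if_pos hs, if_pos ⟨hs, hb⟩, hs]; ring
      · rw [if_neg hb, if_pos hs, if_neg (fun h => hb h.2)]; ring
    · have : ∑ y, Γ.G1 B w y e' = 0 := by
        refine Finset.sum_eq_zero fun y _ => ?_
        unfold G1
        rw [if_neg]
        exact fun h => hs h.1
      rw [this, if_neg hs, if_neg (fun h : Γ.src e' = w.1 ∧ Bad e e' => hs h.1)]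
      simp
  rw [e2, Finset.sum_sub_distrib, Γ.sum_deg_inv hdeg]
  rfl

theorem mass_bound [Nonempty E] (hB : 0 < B) {T : ℕ} {δ : ℝ}
    (hbad : (∑ e, Γ.badW Bad e) / Fintype.card E ≤ δ) (t : ℕ) (ht : t < T) :
    ∑ x, (if inner B T x then Γ.pim B x else 0) - t * δ ≤
      ∑ x, if inner B T x then Γ.pim B x * ∑ y, ∑ e, Γ.GG B Bad t x y e else 0 := by
  have hE : (0 : ℝ) < Fintype.card E := by exact_mod_cast Fintype.card_pos
  have hne : Nonempty (Fin N → Fin B) := ⟨fun _ => ⟨0, hB⟩⟩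
  have hbox : (0 : ℝ) < Fintype.card (Fin N → Fin B) := by exact_mod_cast Fintype.card_pos
  induction t with
  | zero =>
    simp only [Nat.cast_zero, zero_mul, sub_zero]
    refine Finset.sum_le_sum fun x _ => ?_
    by_cases hx : inner B T x
    · rw [if_pos hx, if_pos hx]
      by_cases hdeg : Γ.deg x.1 = 0
      · unfold pim; rw [hdeg]; simp
      · have h1 : ∑ y, ∑ e, Γ.GG B Bad 0 x y e = 1 := by
          rw [Finset.sum_comm, ← Γ.sum_deg_inv hdeg]
          refine Finset.sum_congr rfl fun e _ => ?_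
          unfold GG
          by_cases hs : Γ.src e = x.1
          · rw [if_pos hs]
            refine Γ.sum_G1_eq B hs fun j => ?_
            have := hx j
            constructor <;> omega
          · rw [if_neg hs]
            refine Finset.sum_eq_zero fun y _ => ?_
            unfold G1
            rw [if_neg]
            exact fun h => hs h.1
        rw [h1, mul_one]
    · rw [if_neg hx, if_neg hx]
  | succ t ih =>
    have ih' := ih (by omega)
    have hloss : ∑ x, (if inner B T x then Γ.pim B x * ∑ w, ∑ e, Γ.GG B Bad t x w e * Γ.badW Bad e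
        else 0) ≤ δ := by
      calc ∑ x, (if inner B T x then Γ.pim B x * ∑ w, ∑ e, Γ.GG B Bad t x w e * Γ.badW Bad e
            else 0)
          ≤ ∑ x, Γ.pim B x * ∑ w, ∑ e, Γ.GG B Bad t x w e * Γ.badW Bad e := by
            refine Finset.sum_le_sum fun x _ => ?_
            split_ifs
            · exact le_rfl
            · exact mul_nonneg (Γ.pim_nonneg B x) (Finset.sum_nonneg fun w _ =>
                Finset.sum_nonneg fun e _ => mul_nonneg (Γ.GG_nonneg B Bad t x w e)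
                  (Γ.badW_nonneg Bad e))
        _ = ∑ w, ∑ e, (∑ x, Γ.pim B x * Γ.GG B Bad t x w e) * Γ.badW Bad e := by
            simp_rw [Finset.mul_sum, Finset.sum_mul]
            rw [Finset.sum_comm]
            refine Finset.sum_congr rfl fun w' _ => ?_
            rw [Finset.sum_comm]
            refine Finset.sum_congr rfl fun e' _ => Finset.sum_congr rfl fun x _ => ?_
            ring
        _ ≤ ∑ w : S × (Fin N → Fin B), ∑ e, (if Γ.src (Γ.inv e) = w.1 then
              1 / (Fintype.card E * Fintype.card (Fin N → Fin B) : ℝ) else 0) * Γ.badW Bad e :=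
            Finset.sum_le_sum fun w _ => Finset.sum_le_sum fun e _ =>
              mul_le_mul_of_nonneg_right (Γ.agg_le B Bad t w e) (Γ.badW_nonneg Bad e)
        _ = (∑ e, Γ.badW Bad e) / Fintype.card E := by
            rw [Finset.sum_comm, Finset.sum_div]
            refine Finset.sum_congr rfl fun e _ => ?_
            have h8 : ∑ w : S × (Fin N → Fin B), (if Γ.src (Γ.inv e) = w.1 then
              1 / (Fintype.card E * Fintype.card (Fin N → Fin B) : ℝ) else 0)
                = 1 / (Fintype.card E : ℝ) := by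
              rw [Fintype.sum_prod_type, Finset.sum_comm]
              simp only [Finset.sum_ite_eq, Finset.mem_univ, if_true, Finset.sum_const,
                Finset.card_univ, nsmul_eq_mul]
              field_simp
            rw [← Finset.sum_mul, h8]
            ring
        _ ≤ δ := hbad
    have hmain : ∑ x, (if inner B T x then Γ.pim B x * ∑ w, ∑ e, Γ.GG B Bad t x w e else 0)
        - ∑ x, (if inner B T x then Γ.pim B x * ∑ w, ∑ e, Γ.GG B Bad t x w e * Γ.badW Bad e
        else 0) ≤ ∑ x, if inner B T x then Γ.pim B x * ∑ y, ∑ e, Γ.GG B Bad (t + 1) x y e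
        else 0 := by
      rw [← Finset.sum_sub_distrib]
      refine Finset.sum_le_sum fun x _ => ?_
      by_cases hx : inner B T x
      · rw [if_pos hx, if_pos hx, if_pos hx, ← mul_sub]
        refine mul_le_mul_of_nonneg_left ?_ (Γ.pim_nonneg B x)
        refine le_trans (le_of_eq ?_) (Γ.mass_step B Bad ht hx)
        rw [← Finset.sum_sub_distrib]
        refine Finset.sum_congr rfl fun w _ => ?_
        rw [← Finset.sum_sub_distrib]
        refine Finset.sum_congr rfl fun e _ => ?_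
        ring
      · rw [if_neg hx, if_neg hx, if_neg hx]; simp
    push_cast
    linarith

theorem inner_mass [Nonempty E] (hB : 0 < B) (T : ℕ) (hT : 2 * T ≤ B) :
    1 - 2 * T * N / B ≤ ∑ x, (if inner B T x then Γ.pim B x else 0) := by
  have hE : (0 : ℝ) < Fintype.card E := by exact_mod_cast Fintype.card_pos
  have hBr : (0 : ℝ) < B := by exact_mod_cast hB
  have hcard : Fintype.card (Fin N → Fin B) = B ^ N := by simp
  rw [Fintype.sum_prod_type]
  have h1 : ∀ z : S, ∑ h : Fin N → Fin B, (if inner B T (z, h) then Γ.pim B (z, h) else 0)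
      = Γ.deg z / Fintype.card E * (((B - 2 * T : ℕ) : ℝ) / B) ^ N := by
    intro z
    rw [← Finset.sum_filter]
    have h2 : (Finset.univ.filter fun h : Fin N → Fin B => inner B T (z, h))
        = Fintype.piFinset (fun _ : Fin N => Finset.univ.filter fun i : Fin B =>
          T ≤ (i : ℕ) ∧ (i : ℕ) + T < B) := by
      ext h
      rw [Finset.mem_filter, Fintype.mem_piFinset]
      simp only [inner, Finset.mem_univ, true_and, Finset.mem_filter]
    rw [h2]
    unfold pim
    simp only [Finset.sum_const, nsmul_eq_mul]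
    rw [Fintype.card_piFinset, hcard]
    have h3 : (Finset.univ.filter fun i : Fin B => T ≤ (i : ℕ) ∧ (i : ℕ) + T < B).card
        = B - 2 * T := by
      have h4 : ((Finset.univ.filter fun i : Fin B => T ≤ (i : ℕ) ∧ (i : ℕ) + T < B).map
          Fin.valEmbedding) = Finset.Ico T (B - T) := by
        ext i
        simp only [Finset.mem_map, Finset.mem_filter, Finset.mem_univ, true_and,
          Fin.valEmbedding_apply, Finset.mem_Ico]
        constructor
        · rintro ⟨a, ⟨h5, h6⟩, rfl⟩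
          omega
        · rintro ⟨h5, h6⟩
          exact ⟨⟨i, by omega⟩, ⟨h5, by simp only; omega⟩, rfl⟩
      rw [← Finset.card_map Fin.valEmbedding, h4, Nat.card_Ico]
      omega
    simp only [h3, Finset.prod_const, Finset.card_univ, Fintype.card_fin]
    push_cast
    rw [div_pow]
    field_simp
  simp_rw [h1]
  rw [← Finset.sum_mul, ← Finset.sum_div]
  have h5 : ∑ z, Γ.deg z = Fintype.card E := by
    simp_rw [← Γ.sum_src]
    rw [Finset.sum_comm]
    simp
  rw [h5, div_self hE.ne', one_mul]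
  have h6 : (((B - 2 * T : ℕ) : ℝ) / B) = 1 + (-(2 * T / B)) := by
    rw [Nat.cast_sub hT]
    push_cast
    field_simp
    ring
  rw [h6]
  have h7 : (-2 : ℝ) ≤ -(2 * T / B) := by
    have : (2 * T : ℝ) / B ≤ 1 := by
      rw [div_le_one hBr]
      exact_mod_cast hT
    linarith
  refine le_trans (le_of_eq ?_) (one_add_mul_le_pow h7 N)
  ring

theorem chain_growth_box {Y : Type*} [NormedAddCommGroup Y] [NormedSpace ℝ Y] {p K : ℝ}
    (hM : MarkovTypeWith Y p K) (hp : 0 < p) (hK : 0 < K) [Nonempty E] {T : ℕ} (hT : 1 ≤ T)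
    (hTB : 2 * T ≤ B) {δ : ℝ} (hbad : (∑ e, Γ.badW Bad e) / Fintype.card E ≤ δ)
    {Inv : ℕ → E → (Fin N → ℤ) → Prop} (h1 : ∀ e, Inv 1 e (Γ.g e))
    (hstep : ∀ t e e' D, 1 ≤ t → t < T → Inv t e D → Γ.src e' = Γ.src (Γ.inv e) → ¬ Bad e e' →
      Inv (t + 1) e' (fun j => D j + Γ.g e' j))
    (u : Fin N → Y) {LB UB : ℝ} (hLB0 : 0 ≤ LB)
    (hLB : ∀ e D, Inv T e D → LB ≤ ‖∑ j, (D j : ℝ) • u j‖)
    (hUB : ∀ e, ‖∑ j, (Γ.g e j : ℝ) • u j‖ ≤ UB) :
    (1 - 2 * T * N / B - (T - 1 : ℕ) * δ) * LB ^ p ≤ K ^ p * T * UB ^ p := by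
  have hB : 0 < B := by omega
  have hE : (0 : ℝ) < Fintype.card E := by exact_mod_cast Fintype.card_pos
  have hne : Nonempty (Fin N → Fin B) := ⟨fun _ => ⟨0, hB⟩⟩
  have hbox : (0 : ℝ) < Fintype.card (Fin N → Fin B) := by exact_mod_cast Fintype.card_pos
  set f : S × (Fin N → Fin B) → Y := fun x => ∑ j, ((x.2 j : ℕ) : ℝ) • u j with hf
  have hdiff : ∀ x y : S × (Fin N → Fin B), f y - f x
      = ∑ j, (((((y.2 j : ℕ) : ℤ) - ((x.2 j : ℕ) : ℤ) : ℤ)) : ℝ) • u j := by
    intro x y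
    simp only [hf]
    rw [← Finset.sum_sub_distrib]
    refine Finset.sum_congr rfl fun j _ => ?_
    rw [← sub_smul]
    push_cast
    rfl
  have key := markov_fintype hM (Γ.pim B) (Γ.Pm B) (Γ.pim_nonneg B) (Γ.pim_sum B hB)
    (Γ.Pm_nonneg B) (Γ.Pm_sum B) (Γ.Pm_symm B) f T hT
  have hUB0 : 0 ≤ UB := le_trans (norm_nonneg _) (hUB (Classical.arbitrary E))
  have hR : ∑ x, ∑ y, Γ.pim B x * Γ.Pm B x y * ‖f y - f x‖ ^ p ≤ UB ^ p := by
    have hR1 : ∀ x y, Γ.pim B x * Γ.Pm B x y * ‖f y - f x‖ ^ p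
        ≤ ∑ e, Γ.pim B x * Γ.G1 B x y e * UB ^ p := by
      intro x y
      by_cases hxy : x = y
      · subst hxy
        rw [sub_self, norm_zero, Real.zero_rpow hp.ne', mul_zero]
        exact Finset.sum_nonneg fun e _ => mul_nonneg (mul_nonneg (Γ.pim_nonneg B x)
          (Γ.G1_nonneg B x x e)) (Real.rpow_nonneg hUB0 p)
      · unfold Pm
        rw [if_neg hxy, add_zero]
        unfold Am
        rw [Finset.mul_sum, Finset.sum_mul]
        refine Finset.sum_le_sum fun e _ => ?_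
        by_cases hm : Γ.Move B x y e
        · refine mul_le_mul_of_nonneg_left ?_ (mul_nonneg (Γ.pim_nonneg B x)
            (Γ.G1_nonneg B x y e))
          refine Real.rpow_le_rpow (norm_nonneg _) ?_ hp.le
          rw [hdiff]
          refine le_trans (le_of_eq ?_) (hUB e)
          congr 1
          refine Finset.sum_congr rfl fun j _ => ?_
          rw [hm.2.2 j]
          congr 2
          ring
        · have : Γ.G1 B x y e = 0 := by
            unfold G1
            rw [if_neg hm]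
          rw [this]; simp
    calc ∑ x, ∑ y, Γ.pim B x * Γ.Pm B x y * ‖f y - f x‖ ^ p
        ≤ ∑ x, ∑ y, ∑ e, Γ.pim B x * Γ.G1 B x y e * UB ^ p :=
          Finset.sum_le_sum fun x _ => Finset.sum_le_sum fun y _ => hR1 x y
      _ = ∑ x, (Γ.pim B x * ∑ y, Γ.Am B x y) * UB ^ p := by
          refine Finset.sum_congr rfl fun x _ => ?_
          unfold Am
          simp_rw [Finset.mul_sum, Finset.sum_mul]
      _ ≤ ∑ x, (Γ.pim B x * 1) * UB ^ p := by
          refine Finset.sum_le_sum fun x _ => mul_le_mul_of_nonneg_right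
            (mul_le_mul_of_nonneg_left (Γ.sum_Am_le B x) (Γ.pim_nonneg B x))
            (Real.rpow_nonneg hUB0 p)
      _ = UB ^ p := by
          rw [← Finset.sum_mul]
          simp only [mul_one]
          rw [Γ.pim_sum B hB, one_mul]
  have hL : (1 - 2 * T * N / B - (T - 1 : ℕ) * δ) * LB ^ p ≤
      ∑ x, ∑ y, Γ.pim B x * ((Γ.Pm B) ^ T) x y * ‖f y - f x‖ ^ p := by
    have hL1 : ∀ x, (if inner B T x then Γ.pim B x * ∑ y, ∑ e, Γ.GG B Bad (T - 1) x y e else 0)
        * LB ^ p ≤ ∑ y, Γ.pim B x * ((Γ.Pm B) ^ T) x y * ‖f y - f x‖ ^ p := by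
      intro x
      split_ifs with hx
      · rw [Finset.mul_sum, Finset.sum_mul]
        refine Finset.sum_le_sum fun y _ => ?_
        rw [mul_assoc, mul_assoc]
        refine mul_le_mul_of_nonneg_left ?_ (Γ.pim_nonneg B x)
        have h2 : ∑ e, Γ.GG B Bad (T - 1) x y e * LB ^ p
            ≤ ∑ e, Γ.GG B Bad (T - 1) x y e * ‖f y - f x‖ ^ p := by
          refine Finset.sum_le_sum fun e _ => ?_
          by_cases h0 : Γ.GG B Bad (T - 1) x y e = 0
          · rw [h0]; simp
          · refine mul_le_mul_of_nonneg_left ?_ (Γ.GG_nonneg B Bad _ x y e)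
            refine Real.rpow_le_rpow hLB0 ?_ hp.le
            have h3 := Γ.GG_support B Bad h1 hstep (T - 1) (by omega) x y e h0
            rw [Nat.sub_add_cancel hT] at h3
            rw [hdiff]
            exact hLB e _ h3.2
        rw [← Finset.sum_mul, ← Finset.sum_mul] at h2
        refine h2.trans (mul_le_mul_of_nonneg_right ?_ (Real.rpow_nonneg (norm_nonneg _) p))
        have h4 := Γ.sum_GG_le B Bad (T - 1) x y
        rw [Nat.sub_add_cancel hT] at h4
        exact h4.trans (Γ.pow_mono B T x y).2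
      · rw [zero_mul]
        exact Finset.sum_nonneg fun y _ => mul_nonneg (mul_nonneg (Γ.pim_nonneg B x)
          ((Γ.pow_mono B T x y).1.trans (Γ.pow_mono B T x y).2))
          (Real.rpow_nonneg (norm_nonneg _) p)
    calc (1 - 2 * T * N / B - (T - 1 : ℕ) * δ) * LB ^ p
        ≤ (∑ x, if inner B T x then Γ.pim B x * ∑ y, ∑ e, Γ.GG B Bad (T - 1) x y e else 0)
          * LB ^ p := by
          refine mul_le_mul_of_nonneg_right ?_ (Real.rpow_nonneg hLB0 p)
          have h5 := Γ.mass_bound B Bad hB (T := T) hbad (T - 1) (by omega)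
          have h6 := Γ.inner_mass B hB T hTB
          linarith
      _ = ∑ x, (if inner B T x then Γ.pim B x * ∑ y, ∑ e, Γ.GG B Bad (T - 1) x y e else 0)
          * LB ^ p := Finset.sum_mul _ _ _
      _ ≤ _ := Finset.sum_le_sum fun x _ => hL1 x
  refine hL.trans (key.trans ?_)
  exact mul_le_mul_of_nonneg_left hR (by positivity)

theorem chain_growth {Y : Type*} [NormedAddCommGroup Y] [NormedSpace ℝ Y] {p K : ℝ}
    (hM : MarkovTypeWith Y p K) (hp : 0 < p) (hK : 0 < K) [Nonempty E] {T : ℕ} (hT : 1 ≤ T)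
    {δ : ℝ} (hbad : (∑ e, Γ.badW Bad e) / Fintype.card E ≤ δ)
    {Inv : ℕ → E → (Fin N → ℤ) → Prop} (h1 : ∀ e, Inv 1 e (Γ.g e))
    (hstep : ∀ t e e' D, 1 ≤ t → t < T → Inv t e D → Γ.src e' = Γ.src (Γ.inv e) → ¬ Bad e e' →
      Inv (t + 1) e' (fun j => D j + Γ.g e' j))
    (u : Fin N → Y) {LB UB : ℝ} (hLB0 : 0 ≤ LB)
    (hLB : ∀ e D, Inv T e D → LB ≤ ‖∑ j, (D j : ℝ) • u j‖)
    (hUB : ∀ e, ‖∑ j, (Γ.g e j : ℝ) • u j‖ ≤ UB) :
    (1 - (T - 1 : ℕ) * δ) * LB ^ p ≤ K ^ p * T * UB ^ p := by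
  have hlim : Filter.Tendsto (fun B : ℕ => (1 - 2 * T * N / (B : ℝ) - (T - 1 : ℕ) * δ) * LB ^ p)
      Filter.atTop (𝓝 ((1 - 0 - (T - 1 : ℕ) * δ) * LB ^ p)) := by
    have h0 : Filter.Tendsto (fun B : ℕ => 2 * T * N / (B : ℝ)) Filter.atTop (𝓝 0) :=
      tendsto_const_div_atTop_nhds_zero_nat _
    exact ((tendsto_const_nhds.sub h0).sub tendsto_const_nhds).mul tendsto_const_nhds
  rw [sub_zero] at hlim
  refine le_of_tendsto hlim ?_
  filter_upwards [Filter.eventually_ge_atTop (2 * T)] with B hB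
  exact Γ.chain_growth_box B Bad hM hp hK hT hB hbad h1 hstep u hLB0 hLB hUB

end Good

end LGraph

end Vale.Agent.P125
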