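import Vale.Agent.P125.Idx
import Vale.Agent.P125.Chain

open scoped BigOperators

namespace Vale.Agent.P125

/-- displacement attached to a label -/
def dsp (C : ℕ → ℕ) (q s r : ℕ) (x : ℕ) : ℤ :=
  ∑ m ∈ Finset.range (2 * r), if x = C (kp q s m) then (-1) ^ (m + 1) else 0

section dsp

variable {C : ℕ → ℕ} {q s r : ℕ}

theorem dsp_at (hC : StrictMono C) (hq : 2 ≤ q) {m : ℕ} (hm : m < 2 * r) :
    dsp C q s r (C (kp q s m)) = (-1) ^ (m + 1) := by
  unfold dsp
  rw [Finset.sum_eq_single m]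
  · simp
  · intro n _ hn
    rw [if_neg]
    intro h
    exact hn ((kp_strictMono hq s).injective (hC.injective h)).symm
  · intro h
    exact absurd (Finset.mem_range.2 hm) h

theorem dsp_ne {x : ℕ} (h : dsp C q s r x ≠ 0) : ∃ m < 2 * r, x = C (kp q s m) := by
  unfold dsp at h
  obtain ⟨m, hm, h1⟩ := Finset.exists_ne_zero_of_sum_ne_zero h
  refine ⟨m, Finset.mem_range.1 hm, ?_⟩
  by_contra hx
  exact h1 (if_neg hx)

theorem dsp_gap (hC : StrictMono C) (hq : 2 ≤ q) {m x : ℕ} (h1 : C (kp q s m) < x)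
    (h2 : x < C (kp q s (m + 1))) : dsp C q s r x = 0 := by
  by_contra h
  obtain ⟨n, _, rfl⟩ := dsp_ne h
  have h3 := (kp_strictMono hq s).lt_iff_lt.1 (hC.lt_iff_lt.1 h1)
  have h4 := (kp_strictMono hq s).lt_iff_lt.1 (hC.lt_iff_lt.1 h2)
  omega

theorem dsp_abs (hC : StrictMono C) (hq : 2 ≤ q) (x : ℕ) : |dsp C q s r x| ≤ 1 := by
  by_cases h : dsp C q s r x = 0
  · rw [h]; simp
  · obtain ⟨m, hm, rfl⟩ := dsp_ne h
    rw [dsp_at hC hq hm, abs_pow, abs_neg, abs_one, one_pow]

theorem dsp_sum (N : ℕ) : ∑ x ∈ Finset.range N, |dsp C q s r x| ≤ 2 * r := by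
  calc ∑ x ∈ Finset.range N, |dsp C q s r x|
      ≤ ∑ x ∈ Finset.range N, ∑ m ∈ Finset.range (2 * r),
          |(if x = C (kp q s m) then (-1) ^ (m + 1) else 0 : ℤ)| :=
        Finset.sum_le_sum fun x _ => Finset.abs_sum_le_sum_abs _ _
    _ = ∑ m ∈ Finset.range (2 * r), ∑ x ∈ Finset.range N,
          |(if x = C (kp q s m) then (-1) ^ (m + 1) else 0 : ℤ)| := Finset.sum_comm
    _ ≤ ∑ m ∈ Finset.range (2 * r), (1 : ℤ) := by
        refine Finset.sum_le_sum fun m _ => ?_
        have e : ∀ x, |(if x = C (kp q s m) then (-1) ^ (m + 1) else 0 : ℤ)|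
            = if x = C (kp q s m) then 1 else 0 := by
          intro x
          split_ifs
          · rw [abs_pow, abs_neg, abs_one, one_pow]
          · simp
        simp_rw [e]
        rw [Finset.sum_ite_eq']
        split_ifs <;> norm_num
    _ = 2 * r := by simp

theorem dsp_smul {Y : Type*} [AddCommGroup Y] [Module ℝ Y] (u : ℕ → Y) {N : ℕ}
    (hN : ∀ m, m < 2 * r → C (kp q s m) < N) :
    ∑ x ∈ Finset.range N, (dsp C q s r x : ℝ) • u x
      = ∑ m ∈ Finset.range (2 * r), ((-1 : ℝ) ^ (m + 1)) • u (C (kp q s m)) := by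
  unfold dsp
  push_cast
  simp_rw [Finset.sum_smul]
  rw [Finset.sum_comm]
  refine Finset.sum_congr rfl fun m hm => ?_
  simp_rw [ite_smul, zero_smul]
  rw [Finset.sum_ite_eq', if_pos (Finset.mem_range.2 (hN m (Finset.mem_range.1 hm)))]

end dsp

theorem invY_congr {r q t b lo hi : ℕ} {y y' : ℕ → ℕ} {D : ℕ → ℤ} (hb : b < q)
    (hyy : ∀ n, n < (r + 1) * q → y n = y' n) (h : InvY r q t y b lo hi D) :
    InvY r q t y' b lo hi D := by
  obtain ⟨h1, h2, h3, h4⟩ := h
  refine ⟨h1, h2, h3, fun k hk1 hk2 => ?_⟩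
  obtain ⟨w1, w2, w3⟩ := h4 k hk1 hk2
  obtain ⟨k', rfl⟩ : ∃ k', k = k' + 1 := ⟨k - 1, by omega⟩
  have b1 : (k' + 1 + 1) * q ≤ r * q := Nat.mul_le_mul_right q (by omega)
  have b2 : (k' + 1 + 1) * q = k' * q + q + q := by ring
  have b3 : (k' + 1) * q = k' * q + q := by ring
  have b4 : (r + 1) * q = r * q + q := by ring
  have e0 : k' + 1 - 1 = k' := by omega
  rw [e0] at w2 ⊢
  rw [← hyy _ (by omega), ← hyy _ (by omega), ← hyy _ (by omega), ← hyy _ (by omega)]
  exact ⟨w1, w2, w3⟩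

theorem pat_windows {r q t b lo hi : ℕ} {y : ℕ → ℕ} {D : ℕ → ℤ} (hy : StrictMono y)
    (hq : 2 ≤ q) (h : InvY r q t y b lo hi D) (n : ℕ) (hn : lo + n ≤ hi) :
    pat D (y (lo * q + b)) (y ((lo + n) * q + b + 1) + 1)
      = (List.replicate (n + 1) (List.replicate t (-1) ++ List.replicate t 1)).flatten := by
  obtain ⟨h1, h2, h3, h4⟩ := h
  induction n with
  | zero =>
    simp only [Nat.add_zero, Nat.zero_add, List.replicate_one]
    rw [(h4 lo le_rfl (by omega)).1]
    simp
  | succ n ih =>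
    have ih' := ih (by omega)
    have m1 : lo * q ≤ (lo + n) * q := Nat.mul_le_mul_right q (by omega)
    have m2 : (lo + (n + 1)) * q = (lo + n) * q + q := by ring
    have o1 : y (lo * q + b) < y ((lo + n) * q + b + 1) := hy (by omega)
    have o2 : y ((lo + n) * q + b + 1) < y ((lo + (n + 1)) * q + b) := hy (by omega)
    have o3 : y ((lo + (n + 1)) * q + b) < y ((lo + (n + 1)) * q + b + 1) := hy (by omega)
    rw [pat_append D (B := y ((lo + n) * q + b + 1) + 1) (by omega) (by omega), ih',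
      pat_append D (A := y ((lo + n) * q + b + 1) + 1) (B := y ((lo + (n + 1)) * q + b))
        (by omega) (by omega), (h4 (lo + (n + 1)) (by omega) hn).1]
    have e1 : pat D (y ((lo + n) * q + b + 1) + 1) (y ((lo + (n + 1)) * q + b)) = [] := by
      refine pat_zero fun x hx1 hx2 => ?_
      exact (h4 (lo + n) (by omega) (by omega)).2.2 x (by omega) hx2
    rw [e1, List.nil_append, List.replicate_succ' (n := n + 1), List.flatten_append]
    simp

/-- extension by zero -/
def ext0 {N : ℕ} (D : Fin N → ℤ) (x : ℕ) : ℤ := if h : x < N then D ⟨x, h⟩ else 0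

theorem sum_ext0 {N : ℕ} {Z : Type*} [AddCommMonoid Z] (D : Fin N → ℤ) (F : ℤ → ℕ → Z) :
    ∑ x ∈ Finset.range N, F (ext0 D x) x = ∑ x : Fin N, F (D x) x := by
  rw [Finset.sum_range]
  refine Finset.sum_congr rfl fun x _ => ?_
  unfold ext0
  rw [dif_pos x.2]

structure SData (Ω : Type) (q r N : ℕ) where
  C : Ω → ℕ → ℕ
  mono : ∀ ω, StrictMono (C ω)
  lt : ∀ ω i, i < 2 * q * (r + 2) → C ω i < N

namespace SData

variable {Ω : Type} {q r N : ℕ} (S : SData Ω q r N)

def gI (e : (Bool × Fin q × Fin q) × Ω) (x : ℕ) : ℤ :=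
  (if e.1.1 then -1 else 1) * dsp (S.C e.2) q (e.1.2.1 + e.1.2.2) r x

theorem gI_false (j j' : Fin q) (ω : Ω) :
    S.gI ((false, j, j'), ω) = dsp (S.C ω) q (j + j') r := by
  funext x
  simp [gI]

theorem gI_true (j j' : Fin q) (ω : Ω) :
    S.gI ((true, j, j'), ω) = fun x => - dsp (S.C ω) q (j + j') r x := by
  funext x
  simp [gI]

theorem kp_lt' (hq : 2 ≤ q) {j j' m : ℕ} (hj : j < q) (hj' : j' < q) (hm : m < 2 * r) :
    kp q (j + j') m < 2 * q * (r + 2) := by
  unfold kp
  have h1 : (q - 1) * (m + 1) ≤ (q - 1) * (2 * r) := Nat.mul_le_mul_left _ (by omega)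
  obtain ⟨k, rfl⟩ : ∃ k, q = k + 2 := ⟨q - 2, by omega⟩
  have e2 : k + 2 - 1 = k + 1 := by omega
  rw [e2] at h1 ⊢
  nlinarith

theorem C_lt (hq : 2 ≤ q) (e : (Bool × Fin q × Fin q) × Ω) {m : ℕ} (hm : m < 2 * r) :
    S.C e.2 (kp q (e.1.2.1 + e.1.2.2) m) < N :=
  S.lt _ _ (kp_lt' hq e.1.2.1.2 e.1.2.2.2 hm)

def graph (hq : 2 ≤ q) :
    LGraph ((Bool × Fin q × Fin q) × Ω) (Fin ((r + 1) * q) → Fin N) N where
  src e := fun n => ⟨S.C e.2 (kk q e.1 n), S.lt _ _ (kk_lt hq e.1 n.2)⟩
  inv e := (flipI e.1, e.2)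
  g e := fun x => S.gI e x
  inv_inv e := by
    simp only [flip_flip]
  g_inv e j := by
    unfold gI flipI
    simp only
    cases e.1.1 <;> simp
  g_le e j := by
    unfold gI
    rw [abs_mul]
    have := dsp_abs (s := e.1.2.1 + e.1.2.2) (r := r) (S.mono e.2) hq (j : ℕ)
    cases e.1.1 <;> simpa using this

theorem ext0_g (hq : 2 ≤ q) (e : (Bool × Fin q × Fin q) × Ω) :
    ext0 ((S.graph hq).g e) = S.gI e := by
  funext x
  unfold ext0
  split_ifs with h
  · rfl
  · unfold gI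
    have : dsp (S.C e.2) q (e.1.2.1 + e.1.2.2) r x = 0 := by
      by_contra h0
      obtain ⟨m, hm, rfl⟩ := dsp_ne h0
      exact h (S.C_lt hq e hm)
    rw [this, mul_zero]

def NearF {q : ℕ} (a b : Fin q) : Prop :=
  (a : ℕ) = b ∨ (a : ℕ) + 1 = b ∨ (b : ℕ) + 1 = a ∨ ((a : ℕ) = 0 ∧ (b : ℕ) + 1 = q) ∨
    ((b : ℕ) = 0 ∧ (a : ℕ) + 1 = q)

instance {q : ℕ} : DecidableRel (NearF (q := q)) := fun a b => by
  unfold NearF; infer_instance

def BadF (e e' : (Bool × Fin q × Fin q) × Ω) : Prop := NearF (clI (flipI e.1)) (clI e'.1)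

instance : DecidableRel (BadF (q := q) (Ω := Ω)) := fun a b => by
  unfold BadF; infer_instance

def Inv (t : ℕ) (e : (Bool × Fin q × Fin q) × Ω) (D : Fin N → ℤ) : Prop :=
  (∃ lo hi, InvY r q t (fun n => S.C e.2 (kk q (flipI e.1) n)) (clI (flipI e.1)) lo hi (ext0 D)) ∧
    ∑ x, |D x| ≤ 2 * r * t

theorem sum_g (hq : 2 ≤ q) (e : (Bool × Fin q × Fin q) × Ω) :
    ∑ x, |(S.graph hq).g e x| ≤ 2 * r := by
  rw [← sum_ext0 ((S.graph hq).g e) (fun z _ => |z|), S.ext0_g hq]
  refine le_trans (le_of_eq ?_) (dsp_sum (C := S.C e.2) (q := q) (s := e.1.2.1 + e.1.2.2)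
    (r := r) N)
  refine Finset.sum_congr rfl fun x _ => ?_
  unfold gI
  rw [abs_mul]
  cases e.1.1 <;> simp

theorem neg_one_pow_even (i : ℕ) : (-1 : ℤ) ^ (2 * i + 1) = -1 := by
  rw [pow_succ, pow_mul]; norm_num

theorem neg_one_pow_odd (i : ℕ) : (-1 : ℤ) ^ (2 * i + 1 + 1) = 1 := by
  rw [pow_succ, neg_one_pow_even]; norm_num

theorem inv_one (hq : 2 ≤ q) (hr : 1 ≤ r) (e : (Bool × Fin q × Fin q) × Ω) :
    S.Inv 1 e ((S.graph hq).g e) := by
  refine ⟨⟨1, r - 1, ?_⟩, ?_⟩
  · rw [S.ext0_g hq]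
    obtain ⟨⟨side, j, j'⟩, ω⟩ := e
    refine ⟨le_rfl, by omega, by omega, ?_⟩
    intro k hk1 hk2
    obtain ⟨k, rfl⟩ : ∃ k', k = k' + 1 := ⟨k - 1, by omega⟩
    have e0 : k + 1 - 1 = k := by omega
    rw [e0]
    have hC := S.mono ω
    have hCk : StrictMono (fun m => S.C ω (kp q (j + j') m)) :=
      hC.comp (kp_strictMono hq _)
    cases side
    · rw [gI_false]
      simp only [flipI, clI, kk, Bool.not_false, if_true]
      rw [kg_v hq j'.2, kg_w hq j'.2, kg_w hq j'.2, kg_v hq j'.2]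
      refine ⟨?_, ?_, ?_⟩
      · have o1 := hCk (show 2 * (k + 1) < 2 * (k + 1) + 1 by omega)
        simp only at o1
        rw [pat_append _ (B := S.C ω (kp q (j + j') (2 * (k + 1))) + 1) (by omega) (by omega),
          pat_append _ (A := S.C ω (kp q (j + j') (2 * (k + 1))) + 1)
            (B := S.C ω (kp q (j + j') (2 * (k + 1) + 1))) (by omega) (by omega)]
        rw [pat_single (by rw [dsp_at hC hq (by omega)]; simp),
          pat_single (by rw [dsp_at hC hq (by omega)]; simp),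
          pat_zero (fun x hx1 hx2 => dsp_gap hC hq (by omega) hx2),
          dsp_at hC hq (by omega), dsp_at hC hq (by omega), neg_one_pow_even, neg_one_pow_odd]
        rfl
      · intro x hx1 hx2
        exact dsp_gap hC hq hx1 hx2
      · intro x hx1 hx2
        exact dsp_gap hC hq hx1 hx2
    · rw [gI_true]
      simp only [flipI, clI, kk, Bool.not_true, Bool.false_eq_true, if_false]
      rw [kf_w hq j.2, kf_v hq j.2, kf_v hq j.2, kf_w hq j.2]
      have e1 : 2 * (k + 1) = 2 * k + 1 + 1 := by ring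
      rw [e1]
      refine ⟨?_, ?_, ?_⟩
      · have o1 := hCk (show 2 * k + 1 < 2 * k + 1 + 1 by omega)
        simp only at o1
        rw [pat_append _ (B := S.C ω (kp q (j + j') (2 * k + 1)) + 1) (by omega) (by omega),
          pat_append _ (A := S.C ω (kp q (j + j') (2 * k + 1)) + 1)
            (B := S.C ω (kp q (j + j') (2 * k + 1 + 1))) (by omega) (by omega)]
        rw [pat_single (by rw [dsp_at hC hq (by omega)]; simp),
          pat_single (by rw [dsp_at hC hq (by omega)]; simp),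
          pat_zero (fun x hx1 hx2 => by
            rw [dsp_gap hC hq (by omega) hx2, neg_zero]),
          dsp_at hC hq (by omega), dsp_at hC hq (by omega), neg_one_pow_odd, ← e1,
          neg_one_pow_even]
        rfl
      · intro x hx1 hx2
        rw [dsp_gap hC hq hx1 hx2, neg_zero]
      · intro x hx1 hx2
        rw [dsp_gap hC hq hx1 hx2, neg_zero]
  · have := S.sum_g hq e
    push_cast
    linarith

theorem inv_step (hq : 2 ≤ q) {t : ℕ} (htr : t < r) {e e' : (Bool × Fin q × Fin q) × Ω}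
    {D : Fin N → ℤ} (hI : S.Inv t e D)
    (hs : (S.graph hq).src e' = (S.graph hq).src ((S.graph hq).inv e)) (hb : ¬ BadF e e') :
    S.Inv (t + 1) e' (fun x => D x + (S.graph hq).g e' x) := by
  obtain ⟨⟨lo, hi, hY⟩, hsum⟩ := hI
  refine ⟨?_, ?_⟩
  · have hext : ext0 (fun x => D x + (S.graph hq).g e' x) = fun x => ext0 D x + S.gI e' x := by
      rw [← S.ext0_g hq]
      funext x
      unfold ext0
      split_ifs <;> simp
    rw [hext]
    have hyy : ∀ n, n < (r + 1) * q → S.C e.2 (kk q (flipI e.1) n) = S.C e'.2 (kk q e'.1 n) := by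
      intro n hn
      have := congrFun hs ⟨n, hn⟩
      exact (Fin.ext_iff.1 this).symm
    have hY2 := invY_congr (clI (flipI e.1)).2 hyy hY
    unfold BadF NearF at hb
    push Not at hb
    obtain ⟨b1, b2, b3, b4, b5⟩ := hb
    have ha := (clI e'.1).2
    have hjb := (clI (flipI e.1)).2
    generalize clI (flipI e.1) = jb at *
    have hC := S.mono e'.2
    have hy : StrictMono (fun n => S.C e'.2 (kk q e'.1 n)) := hC.comp (kk_strictMono q e'.1)
    obtain ⟨⟨side, j, j'⟩, ω⟩ := e'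
    cases side
    · have key := invY_step (r := r) (q := q) (t := t) (s := 0) (a := j) (b := j') (jb := jb)
        (lo := lo) (hi := hi) (y := fun n => S.C ω (kk q (false, j, j') n))
        (y' := fun n => S.C ω (kk q (true, j, j') n)) (D := ext0 D)
        (g := S.gI ((false, j, j'), ω)) hy (by omega) j.2 hjb htr
      rw [gI_false] at key ⊢
      simp only [flipI, Bool.not_false, clI, kk, if_true, Bool.false_eq_true, if_false,
        Nat.add_zero] at key b1 b2 b3 b4 b5 hY2 ⊢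
      refine ⟨lo, hi - 1, key ?_ ?_ ?_ ?_ ?_ ?_ ?_ ?_ hY2⟩
      · intro h
        constructor
        · omega
        · by_contra hc
          exact b5 (by omega) (by omega)
      · intro h
        omega
      · omega
      · intro i hi
        rw [kg_v hq j'.2, kf_v hq j.2]
      · intro i hi
        rw [kg_w hq j'.2, kf_w hq j.2]
      · intro i hi
        rw [kf_v hq j.2, dsp_at hC hq (by omega), neg_one_pow_even]
      · intro i hi
        rw [kf_w hq j.2, dsp_at hC hq (by omega), neg_one_pow_odd]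
      · intro x hx
        obtain ⟨m, hm, rfl⟩ := dsp_ne hx
        rcases Nat.even_or_odd' m with ⟨k, rfl | rfl⟩
        · exact ⟨k, Or.inr (by rw [kf_v hq j.2])⟩
        · exact ⟨k + 1, Or.inl (by rw [kf_w hq j.2])⟩
    · have key := invY_step (r := r) (q := q) (t := t) (s := 1) (a := j') (b := j) (jb := jb)
        (lo := lo) (hi := hi) (y := fun n => S.C ω (kk q (true, j, j') n))
        (y' := fun n => S.C ω (kk q (false, j, j') n)) (D := ext0 D)
        (g := S.gI ((true, j, j'), ω)) hy (by omega) j'.2 hjb htr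
      rw [gI_true] at key ⊢
      simp only [flipI, Bool.not_true, clI, kk, if_true, Bool.false_eq_true, if_false]
        at key b1 b2 b3 b4 b5 hY2 ⊢
      refine ⟨lo + 1, hi - 1 + 1, key ?_ ?_ ?_ ?_ ?_ ?_ ?_ ?_ hY2⟩
      · intro h
        constructor
        · omega
        · by_contra hc
          exact b5 (by omega) (by omega)
      · intro h
        omega
      · omega
      · intro i hi
        rw [kg_w hq j'.2, kf_w hq j.2]
      · intro i hi
        rw [kg_v hq j'.2, kf_v hq j.2]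
      · intro i hi
        rw [kg_w hq j'.2, dsp_at hC hq (by omega), neg_one_pow_odd]
      · intro i hi
        rw [kg_v hq j'.2, dsp_at hC hq (by omega), neg_one_pow_even]
        norm_num
      · intro x hx
        obtain ⟨m, hm, rfl⟩ := dsp_ne (neg_ne_zero.1 hx)
        rcases Nat.even_or_odd' m with ⟨k, rfl | rfl⟩
        · exact ⟨k, Or.inl (by rw [kg_v hq j'.2])⟩
        · exact ⟨k, Or.inr (by rw [kg_w hq j'.2])⟩
  · calc ∑ x, |D x + (S.graph hq).g e' x| ≤ ∑ x, (|D x| + |(S.graph hq).g e' x|) :=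
        Finset.sum_le_sum fun x _ => abs_add_le _ _
      _ = ∑ x, |D x| + ∑ x, |(S.graph hq).g e' x| := Finset.sum_add_distrib
      _ ≤ 2 * r * t + 2 * r := add_le_add hsum (S.sum_g hq e')
      _ = 2 * r * (t + 1 : ℕ) := by push_cast; ring

end SData

end Vale.Agent.P125
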