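import Vale.Agent.P125.Comb
import Vale.Agent.P125.Spread
import Vale.Agent.P125.BadW

open scoped BigOperators

namespace Vale.Agent.P125

universe v

theorem near_card {q : ℕ} (b : Fin q) :
    (Finset.univ.filter fun a : Fin q => SData.NearF a b).card ≤ 3 := by
  have h : ((Finset.univ.filter fun a : Fin q => SData.NearF a b).map Fin.valEmbedding) ⊆
      ({(b : ℕ), (if (b : ℕ) = 0 then q - 1 else (b : ℕ) - 1),
        (if (b : ℕ) + 1 = q then 0 else (b : ℕ) + 1)} : Finset ℕ) := by
    intro x hx
    rw [Finset.mem_map] at hx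
    obtain ⟨a, ha, rfl⟩ := hx
    rw [Finset.mem_filter] at ha
    have h1 := ha.2
    unfold SData.NearF at h1
    have := a.2
    have := b.2
    simp only [Fin.valEmbedding_apply, Finset.mem_insert, Finset.mem_singleton]
    split_ifs <;> omega
  have h2 := Finset.card_le_card h
  rw [Finset.card_map] at h2
  exact h2.trans Finset.card_le_three

theorem cl_card {q : ℕ} (a : Fin q) :
    q * (Finset.univ.filter fun i : Bool × Fin q × Fin q => clI i = a).card
      = Fintype.card (Bool × Fin q × Fin q) := by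
  have h : (Finset.univ.filter fun i : Bool × Fin q × Fin q => clI i = a).card = 2 * q := by
    rw [Finset.card_filter, Fintype.sum_prod_type]
    simp only [Fintype.sum_prod_type, Fintype.sum_bool, clI, if_true, Bool.false_eq_true,
      if_false, Finset.sum_ite_eq', Finset.mem_univ, Finset.sum_const, Finset.card_univ,
      Fintype.card_fin, smul_eq_mul, mul_one]
    simp
    ring
  rw [h]
  simp
  ring

theorem comb_growth (T r : ℕ) (hT : 1 ≤ T) (hTr : T < r) :
    ∃ N : ℕ, ∀ {Y : Type v} [NormedAddCommGroup Y] [NormedSpace ℝ Y] {p K : ℝ}, 0 < p → 0 < K →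
      MarkovTypeWith Y p K → ∀ (u : ℕ → Y) {LB UB : ℝ}, 0 ≤ LB →
      (∀ D : ℕ → ℤ, ∑ x ∈ Finset.range N, |D x| ≤ 2 * r * T →
        (∃ A B, A ≤ B ∧ B ≤ N ∧ pat D A B
          = (List.replicate (r - T) (List.replicate T (-1) ++ List.replicate T 1)).flatten) →
        LB ≤ ‖∑ x ∈ Finset.range N, (D x : ℝ) • u x‖) →
      (∀ κ : ℕ → ℕ, (∀ i j, i < j → j < 2 * r → κ i < κ j) → (∀ i, i < 2 * r → κ i < N) →
        ‖∑ i ∈ Finset.range (2 * r), ((-1 : ℝ) ^ (i + 1)) • u (κ i)‖ ≤ UB) →
      1 / 2 * LB ^ p ≤ K ^ p * T * UB ^ p := by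
  classical
  set q := 12 * T with hqdef
  have hq : 2 ≤ q := by omega
  have hTr' : (0 : ℝ) < T := by exact_mod_cast hT
  have hε : (0 : ℝ) < 1 / (4 * T) := by positivity
  obtain ⟨Ω, i1, i2, N, c, hc1, hc2, hc3⟩ := spread ((r + 1) * q) (2 * q * (r + 2)) _ hε
  refine ⟨N, ?_⟩
  intro Y _ _ p K hp hK hM u LB UB hLB0 hLB hUB
  let S : SData Ω q r N :=
    { C := fun ω i => if h : i < 2 * q * (r + 2) then c ω ⟨i, h⟩ else N + i
      mono := by
        intro ω i j hij
        simp only
        split_ifs with h1 h2 h2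
        · exact hc1 ω (by exact hij)
        · have := hc2 ω ⟨i, h1⟩
          omega
        · omega
        · omega
      lt := by
        intro ω i hi
        rw [dif_pos hi]
        exact hc2 _ _ }
  have hne : Nonempty (Fin q) := ⟨⟨0, by omega⟩⟩
  have hsrc : ∀ (i : Bool × Fin q × Fin q) (ω : Ω) (n : Fin ((r + 1) * q)),
      (((S.graph hq).src (i, ω) n : Fin N) : ℕ) = c ω ⟨kk q i n, kk_lt hq i n.2⟩ := by
    intro i ω n
    show (if h : kk q i n < 2 * q * (r + 2) then c ω ⟨kk q i n, h⟩ else N + kk q i n) = _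
    rw [dif_pos (kk_lt hq i n.2)]
  have hbad := badW_le (I := Bool × Fin q × Fin q) (Ω := Ω) (by omega : 0 < q) (S.graph hq) clI
    cl_card SData.NearF near_card SData.BadF (fun e e' h => h) (ε := 1 / (4 * T)) (by
      intro i i' F hF0 hF1
      have key := hc3 (fun n => ⟨kk q i n, kk_lt hq i n.2⟩) (fun n => ⟨kk q i' n, kk_lt hq i' n.2⟩)
        (fun a b hab => kk_strictMono q i hab) (fun a b hab => kk_strictMono q i' hab)
        (fun s => if h : ∀ n, s n < N then F (fun n => ⟨s n, h n⟩) else 0)
        (fun s => by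
          split_ifs
          · exact hF0 _
          · exact le_rfl)
        (fun s => by
          split_ifs
          · exact hF1 _
          · exact zero_le_one)
      have e1 : ∀ (i : Bool × Fin q × Fin q) (ω : Ω), F ((S.graph hq).src (i, ω))
          = if h : ∀ n : Fin ((r + 1) * q), c ω ⟨kk q i n, kk_lt hq i n.2⟩ < N then
            F (fun n => ⟨c ω ⟨kk q i n, kk_lt hq i n.2⟩, h n⟩) else 0 := by
        intro i ω
        rw [dif_pos (fun n => hc2 _ _)]
        congr 1
        funext n
        exact Fin.ext (hsrc i ω n)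
      simp_rw [e1]
      exact key)
  have key := (S.graph hq).chain_growth SData.BadF hM hp hK hT hbad (Inv := S.Inv)
    (fun e => S.inv_one hq (by omega) e)
    (fun t e e' D h1 h2 hI hs hb => S.inv_step hq (by omega) hI hs hb)
    (fun x => u x) hLB0 (UB := UB) ?_ ?_
  · refine le_trans (mul_le_mul_of_nonneg_right ?_ (Real.rpow_nonneg hLB0 p)) key
    have e1 : (3 : ℝ) / (q : ℝ) + 1 / (4 * T) = 1 / (2 * T) := by
      rw [hqdef]; push_cast
      field_simp
      norm_num
    rw [e1]
    have e2 : ((T - 1 : ℕ) : ℝ) ≤ T := by exact_mod_cast Nat.sub_le _ _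
    have e3 : ((T - 1 : ℕ) : ℝ) * (1 / (2 * T)) ≤ T * (1 / (2 * T)) :=
      mul_le_mul_of_nonneg_right e2 (by positivity)
    have e4 : (T : ℝ) * (1 / (2 * T)) = 1 / 2 := by
      field_simp
    linarith
  · intro e D hD
    obtain ⟨⟨lo, hi, hY⟩, hsum⟩ := hD
    have h5 := hLB (ext0 D) (by
      rw [sum_ext0 D (fun z _ => |z|)]
      exact_mod_cast hsum) ?_
    · rw [sum_ext0 D (fun z x => (z : ℝ) • u x)] at h5
      exact h5
    · have hy : StrictMono (fun n => S.C e.2 (kk q (flipI e.1) n)) :=
        (S.mono e.2).comp (kk_strictMono q _)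
      have hlohi : hi = lo + (r - T - 1) := by
        have := hY.2.2.1
        omega
      have h6 := pat_windows hy hq hY (r - T - 1) (by omega)
      have h12 : r - T - 1 + 1 = r - T := by omega
      rw [h12] at h6
      refine ⟨_, _, ?_, ?_, h6⟩
      · have m1 : lo * q ≤ (lo + (r - T - 1)) * q := Nat.mul_le_mul_right q (by omega)
        exact le_trans (hy.monotone (by omega)) (Nat.le_succ _)
      · have h7 : lo + (r - T - 1) < r := by rw [← hlohi]; exact hY.2.1
        have h8 : (lo + (r - T - 1) + 1) * q ≤ r * q := Nat.mul_le_mul_right q (by omega)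
        have h9 := (clI (flipI e.1)).2
        have h10 : (lo + (r - T - 1) + 1) * q = (lo + (r - T - 1)) * q + q := by ring
        have h11 : (r + 1) * q = r * q + q := by ring
        exact S.lt _ _ (kk_lt hq _ (by omega))
  · intro e
    have h5 := hUB (fun m => S.C e.2 (kp q (e.1.2.1 + e.1.2.2) m))
      (fun i j hij _ => (S.mono e.2) (kp_strictMono hq _ hij)) (fun i hi => S.C_lt hq e hi)
    rw [← dsp_smul (C := S.C e.2) (s := e.1.2.1 + e.1.2.2) u (fun m hm => S.C_lt hq e hm)] at h5
    refine le_trans (le_of_eq ?_) h5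
    rw [← sum_ext0 ((S.graph hq).g e) (fun z x => (z : ℝ) • u x), S.ext0_g hq]
    unfold SData.gI
    cases e.1.1
    · simp
    · simp only [if_true]
      rw [← norm_neg, ← Finset.sum_neg_distrib]
      congr 1
      refine Finset.sum_congr rfl fun x _ => ?_
      push_cast
      rw [← neg_smul]
      congr 1
      ring

end Vale.Agent.P125
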