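import Vale.Agent.P125.Mart

open scoped BigOperators Topology

namespace Vale.Agent.P125

/-- uniform convexity of a seminorm -/
def UniformlyConvex {X : Type*} [NormedAddCommGroup X] [NormedSpace ℝ X]
    (N : Seminorm ℝ X) : Prop :=
  ∀ ε : ℝ, 0 < ε → ε ≤ 2 → ∃ δ : ℝ, 0 < δ ∧ ∀ x y : X, N x ≤ 1 → N y ≤ 1 → ε ≤ N (x - y) →
    N ((1 / 2 : ℝ) • (x + y)) ≤ 1 - δ

section Renorm

variable {X : Type*} [NormedAddCommGroup X] [NormedSpace ℝ X]

theorem cvx_renorm {Φ : X → ℝ} {L : ℝ} (hL : 0 < L) (h0 : Φ 0 = 0) (hneg : ∀ x, Φ (-x) = Φ x)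
    (hconv : ∀ x y (a b : ℝ), 0 ≤ a → 0 ≤ b → a + b = 1 → Φ (a • x + b • y) ≤ a * Φ x + b * Φ y)
    (hge : ∀ x, ‖x‖ ≤ Φ x) (hlip : ∀ x y, Φ x ≤ Φ y + L * ‖x - y‖) :
    ∃ N : Seminorm ℝ X, (∀ x, ‖x‖ ≤ N x ∧ N x ≤ L * ‖x‖) ∧ ∀ x, N x ≤ 1 ↔ Φ x ≤ 1 := by
  set s : Set X := {x | Φ x ≤ 1} with hs
  have hcs : Convex ℝ s := by
    intro x hx y hy a b ha hb hab
    have h1 : Φ x ≤ 1 := hx
    have h2 : Φ y ≤ 1 := hy
    have h3 := hconv x y a b ha hb hab
    change Φ (a • x + b • y) ≤ 1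
    nlinarith
  have hbal : Balanced ℝ s := by
    intro a ha
    rintro _ ⟨x, hx, rfl⟩
    have h1 : Φ x ≤ 1 := hx
    have ha' : |a| ≤ 1 := by simpa using ha
    have h4 : Φ (|a| • x) ≤ 1 := by
      have h3 := hconv x 0 |a| (1 - |a|) (abs_nonneg a) (by linarith) (by ring)
      rw [smul_zero, add_zero, h0] at h3
      have := (norm_nonneg x).trans (hge x)
      nlinarith [abs_nonneg a]
    change Φ (a • x) ≤ 1
    rcases abs_choice a with h | h
    · rwa [h] at h4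
    · rw [h, neg_smul, hneg] at h4
      exact h4
  have hcont : Continuous Φ := by
    have : LipschitzWith (Real.toNNReal L) Φ := by
      refine LipschitzWith.of_le_add_mul _ fun x y => ?_
      rw [Real.coe_toNNReal _ hL.le, dist_eq_norm]
      exact hlip x y
    exact this.continuous
  have hclosed : IsClosed s := isClosed_le hcont continuous_const
  have hball : Metric.ball (0 : X) (1 / L) ⊆ s := by
    intro x hx
    rw [mem_ball_zero_iff, lt_div_iff₀ hL] at hx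
    have h1 := hlip x 0
    rw [h0, sub_zero, zero_add] at h1
    change Φ x ≤ 1
    linarith
  have hnhds : s ∈ 𝓝 (0 : X) := Filter.mem_of_superset (Metric.ball_mem_nhds _ (by positivity)) hball
  have habs : Absorbent ℝ s := absorbent_nhds_zero hnhds
  refine ⟨gaugeSeminorm hbal hcs habs, fun x => ⟨?_, ?_⟩, fun x => ?_⟩
  · change ‖x‖ ≤ gauge s x
    have h1 : s ⊆ Metric.closedBall (0 : X) 1 := by
      intro y hy
      rw [mem_closedBall_zero_iff]
      exact (hge y).trans hy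
    have h2 := gauge_mono habs h1 x
    rwa [gauge_closedBall zero_le_one, div_one] at h2
  · change gauge s x ≤ L * ‖x‖
    have h1 := mul_gauge_le_norm (x := x) hball
    rw [div_mul_eq_mul_div, one_mul, div_le_iff₀ hL] at h1
    linarith
  · change gauge s x ≤ 1 ↔ _
    rw [gauge_le_one_iff_mem_closure hcs hnhds, hclosed.closure_eq]
    rfl

theorem cvx_infDist {s : Set X} (hs : Convex ℝ s) (x y : X) {a b : ℝ} (ha : 0 ≤ a) (hb : 0 ≤ b)
    (hab : a + b = 1) :
    Metric.infDist (a • x + b • y) s ≤ a * Metric.infDist x s + b * Metric.infDist y s := by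
  rcases s.eq_empty_or_nonempty with rfl | hne
  · simp [Metric.infDist_empty]
  refine le_of_forall_pos_le_add fun δ hδ => ?_
  obtain ⟨u, hu, hxu⟩ := (Metric.infDist_lt_iff hne).1
    (show Metric.infDist x s < Metric.infDist x s + δ by linarith)
  obtain ⟨v, hv, hyv⟩ := (Metric.infDist_lt_iff hne).1
    (show Metric.infDist y s < Metric.infDist y s + δ by linarith)
  refine (Metric.infDist_le_dist_of_mem (hs hu hv ha hb hab)).trans ?_
  rw [dist_eq_norm] at hxu hyv ⊢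
  have e : a • x + b • y - (a • u + b • v) = a • (x - u) + b • (y - v) := by
    rw [smul_sub, smul_sub]; abel
  rw [e]
  calc ‖a • (x - u) + b • (y - v)‖ ≤ a * ‖x - u‖ + b * ‖y - v‖ := by
        refine (norm_add_le _ _).trans (le_of_eq ?_)
        rw [norm_smul, norm_smul, Real.norm_of_nonneg ha, Real.norm_of_nonneg hb]
    _ ≤ a * (Metric.infDist x s + δ) + b * (Metric.infDist y s + δ) := by
        gcongr
    _ = a * Metric.infDist x s + b * Metric.infDist y s + δ := by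
        linear_combination δ * hab

/-- iterated separated midpoint hulls of the unit ball -/
def bush (X : Type*) [NormedAddCommGroup X] [NormedSpace ℝ X] (ε : ℝ) : ℕ → Set X
  | 0 => Metric.closedBall 0 1
  | (j + 1) => convexHull ℝ {z | ∃ u ∈ bush X ε j, ∃ v ∈ bush X ε j,
      ε ≤ ‖u - v‖ ∧ z = (1 / 2 : ℝ) • (u + v)}

theorem bush_convex (ε : ℝ) : ∀ j, Convex ℝ (bush X ε j)
  | 0 => convex_closedBall 0 1
  | (_ + 1) => convex_convexHull ℝ _

theorem bush_neg (ε : ℝ) : ∀ j, ∀ x ∈ bush X ε j, -x ∈ bush X ε j := by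
  intro j
  induction j with
  | zero =>
    intro x hx
    have h : ‖x‖ ≤ 1 := mem_closedBall_zero_iff.1 hx
    exact mem_closedBall_zero_iff.2 (by rwa [norm_neg])
  | succ j ih =>
    have hsub : bush X ε (j + 1) ⊆ {x | -x ∈ bush X ε (j + 1)} := by
      refine convexHull_min ?_ ?_
      · rintro _ ⟨u, hu, v, hv, huv, rfl⟩
        refine subset_convexHull ℝ _ ⟨-u, ih u hu, -v, ih v hv, ?_, ?_⟩
        · rwa [← neg_sub', norm_neg]
        · rw [← neg_add, smul_neg]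
      · intro x hx y hy a b ha hb hab
        have h1 := bush_convex (X := X) ε (j + 1) hx hy ha hb hab
        change -(a • x + b • y) ∈ bush X ε (j + 1)
        rwa [neg_add, ← smul_neg, ← smul_neg]
    intro x hx
    exact hsub hx

theorem bush_zero_mem (ε : ℝ) (j : ℕ) (h : (bush X ε j).Nonempty) : (0 : X) ∈ bush X ε j := by
  obtain ⟨x, hx⟩ := h
  have h1 := bush_convex ε j hx (bush_neg ε j x hx) (show (0 : ℝ) ≤ 1 / 2 by norm_num)
    (show (0 : ℝ) ≤ 1 / 2 by norm_num) (by norm_num)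
  simpa using h1

/-- distance to the `j`-th hull -/
noncomputable def fd (X : Type*) [NormedAddCommGroup X] [NormedSpace ℝ X] (ε : ℝ) (j : ℕ)
    (x : X) : ℝ := Metric.infDist x (bush X ε j)

theorem fd_nonneg (ε : ℝ) (j : ℕ) (x : X) : 0 ≤ fd X ε j x := Metric.infDist_nonneg

theorem fd_zero (ε : ℝ) (j : ℕ) : fd X ε j 0 = 0 := by
  unfold fd
  rcases (bush X ε j).eq_empty_or_nonempty with h | h
  · rw [h, Metric.infDist_empty]
  · exact Metric.infDist_zero_of_mem (bush_zero_mem ε j h)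

theorem fd_lip (ε : ℝ) (j : ℕ) (x y : X) : fd X ε j x ≤ fd X ε j y + ‖x - y‖ := by
  unfold fd
  rw [← dist_eq_norm]
  exact Metric.infDist_le_infDist_add_dist

theorem fd_le (ε : ℝ) (j : ℕ) (x : X) : fd X ε j x ≤ ‖x‖ := by
  have := fd_lip ε j x 0
  rwa [fd_zero, sub_zero, zero_add] at this

theorem fd_neg (ε : ℝ) (j : ℕ) (x : X) : fd X ε j (-x) = fd X ε j x := by
  have key : ∀ x : X, fd X ε j (-x) ≤ fd X ε j x := by
    intro x
    unfold fd
    rcases (bush X ε j).eq_empty_or_nonempty with h | h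
    · rw [h, Metric.infDist_empty, Metric.infDist_empty]
    refine le_of_forall_pos_le_add fun δ hδ => ?_
    obtain ⟨u, hu, hxu⟩ := (Metric.infDist_lt_iff h).1
      (show Metric.infDist x (bush X ε j) < Metric.infDist x (bush X ε j) + δ by linarith)
    refine (Metric.infDist_le_dist_of_mem (bush_neg ε j u hu)).trans ?_
    rw [dist_neg_neg]
    exact hxu.le
  refine le_antisymm (key x) ?_
  have := key (-x)
  rwa [neg_neg] at this

theorem fd_conv (ε : ℝ) (j : ℕ) (x y : X) {a b : ℝ} (ha : 0 ≤ a) (hb : 0 ≤ b) (hab : a + b = 1) :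
    fd X ε j (a • x + b • y) ≤ a * fd X ε j x + b * fd X ε j y :=
  cvx_infDist (bush_convex ε j) x y ha hb hab

theorem fd_mid (ε : ℝ) (j : ℕ) (x y : X) :
    fd X ε j ((1 / 2 : ℝ) • (x + y)) ≤ (fd X ε j x + fd X ε j y) / 2 := by
  have h := fd_conv ε j x y (a := 1 / 2) (b := 1 / 2) (by norm_num) (by norm_num) (by norm_num)
  rw [smul_add]
  linarith

/-- single scale function -/
noncomputable def Fs (X : Type*) [NormedAddCommGroup X] [NormedSpace ℝ X] (ε : ℝ) (n : ℕ)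
    (x : X) : ℝ := ∑ j ∈ Finset.range n, fd X ε j x

theorem Fs_nonneg (ε : ℝ) (n : ℕ) (x : X) : 0 ≤ Fs X ε n x :=
  Finset.sum_nonneg fun j _ => fd_nonneg ε j x

theorem Fs_lip (ε : ℝ) (n : ℕ) (x y : X) : Fs X ε n x ≤ Fs X ε n y + n * ‖x - y‖ := by
  unfold Fs
  calc ∑ j ∈ Finset.range n, fd X ε j x ≤ ∑ j ∈ Finset.range n, (fd X ε j y + ‖x - y‖) :=
        Finset.sum_le_sum fun j _ => fd_lip ε j x y
    _ = _ := by rw [Finset.sum_add_distrib]; simp

theorem Fs_zero (ε : ℝ) (n : ℕ) : Fs X ε n 0 = 0 :=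
  Finset.sum_eq_zero fun j _ => fd_zero ε j

theorem Fs_neg (ε : ℝ) (n : ℕ) (x : X) : Fs X ε n (-x) = Fs X ε n x :=
  Finset.sum_congr rfl fun j _ => fd_neg ε j x

theorem Fs_conv (ε : ℝ) (n : ℕ) (x y : X) {a b : ℝ} (ha : 0 ≤ a) (hb : 0 ≤ b) (hab : a + b = 1) :
    Fs X ε n (a • x + b • y) ≤ a * Fs X ε n x + b * Fs X ε n y := by
  unfold Fs
  rw [Finset.mul_sum, Finset.mul_sum, ← Finset.sum_add_distrib]
  exact Finset.sum_le_sum fun j _ => fd_conv ε j x y ha hb hab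

theorem Fs_gap {ε : ℝ} (hε : 0 < ε) {n : ℕ} (hn : bush X ε n = ∅) :
    ∃ δ : ℝ, 0 < δ ∧ ∀ x y : X, ‖x‖ ≤ 1 → ‖y‖ ≤ 1 → 2 * ε ≤ ‖x - y‖ →
      Fs X ε n ((1 / 2 : ℝ) • (x + y)) ≤ (Fs X ε n x + Fs X ε n y) / 2 - δ := by
  set δ0 : ℝ := ε / (4 * 8 ^ n) with hδ0
  have hδ0pos : 0 < δ0 := by positivity
  refine ⟨δ0, hδ0pos, fun x y hx hy hxy => ?_⟩
  set P : ℕ → Prop := fun j => (bush X ε j).Nonempty ∧ fd X ε j x ≤ 8 ^ j * δ0 ∧
    fd X ε j y ≤ 8 ^ j * δ0 with hP
  have hP0 : P 0 := by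
    refine ⟨⟨0, by simp [bush]⟩, ?_, ?_⟩
    · have : fd X ε 0 x = 0 := Metric.infDist_zero_of_mem (mem_closedBall_zero_iff.2 hx)
      rw [this]; positivity
    · have : fd X ε 0 y = 0 := Metric.infDist_zero_of_mem (mem_closedBall_zero_iff.2 hy)
      rw [this]; positivity
  have hPn : ¬ P n := by
    rintro ⟨h, -, -⟩
    rw [hn] at h
    exact Set.not_nonempty_empty h
  obtain ⟨j, hjn, hj, hj1⟩ : ∃ j, j < n ∧ P j ∧ ¬ P (j + 1) := by
    by_contra hcon
    push Not at hcon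
    have : ∀ j, j ≤ n → P j := by
      intro j
      induction j with
      | zero => intro _; exact hP0
      | succ j ih => intro hj; exact hcon j (by omega) (ih (by omega))
    exact hPn (this n le_rfl)
  obtain ⟨hne, hfx, hfy⟩ := hj
  have hpos : 0 < 8 ^ j * δ0 := by positivity
  obtain ⟨u, hu, hxu⟩ := (Metric.infDist_lt_iff hne).1
    (show Metric.infDist x (bush X ε j) < 2 * (8 ^ j * δ0) by
      have := hfx; unfold fd at this; linarith)
  obtain ⟨v, hv, hyv⟩ := (Metric.infDist_lt_iff hne).1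
    (show Metric.infDist y (bush X ε j) < 2 * (8 ^ j * δ0) by
      have := hfy; unfold fd at this; linarith)
  rw [dist_eq_norm] at hxu hyv
  have hsmall : 4 * (8 ^ j * δ0) ≤ ε := by
    have h8 : (8 : ℝ) ^ j ≤ 8 ^ n := pow_le_pow_right₀ (by norm_num) hjn.le
    calc 4 * (8 ^ j * δ0) ≤ 4 * (8 ^ n * δ0) := by gcongr
      _ = ε := by rw [hδ0]; field_simp
  have huv : ε ≤ ‖u - v‖ := by
    have h1 : ‖x - y‖ ≤ ‖x - u‖ + ‖u - v‖ + ‖y - v‖ := by
      have e : x - y = (x - u) + (u - v) - (y - v) := by abel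
      rw [e]
      exact (norm_sub_le _ _).trans (by gcongr; exact norm_add_le _ _)
    linarith
  have hz : (1 / 2 : ℝ) • (u + v) ∈ bush X ε (j + 1) :=
    subset_convexHull ℝ _ ⟨u, hu, v, hv, huv, rfl⟩
  have hj1n : j + 1 < n := by
    rcases Nat.lt_or_ge (j + 1) n with h | h
    · exact h
    · have : j + 1 = n := by omega
      rw [this, hn] at hz
      exact absurd hz (Set.notMem_empty _)
  have hmid : fd X ε (j + 1) ((1 / 2 : ℝ) • (x + y)) ≤ 2 * (8 ^ j * δ0) := by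
    refine (Metric.infDist_le_dist_of_mem hz).trans ?_
    rw [dist_eq_norm]
    have e : (1 / 2 : ℝ) • (x + y) - (1 / 2 : ℝ) • (u + v)
        = (1 / 2 : ℝ) • ((x - u) + (y - v)) := by
      rw [← smul_sub]; congr 1; abel
    rw [e, norm_smul]
    have h1 : ‖(x - u) + (y - v)‖ ≤ 4 * (8 ^ j * δ0) := by
      refine (norm_add_le _ _).trans ?_
      linarith
    have h2 : ‖(1 / 2 : ℝ)‖ = 1 / 2 := by norm_num
    rw [h2]
    linarith
  have havg : 4 * (8 ^ j * δ0) ≤ (fd X ε (j + 1) x + fd X ε (j + 1) y) / 2 := by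
    have h8 : (8 : ℝ) ^ (j + 1) = 8 * 8 ^ j := by rw [pow_succ]; ring
    have hnP : 8 ^ (j + 1) * δ0 < fd X ε (j + 1) x ∨ 8 ^ (j + 1) * δ0 < fd X ε (j + 1) y := by
      by_contra hcon
      push Not at hcon
      exact hj1 ⟨⟨_, hz⟩, hcon.1, hcon.2⟩
    have hx0 := fd_nonneg ε (j + 1) x
    have hy0 := fd_nonneg ε (j + 1) y
    rw [h8] at hnP
    rcases hnP with h | h <;> nlinarith
  have hone : δ0 ≤ 8 ^ j * δ0 := by
    have : (1 : ℝ) ≤ 8 ^ j := one_le_pow₀ (by norm_num)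
    nlinarith
  have hgap : δ0 ≤ (fd X ε (j + 1) x + fd X ε (j + 1) y) / 2
      - fd X ε (j + 1) ((1 / 2 : ℝ) • (x + y)) := by linarith
  have hsum : δ0 ≤ ∑ i ∈ Finset.range n, ((fd X ε i x + fd X ε i y) / 2
      - fd X ε i ((1 / 2 : ℝ) • (x + y))) :=
    hgap.trans (Finset.single_le_sum (f := fun i => (fd X ε i x + fd X ε i y) / 2
      - fd X ε i ((1 / 2 : ℝ) • (x + y))) (fun i _ => by
        have := fd_mid ε i x y
        linarith) (Finset.mem_range.2 hj1n))
  rw [Finset.sum_sub_distrib, ← Finset.sum_div, Finset.sum_add_distrib] at hsum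
  unfold Fs
  linarith

theorem convex_of_bush (h : ∀ ε : ℝ, 0 < ε → ∃ n, bush X ε n = ∅) :
    ∃ N : Seminorm ℝ X, EquivNorm N ∧ UniformlyConvex N := by
  have he : ∀ k : ℕ, (0 : ℝ) < (1 / 2) ^ k := fun k => by positivity
  choose n hn using fun k : ℕ => h ((1 / 2) ^ k) (he k)
  set c : ℕ → ℝ := fun k => (1 / 2) ^ k * (1 / 2) / (n k + 1) with hc
  have hcpos : ∀ k, 0 < c k := fun k => by simp only [hc]; positivity
  have hcn : ∀ k, c k * n k ≤ (1 / 2) ^ k * (1 / 2) := by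
    intro k
    have h1 : (0 : ℝ) < (n k : ℝ) + 1 := by positivity
    simp only [hc]
    rw [div_mul_eq_mul_div, div_le_iff₀ h1]
    have h2 : (0 : ℝ) ≤ (1 / 2) ^ k * (1 / 2) := by positivity
    nlinarith
  set A : ℕ → X → ℝ := fun k x => c k * Fs X ((1 / 2) ^ k) (n k) x with hA
  have hA0 : ∀ k x, 0 ≤ A k x := fun k x => mul_nonneg (hcpos k).le (Fs_nonneg _ _ _)
  have hAlip : ∀ k x y, A k x ≤ A k y + (1 / 2) ^ k * (1 / 2 * ‖x - y‖) := by
    intro k x y
    have h1 := Fs_lip ((1 / 2) ^ k) (n k) x y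
    have h2 := mul_le_mul_of_nonneg_left h1 (hcpos k).le
    have h3 := mul_le_mul_of_nonneg_right (hcn k) (norm_nonneg (x - y))
    simp only [hA]
    linarith
  have hAle : ∀ k x, A k x ≤ (1 / 2) ^ k * (1 / 2 * ‖x‖) := by
    intro k x
    have := hAlip k x 0
    simpa [hA, Fs_zero] using this
  have hgs : ∀ t : ℝ, Summable fun k : ℕ => (1 / 2 : ℝ) ^ k * t := fun t =>
    summable_geometric_two.mul_right t
  have hgt : ∀ t : ℝ, ∑' k : ℕ, (1 / 2 : ℝ) ^ k * (1 / 2 * t) = t := by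
    intro t
    rw [tsum_mul_right, tsum_geometric_two]
    ring
  have hAs : ∀ x, Summable fun k => A k x := fun x =>
    Summable.of_nonneg_of_le (fun k => hA0 k x) (fun k => hAle k x) (hgs _)
  set Φ : X → ℝ := fun x => ‖x‖ + ∑' k, A k x with hΦ
  obtain ⟨N, hN1, hN2⟩ := cvx_renorm (X := X) (Φ := Φ) (L := 2) (by norm_num)
    (by simp [hΦ, hA, Fs_zero]) (by intro x; simp [hΦ, hA, Fs_neg])
    (by
      intro x y a b ha hb hab
      simp only [hΦ]
      have h1 : ‖a • x + b • y‖ ≤ a * ‖x‖ + b * ‖y‖ := by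
        refine (norm_add_le _ _).trans (le_of_eq ?_)
        rw [norm_smul, norm_smul, Real.norm_of_nonneg ha, Real.norm_of_nonneg hb]
      have h2 : ∑' k, A k (a • x + b • y) ≤ ∑' k, (a * A k x + b * A k y) := by
        refine Summable.tsum_le_tsum (fun k => ?_) (hAs _)
          (((hAs x).mul_left a).add ((hAs y).mul_left b))
        have h3 := mul_le_mul_of_nonneg_left
          (Fs_conv ((1 / 2) ^ k) (n k) x y ha hb hab) (hcpos k).le
        simp only [hA]
        linarith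
      rw [Summable.tsum_add ((hAs x).mul_left a) ((hAs y).mul_left b), tsum_mul_left,
        tsum_mul_left] at h2
      linarith)
    (by
      intro x
      have : (0 : ℝ) ≤ ∑' k, A k x := tsum_nonneg (fun k => hA0 k x)
      simp only [hΦ]
      linarith)
    (by
      intro x y
      simp only [hΦ]
      have h1 : ‖x‖ ≤ ‖y‖ + ‖x - y‖ := by
        have := norm_add_le y (x - y)
        rwa [add_sub_cancel] at this
      have h2 : ∑' k, A k x ≤ ∑' k, (A k y + (1 / 2) ^ k * (1 / 2 * ‖x - y‖)) :=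
        Summable.tsum_le_tsum (fun k => hAlip k x y) (hAs x) ((hAs y).add (hgs _))
      rw [Summable.tsum_add (hAs y) (hgs _), hgt] at h2
      linarith)
  refine ⟨N, ⟨1, 2, one_pos, two_pos, fun x => by rw [one_mul]; exact hN1 x⟩, ?_⟩
  intro ε hε _
  obtain ⟨k, hk⟩ := exists_pow_lt_of_lt_one (show (0 : ℝ) < ε / 4 by positivity)
    (show (1 / 2 : ℝ) < 1 by norm_num)
  obtain ⟨δ, hδ, hgap⟩ := Fs_gap (X := X) (he k) (hn k)
  have hcδ : 0 < c k * δ := mul_pos (hcpos k) hδ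
  set η : ℝ := min (c k * δ / 2) 1 with hη
  have hη0 : 0 < η := lt_min (by positivity) one_pos
  have hη1 : η ≤ 1 := min_le_right _ _
  have hη2 : η ≤ c k * δ / 2 := min_le_left _ _
  refine ⟨η / 2, by positivity, fun x y hx hy hxy => ?_⟩
  have hx1 : Φ x ≤ 1 := (hN2 x).1 hx
  have hy1 : Φ y ≤ 1 := (hN2 y).1 hy
  have hxn : ‖x‖ ≤ 1 := (hN1 x).1.trans hx
  have hyn : ‖y‖ ≤ 1 := (hN1 y).1.trans hy
  have hxy2 : 2 * (1 / 2) ^ k ≤ ‖x - y‖ := by
    have := (hN1 (x - y)).2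
    linarith
  set z := (1 / 2 : ℝ) • (x + y) with hz
  have hzn : ‖z‖ ≤ (‖x‖ + ‖y‖) / 2 := by
    rw [hz, norm_smul]
    have h1 := norm_add_le x y
    have h2 : ‖(1 / 2 : ℝ)‖ = 1 / 2 := by norm_num
    rw [h2]
    linarith
  have hzA : ∀ i, A i z ≤ (A i x + A i y) / 2 := by
    intro i
    have h3 := mul_le_mul_of_nonneg_left
      (Fs_conv ((1 / 2) ^ i) (n i) x y (a := 1 / 2) (b := 1 / 2) (by norm_num) (by norm_num)
        (by norm_num)) (hcpos i).le
    simp only [hA, hz, smul_add]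
    linarith
  have hzk : c k * δ ≤ (A k x + A k y) / 2 - A k z := by
    have h3 := mul_le_mul_of_nonneg_left (hgap x y hxn hyn hxy2) (hcpos k).le
    simp only [hA]
    linarith
  have hsum : c k * δ ≤ ∑' i, ((A i x + A i y) / 2 - A i z) := by
    refine hzk.trans ?_
    exact ((((hAs x).add (hAs y)).div_const 2).sub (hAs z)).le_tsum k
      (fun i _ => by have := hzA i; linarith)
  rw [Summable.tsum_sub (((hAs x).add (hAs y)).div_const 2) (hAs z), tsum_div_const,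
    Summable.tsum_add (hAs x) (hAs y)] at hsum
  have hΦz : Φ z ≤ 1 - c k * δ := by
    simp only [hΦ] at hx1 hy1 ⊢
    linarith
  have hzle1 : ‖z‖ ≤ 1 := by linarith
  have hlipz : Φ ((1 + η) • z) ≤ Φ z + 2 * ‖(1 + η) • z - z‖ := by
    simp only [hΦ]
    have h1 : ‖(1 + η) • z‖ ≤ ‖z‖ + ‖(1 + η) • z - z‖ := by
      have := norm_add_le z ((1 + η) • z - z)
      rwa [add_sub_cancel] at this
    have h2 : ∑' i, A i ((1 + η) • z) ≤
        ∑' i, (A i z + (1 / 2) ^ i * (1 / 2 * ‖(1 + η) • z - z‖)) :=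
      Summable.tsum_le_tsum (fun i => hAlip i _ _) (hAs _) ((hAs z).add (hgs _))
    rw [Summable.tsum_add (hAs z) (hgs _), hgt] at h2
    linarith
  have hηz : ‖(1 + η) • z - z‖ ≤ η := by
    have e : (1 + η) • z - z = η • z := by rw [add_smul, one_smul]; abel
    rw [e, norm_smul, Real.norm_of_nonneg hη0.le]
    nlinarith
  have hΦ1 : Φ ((1 + η) • z) ≤ 1 := by linarith
  have hN : N ((1 + η) • z) ≤ 1 := (hN2 _).2 hΦ1
  rw [map_smul_eq_mul, Real.norm_of_nonneg (by linarith)] at hN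
  have hNz : 0 ≤ N z := apply_nonneg N z
  nlinarith

end Renorm

end Vale.Agent.P125
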