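import Vale.Agent.P125.Defs

open scoped BigOperators Topology

namespace Vale.Agent.P125

theorem pilp_norm_rpow {X : Type*} [NormedAddCommGroup X] [NormedSpace ℝ X] {p : ℝ} (hp : 1 ≤ p)
    [Fact (1 ≤ ENNReal.ofReal p)] {Ω : Type} [Fintype Ω]
    (g : PiLp (ENNReal.ofReal p) (fun _ : Ω => X)) : ‖g‖ ^ p = ∑ ω, ‖g ω‖ ^ p := by
  have hp0 : 0 < p := by linarith
  have hto : (ENNReal.ofReal p).toReal = p := ENNReal.toReal_ofReal hp0.le
  rw [PiLp.norm_eq_sum (by rw [hto]; exact hp0), hto,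
    ← Real.rpow_mul (Finset.sum_nonneg fun i _ => Real.rpow_nonneg (norm_nonneg _) _),
    one_div, inv_mul_cancel₀ hp0.ne', Real.rpow_one]

theorem markov_pi {X : Type*} [NormedAddCommGroup X] [NormedSpace ℝ X] (p K : ℝ) (hp : 1 ≤ p)
    [Fact (1 ≤ ENNReal.ofReal p)] (h : MarkovTypeWith X p K) (Ω : Type) [Fintype Ω] :
    MarkovTypeWith (PiLp (ENNReal.ofReal p) (fun _ : Ω => X)) p K := by
  intro n π P h1 h2 h3 h4 h5 f t ht
  have e : ∀ Q : Matrix (Fin n) (Fin n) ℝ,
      ∑ i, ∑ j, π i * Q i j * ‖f j - f i‖ ^ p =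
        ∑ ω, ∑ i, ∑ j, π i * Q i j * ‖f j ω - f i ω‖ ^ p := by
    intro Q
    calc ∑ i, ∑ j, π i * Q i j * ‖f j - f i‖ ^ p
        = ∑ i, ∑ j, ∑ ω, π i * Q i j * ‖f j ω - f i ω‖ ^ p := by
          refine Finset.sum_congr rfl fun i _ => Finset.sum_congr rfl fun j _ => ?_
          rw [pilp_norm_rpow hp, Finset.mul_sum]
          rfl
      _ = ∑ i, ∑ ω, ∑ j, π i * Q i j * ‖f j ω - f i ω‖ ^ p :=
          Finset.sum_congr rfl fun i _ => Finset.sum_comm
      _ = ∑ ω, ∑ i, ∑ j, π i * Q i j * ‖f j ω - f i ω‖ ^ p := Finset.sum_comm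
  rw [e, e, Finset.mul_sum]
  exact Finset.sum_le_sum fun ω _ => h n π P h1 h2 h3 h4 h5 (fun i => f i ω) t ht

section Tree

variable {X : Type*} [NormedAddCommGroup X] [NormedSpace ℝ X]

structure IsTree (n : ℕ) (d : Fin n → (Fin n → Bool) → X) : Prop where
  norm_le : ∀ j ε, ‖d j ε‖ ≤ 1
  dep : ∀ j ε ε', (∀ i, i ≤ j → ε i = ε' i) → d j ε = d j ε'
  flip : ∀ j ε, d j (Function.update ε j (!ε j)) = - d j ε

theorem stepOp_iter_le (k : ℕ) (x : X) :
    ((stepOp (X := X) 1)^[k] (fun x => ‖x‖)) x ≤ ‖x‖ + k := by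
  induction k generalizing x with
  | zero => simp
  | succ k ih =>
    rw [Function.iterate_succ', Function.comp_apply]
    unfold stepOp
    have : Nonempty {v : X // ‖v‖ ≤ 1} := ⟨⟨0, by simp⟩⟩
    refine ciSup_le fun v => ?_
    have h1 := ih (x + v)
    have h2 := ih (x - v)
    have h3 := norm_add_le x (v : X)
    have h4 := norm_sub_le x (v : X)
    have h5 := v.2
    push_cast
    unfold stepOp at h1 h2
    linarith

theorem exists_tree (n : ℕ) : ∀ (x : X) (δ : ℝ), 0 < δ →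
    ∃ d : Fin n → (Fin n → Bool) → X, IsTree n d ∧
      ((stepOp (X := X) 1)^[n] (fun x => ‖x‖)) x - δ <
        (∑ ε : Fin n → Bool, ‖x + ∑ j, d j ε‖) / 2 ^ n := by
  induction n with
  | zero =>
    intro x δ hδ
    refine ⟨fun j => j.elim0, ⟨fun j => j.elim0, fun j => j.elim0, fun j => j.elim0⟩, ?_⟩
    simp [hδ]
  | succ n ih =>
    intro x δ hδ
    have : Nonempty {v : X // ‖v‖ ≤ 1} := ⟨⟨0, by simp⟩⟩
    rw [Function.iterate_succ', Function.comp_apply]
    have hlt : stepOp 1 ((stepOp (X := X) 1)^[n] (fun x => ‖x‖)) x - δ / 2 <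
        ⨆ v : {v : X // ‖v‖ ≤ 1}, (((stepOp (X := X) 1)^[n] (fun x => ‖x‖)) (x + v) +
          ((stepOp (X := X) 1)^[n] (fun x => ‖x‖)) (x - v)) / 2 := by
      change stepOp 1 ((stepOp (X := X) 1)^[n] (fun x => ‖x‖)) x - δ / 2 <
        stepOp 1 ((stepOp (X := X) 1)^[n] (fun x => ‖x‖)) x
      linarith
    obtain ⟨v, hv⟩ := exists_lt_of_lt_ciSup hlt
    set s : Bool → X := fun b => if b then (v : X) else -(v : X) with hs
    have hd : ∀ b, ∃ d : Fin n → (Fin n → Bool) → X, IsTree n d ∧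
      ((stepOp (X := X) 1)^[n] (fun x => ‖x‖)) (x + s b) - δ / 2 <
        (∑ ε : Fin n → Bool, ‖(x + s b) + ∑ j, d j ε‖) / 2 ^ n :=
      fun b => ih (x + s b) (δ / 2) (by linarith)
    choose D hD hDlt using hd
    refine ⟨fun j ε => Fin.cases (motive := fun _ => X) (s (ε 0))
      (fun j' => D (ε 0) j' (Fin.tail ε)) j, ⟨?_, ?_, ?_⟩, ?_⟩
    · intro j ε
      refine Fin.cases ?_ (fun j' => ?_) j
      · simp only [Fin.cases_zero, hs]
        split_ifs
        · exact v.2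
        · rw [norm_neg]; exact v.2
      · simp only [Fin.cases_succ]
        exact (hD _).norm_le _ _
    · intro j
      refine Fin.cases ?_ (fun j' => ?_) j
      · intro ε ε' h
        simp only [Fin.cases_zero]
        rw [h 0 le_rfl]
      · intro ε ε' h
        simp only [Fin.cases_succ]
        rw [h 0 (Fin.zero_le _)]
        refine (hD _).dep _ _ _ fun i hi => ?_
        exact h i.succ (Fin.succ_le_succ_iff.2 hi)
    · intro j
      refine Fin.cases ?_ (fun j' => ?_) j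
      · intro ε
        simp only [Fin.cases_zero, Function.update_self, hs]
        cases ε 0 <;> simp
      · intro ε
        simp only [Fin.cases_succ]
        have h0 : Function.update ε j'.succ (!ε j'.succ) 0 = ε 0 :=
          Function.update_of_ne (Fin.succ_ne_zero _).symm _ _
        have h1 : Fin.tail (Function.update ε j'.succ (!ε j'.succ)) =
            Function.update (Fin.tail ε) j' (!(Fin.tail ε j')) := by
          rw [Fin.tail_update_succ]
          rfl
        rw [h0, h1]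
        exact (hD _).flip _ _
    · have hsum : ∑ ε : Fin (n + 1) → Bool, ‖x + ∑ j, Fin.cases (motive := fun _ => X) (s (ε 0))
          (fun j' => D (ε 0) j' (Fin.tail ε)) j‖ =
          ∑ b : Bool, ∑ ε : Fin n → Bool, ‖(x + s b) + ∑ j, D b j ε‖ := by
        rw [← (Fin.consEquiv (fun _ : Fin (n + 1) => Bool)).sum_comp, Fintype.sum_prod_type]
        refine Finset.sum_congr rfl fun b _ => Finset.sum_congr rfl fun ε _ => ?_
        rw [Fin.sum_univ_succ, add_assoc]
        simp [Fin.consEquiv]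
      rw [hsum]
      simp only [Fintype.sum_bool]
      have ht := hDlt true
      have hf := hDlt false
      have e1 : x + s true = x + v := by simp [hs]
      have e2 : x + s false = x - v := by simp [hs, sub_eq_add_neg]
      rw [e1] at ht ⊢
      rw [e2] at hf ⊢
      have h2 : (0 : ℝ) < 2 ^ n := by positivity
      rw [lt_div_iff₀ h2] at ht hf
      rw [lt_div_iff₀ (by positivity), pow_succ]
      nlinarith

variable {n : ℕ} {d : Fin n → (Fin n → Bool) → X}

def mixS (a : ℕ) (ε ε' : Fin n → Bool) : Fin n → Bool := fun i => if (i : ℕ) < a then ε i else ε' i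

def mixEquiv (a : ℕ) : ((Fin n → Bool) × (Fin n → Bool)) ≃ ((Fin n → Bool) × (Fin n → Bool)) where
  toFun q := (mixS a q.1 q.2, mixS a q.2 q.1)
  invFun q := (mixS a q.1 q.2, mixS a q.2 q.1)
  left_inv q := by
    ext i <;> simp only [mixS] <;> split_ifs <;> rfl
  right_inv q := by
    ext i <;> simp only [mixS] <;> split_ifs <;> rfl

theorem sum_mix (a : ℕ) (G : (Fin n → Bool) → ℝ) :
    ∑ ε : Fin n → Bool, ∑ ε' : Fin n → Bool, G (mixS a ε ε') = 2 ^ n * ∑ ε, G ε := by
  have h1 : ∑ q : (Fin n → Bool) × (Fin n → Bool), G ((mixEquiv a q).1) =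
      ∑ q : (Fin n → Bool) × (Fin n → Bool), G q.1 :=
    (mixEquiv a).sum_comp (fun q => G q.1)
  have h2 : ∑ ε : Fin n → Bool, ∑ ε' : Fin n → Bool, G (mixS a ε ε') =
      ∑ q : (Fin n → Bool) × (Fin n → Bool), G ((mixEquiv a q).1) := by
    rw [Fintype.sum_prod_type]
    rfl
  rw [h2, h1, Fintype.sum_prod_type, Finset.mul_sum]
  refine Finset.sum_congr rfl fun ε _ => ?_
  simp

theorem mix_lt (hd : IsTree n d) (φ : (Fin n → Bool) → StrongDual ℝ X) (a : ℕ) (k : Fin n)
    (hk : (k : ℕ) < a) :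
    ∑ ε : Fin n → Bool, ∑ ε' : Fin n → Bool, φ (mixS a ε ε') (d k ε) =
      2 ^ n * ∑ ε, φ ε (d k ε) := by
  rw [← sum_mix a (fun ε => φ ε (d k ε))]
  refine Finset.sum_congr rfl fun ε _ => Finset.sum_congr rfl fun ε' _ => ?_
  rw [hd.dep k ε (mixS a ε ε')]
  intro i hi
  unfold mixS
  rw [if_pos (lt_of_le_of_lt (by exact_mod_cast hi) hk)]

theorem mix_ge (hd : IsTree n d) (φ : (Fin n → Bool) → StrongDual ℝ X) (a : ℕ) (k : Fin n)
    (hk : a ≤ (k : ℕ)) :
    ∑ ε : Fin n → Bool, ∑ ε' : Fin n → Bool, φ (mixS a ε ε') (d k ε) = 0 := by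
  rw [Finset.sum_comm]
  refine Finset.sum_eq_zero fun ε' _ => ?_
  have hinv : Function.Involutive (fun ε : Fin n → Bool => Function.update ε k (!ε k)) := by
    intro ε
    simp
  have h1 := Equiv.sum_comp (Function.Involutive.toPerm _ hinv)
    (fun ε => φ (mixS a ε ε') (d k ε))
  have h2 : ∀ ε : Fin n → Bool, φ (mixS a (Function.update ε k (!ε k)) ε')
      (d k (Function.update ε k (!ε k))) = - φ (mixS a ε ε') (d k ε) := by
    intro ε
    rw [hd.flip, map_neg]
    congr 3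
    funext i
    unfold mixS
    split_ifs with h
    · rw [Function.update_of_ne]
      intro hik
      rw [hik] at h
      omega
    · rfl
  have h3 : ∑ ε : Fin n → Bool, φ (mixS a ε ε') (d k ε) =
      - ∑ ε : Fin n → Bool, φ (mixS a ε ε') (d k ε) := by
    conv_lhs => rw [← h1]
    rw [← Finset.sum_neg_distrib]
    refine Finset.sum_congr rfl fun ε _ => ?_
    exact h2 ε
  linarith

theorem window_core (hd : IsTree n d) (φ : (Fin n → Bool) → StrongDual ℝ X)
    (hφ : ∀ ε, ‖φ ε‖ ≤ 1) {c : ℝ} {m : ℕ} (κ : Fin m → Fin n) (hκ : StrictMono κ)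
    (hc : ∀ i, c / 2 ≤ (∑ ε, φ ε (d (κ i) ε)) / 2 ^ n) (a : ℕ → ℝ) (A B : ℕ) (hAB : A ≤ B)
    (hBm : B ≤ m) (ha : ∀ i ∈ Finset.Ico A B, a i ≤ 0) :
    c / 4 * ∑ i ∈ Finset.Ico A B, |a i| ≤
      (∑ ε : Fin n → Bool, ‖∑ i : Fin m, a i • d (κ i) ε‖) / 2 ^ n := by
  set Z : (Fin n → Bool) → X := fun ε => ∑ i : Fin m, a i • d (κ i) ε with hZ
  set C : Fin m → ℝ := fun i => (∑ ε, φ ε (d (κ i) ε)) / 2 ^ n with hC
  set cut : ℕ → ℕ := fun A => if h : A < m then (κ ⟨A, h⟩ : ℕ) else n with hcut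
  set T : ℕ → ℝ := fun b => ∑ ε : Fin n → Bool, ∑ ε' : Fin n → Bool, φ (mixS b ε ε') (Z ε) with hT
  have h2n : (0 : ℝ) < 2 ^ n := by positivity
  have hcutlt : ∀ (i : Fin m) (A : ℕ), A ≤ m → ((κ i : ℕ) < cut A ↔ (i : ℕ) < A) := by
    intro i A hA
    by_cases h : A < m
    · simp only [hcut, dif_pos h]
      rw [← Fin.lt_def, hκ.lt_iff_lt, Fin.lt_def]
    · simp only [hcut, dif_neg h]
      have : A = m := by omega
      rw [this]
      exact ⟨fun _ => i.2, fun _ => (κ i).2⟩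
  have hTval : ∀ A, A ≤ m → T (cut A) = (2 ^ n * 2 ^ n) * ∑ i : Fin m,
      (if (i : ℕ) < A then a i * C i else 0) := by
    intro A hA
    simp only [hT, hZ, map_sum, map_smul, smul_eq_mul]
    have e1 : ∀ ε : Fin n → Bool, ∑ ε' : Fin n → Bool, ∑ i : Fin m,
        a i * φ (mixS (cut A) ε ε') (d (κ i) ε) =
        ∑ i : Fin m, ∑ ε' : Fin n → Bool, a i * φ (mixS (cut A) ε ε') (d (κ i) ε) :=
      fun ε => Finset.sum_comm
    simp only [e1]
    rw [Finset.sum_comm, Finset.mul_sum]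
    refine Finset.sum_congr rfl fun i _ => ?_
    simp only [← Finset.mul_sum]
    by_cases h : (i : ℕ) < A
    · rw [if_pos h, mix_lt hd φ (cut A) (κ i) ((hcutlt i A hA).2 h)]
      simp only [hC]
      field_simp
    · rw [if_neg h, mix_ge hd φ (cut A) (κ i)]
      · simp
      · by_contra h'
        exact h ((hcutlt i A hA).1 (by omega))
  have hTbd : ∀ b, |T b| ≤ 2 ^ n * ∑ ε, ‖Z ε‖ := by
    intro b
    calc |T b| ≤ ∑ ε : Fin n → Bool, |∑ ε' : Fin n → Bool, φ (mixS b ε ε') (Z ε)| :=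
          Finset.abs_sum_le_sum_abs _ _
      _ ≤ ∑ ε : Fin n → Bool, ∑ ε' : Fin n → Bool, |φ (mixS b ε ε') (Z ε)| :=
          Finset.sum_le_sum fun ε _ => Finset.abs_sum_le_sum_abs _ _
      _ ≤ ∑ ε : Fin n → Bool, ∑ _ε' : Fin n → Bool, ‖Z ε‖ := by
          refine Finset.sum_le_sum fun ε _ => Finset.sum_le_sum fun ε' _ => ?_
          have := (φ (mixS b ε ε')).le_of_opNorm_le (hφ _) (Z ε)
          rw [one_mul, Real.norm_eq_abs] at this
          exact this
      _ = 2 ^ n * ∑ ε, ‖Z ε‖ := by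
          rw [Finset.mul_sum]
          refine Finset.sum_congr rfl fun ε _ => ?_
          simp
  have hdiff : T (cut A) - T (cut B) = (2 ^ n * 2 ^ n) * ∑ i ∈ Finset.Ico A B,
      (if h : i < m then |a i| * C ⟨i, h⟩ else 0) := by
    rw [hTval A (hAB.trans hBm), hTval B hBm, ← mul_sub, ← Finset.sum_sub_distrib]
    congr 1
    have e2 : ∀ i : Fin m, ((if (i : ℕ) < A then a i * C i else 0) -
        (if (i : ℕ) < B then a i * C i else 0)) =
        (fun j : ℕ => if j ∈ Finset.Ico A B then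
          (if h : j < m then |a j| * C ⟨j, h⟩ else 0) else 0) (i : ℕ) := by
      intro i
      simp only [Finset.mem_Ico, i.2, dif_pos]
      by_cases h1 : (i : ℕ) < A
      · rw [if_pos h1, if_pos (lt_of_lt_of_le h1 hAB), if_neg (by omega), sub_self]
      · by_cases h2 : (i : ℕ) < B
        · rw [if_neg h1, if_pos h2, if_pos ⟨by omega, h2⟩]
          have := ha i (Finset.mem_Ico.2 ⟨by omega, h2⟩)
          rw [abs_of_nonpos this]
          ring
        · rw [if_neg h1, if_neg h2, if_neg (by omega), sub_self]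
    rw [Finset.sum_congr rfl fun i _ => e2 i, Fin.sum_univ_eq_sum_range
      (fun j : ℕ => if j ∈ Finset.Ico A B then
          (if h : j < m then |a j| * C ⟨j, h⟩ else 0) else 0) m,
      ← Finset.sum_filter]
    congr 1
    ext j
    simp only [Finset.mem_filter, Finset.mem_range, Finset.mem_Ico]
    omega
  have hlow : c / 2 * ∑ i ∈ Finset.Ico A B, |a i| ≤ ∑ i ∈ Finset.Ico A B,
      (if h : i < m then |a i| * C ⟨i, h⟩ else 0) := by
    rw [Finset.mul_sum]
    refine Finset.sum_le_sum fun i hi => ?_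
    rw [Finset.mem_Ico] at hi
    rw [dif_pos (by omega : i < m)]
    have := hc ⟨i, by omega⟩
    have h0 := abs_nonneg (a i)
    nlinarith
  have h1 := hTbd (cut A)
  have h2 := hTbd (cut B)
  have h3 : T (cut A) - T (cut B) ≤ 2 * (2 ^ n * ∑ ε, ‖Z ε‖) := by
    have := abs_le.1 h1
    have := abs_le.1 h2
    linarith
  rw [hdiff] at h3
  rw [le_div_iff₀ h2n]
  have h4 : (2 ^ n * 2 ^ n : ℝ) * (c / 2 * ∑ i ∈ Finset.Ico A B, |a i|) ≤
      2 * (2 ^ n * ∑ ε, ‖Z ε‖) :=
    le_trans (mul_le_mul_of_nonneg_left hlow (by positivity)) h3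
  have h5 : (2 ^ n : ℝ) * (c / 4 * (∑ i ∈ Finset.Ico A B, |a i|) * 2 ^ n) ≤
      2 ^ n * ∑ ε, ‖Z ε‖ := by
    nlinarith
  exact le_of_mul_le_mul_left h5 h2n

theorem exists_indices (hd : IsTree n d) (φ : (Fin n → Bool) → StrongDual ℝ X)
    (hφ : ∀ ε, ‖φ ε‖ ≤ 1) {c : ℝ} (m : ℕ) (hm : (m : ℝ) ≤ c / 2 * n) 
    (hsum : c * n < ∑ k : Fin n, (∑ ε, φ ε (d k ε)) / 2 ^ n) :
    ∃ κ : Fin m → Fin n, StrictMono κ ∧ ∀ i, c / 2 ≤ (∑ ε, φ ε (d (κ i) ε)) / 2 ^ n := by
  classical
  set C : Fin n → ℝ := fun k => (∑ ε, φ ε (d k ε)) / 2 ^ n with hC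
  have h2n : (0 : ℝ) < 2 ^ n := by positivity
  have hC1 : ∀ k, C k ≤ 1 := by
    intro k
    simp only [hC]
    rw [div_le_one h2n]
    calc ∑ ε, φ ε (d k ε) ≤ ∑ _ε : Fin n → Bool, (1 : ℝ) := by
          refine Finset.sum_le_sum fun ε _ => ?_
          have := (φ ε).le_of_opNorm_le (hφ _) (d k ε)
          rw [one_mul, Real.norm_eq_abs] at this
          exact (le_abs_self _).trans (this.trans (hd.norm_le _ _))
      _ = 2 ^ n := by simp
  set S : Finset (Fin n) := Finset.univ.filter fun k => c / 2 ≤ C k with hS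
  have hcard : m ≤ S.card := by
    have h1 : ∑ k, C k ≤ (S.card : ℝ) + c / 2 * n := by
      by_cases hc0 : 0 ≤ c
      · calc ∑ k, C k ≤ ∑ k, ((if k ∈ S then 1 else 0) + c / 2) := by
              refine Finset.sum_le_sum fun k _ => ?_
              by_cases h : k ∈ S
              · rw [if_pos h]
                have := hC1 k
                linarith
              · rw [if_neg h]
                have : ¬ (c / 2 ≤ C k) := fun h' => h (Finset.mem_filter.2 ⟨Finset.mem_univ _, h'⟩)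
                linarith
          _ = (S.card : ℝ) + c / 2 * n := by
              rw [Finset.sum_add_distrib]
              simp
              ring
      · have hn : (0 : ℝ) ≤ m := Nat.cast_nonneg _
        have hn' : (0 : ℝ) ≤ n := Nat.cast_nonneg _
        have hn0 : (n : ℝ) = 0 := by
          by_contra hne
          have : (0 : ℝ) < n := lt_of_le_of_ne hn' (Ne.symm hne)
          nlinarith
        have : n = 0 := by exact_mod_cast hn0
        subst this
        simp at hsum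
    have h2 : (m : ℝ) ≤ S.card := by linarith
    exact_mod_cast h2
  obtain ⟨S', hS', hS'c⟩ := Finset.exists_subset_card_eq hcard
  refine ⟨S'.orderEmbOfFin hS'c, (S'.orderEmbOfFin hS'c).strictMono, fun i => ?_⟩
  have : S'.orderEmbOfFin hS'c i ∈ S := hS' (Finset.orderEmbOfFin_mem _ _ _)
  exact (Finset.mem_filter.1 this).2

end Tree

theorem window_of_growth {X : Type*} [NormedAddCommGroup X] [NormedSpace ℝ X] {c : ℝ} (hc : 0 < c)
    (h : ∀ n : ℕ, 1 ≤ n → c * n < growth X n) (p : ℝ) (hp : 1 ≤ p)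
    [Fact (1 ≤ ENNReal.ofReal p)] (m : ℕ) :
    ∃ (Ω : Type) (_ : Fintype Ω),
      WindowSeq (PiLp (ENNReal.ofReal p) (fun _ : Ω => X)) (c / 4) m := by
  classical
  have hp0 : 0 < p := by linarith
  obtain ⟨n0, hn0⟩ := exists_nat_ge (2 * m / c)
  set n := n0 + 1 with hn
  have hm : (m : ℝ) ≤ c / 2 * n := by
    have : 2 * m / c ≤ (n : ℝ) := by rw [hn]; push_cast; linarith
    rw [div_le_iff₀ hc] at this
    linarith
  have hg := h n (by omega)
  unfold growth at hg
  obtain ⟨d, hd, hlt⟩ := exists_tree n (0 : X)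
    (((stepOp (X := X) 1)^[n] (fun x => ‖x‖)) 0 - c * n) (by linarith)
  simp only [zero_add] at hlt
  have hφ : ∀ ε : Fin n → Bool, ∃ g : StrongDual ℝ X, ‖g‖ ≤ 1 ∧
      g (∑ j, d j ε) = ‖∑ j, d j ε‖ := fun ε => exists_dual_vector'' ℝ _
  choose φ hφ1 hφ2 using hφ
  have hsum : c * n < ∑ k : Fin n, (∑ ε, φ ε (d k ε)) / 2 ^ n := by
    rw [← Finset.sum_div, Finset.sum_comm]
    have e : ∀ ε, ∑ k, φ ε (d k ε) = ‖∑ j, d j ε‖ := fun ε => by
      rw [← hφ2 ε, map_sum]
    rw [Finset.sum_congr rfl fun ε _ => e ε]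
    linarith
  obtain ⟨κ, hκ, hκc⟩ := exists_indices hd φ hφ1 m hm hsum
  refine ⟨Fin n → Bool, inferInstance, ?_⟩
  set r : ℝ := ((2 : ℝ) ^ n) ^ (-(1 / p)) with hr
  have h2n : (0 : ℝ) < 2 ^ n := by positivity
  have hr0 : 0 ≤ r := Real.rpow_nonneg h2n.le _
  have hrp : r ^ p = ((2 : ℝ) ^ n)⁻¹ := by
    rw [hr, ← Real.rpow_mul h2n.le]
    rw [show -(1 / p) * p = -1 by field_simp, Real.rpow_neg_one]
  refine ⟨fun i => if hi : i < m then WithLp.toLp _ (fun ε => r • d (κ ⟨i, hi⟩) ε) else 0,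
    fun i => ?_, fun a A B hAB hBm ha => ?_⟩
  · by_cases hi : i < m
    · simp only [dif_pos hi]
      have h1 : ‖(WithLp.toLp (ENNReal.ofReal p) (fun ε => r • d (κ ⟨i, hi⟩) ε) :
          PiLp (ENNReal.ofReal p) (fun _ : Fin n → Bool => X))‖ ^ p ≤ 1 ^ p := by
        rw [pilp_norm_rpow hp, Real.one_rpow]
        calc ∑ ε : Fin n → Bool, ‖r • d (κ ⟨i, hi⟩) ε‖ ^ p
            ≤ ∑ _ε : Fin n → Bool, ((2 : ℝ) ^ n)⁻¹ := by
              refine Finset.sum_le_sum fun ε _ => ?_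
              rw [norm_smul, Real.norm_of_nonneg hr0, Real.mul_rpow hr0 (norm_nonneg _), hrp]
              have := Real.rpow_le_one (norm_nonneg (d (κ ⟨i, hi⟩) ε)) (hd.norm_le _ _) hp0.le
              have h3 : (0 : ℝ) ≤ ((2 : ℝ) ^ n)⁻¹ := by positivity
              nlinarith
          _ = 1 := by
              simp
      exact (Real.rpow_le_rpow_iff (norm_nonneg _) zero_le_one hp0).1 h1
    · simp only [dif_neg hi]
      simp
  · have hcore := window_core hd φ hφ1 κ hκ hκc a A B hAB hBm ha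
    refine hcore.trans ?_
    set Y : PiLp (ENNReal.ofReal p) (fun _ : Fin n → Bool => X) :=
      ∑ i ∈ Finset.range m, a i •
        (if hi : i < m then (WithLp.toLp (ENNReal.ofReal p) (fun ε => r • d (κ ⟨i, hi⟩) ε) :
          PiLp (ENNReal.ofReal p) (fun _ : Fin n → Bool => X)) else 0) with hY
    have hYε : ∀ ε, Y ε = r • ∑ i : Fin m, a i • d (κ i) ε := by
      intro ε
      have e1 : Y = ∑ i : Fin m, a i • (WithLp.toLp (ENNReal.ofReal p)
          (fun ε => r • d (κ i) ε) : PiLp (ENNReal.ofReal p) (fun _ : Fin n → Bool => X)) := by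
        rw [hY, ← Fin.sum_univ_eq_sum_range (fun i => a i •
          (if hi : i < m then (WithLp.toLp (ENNReal.ofReal p) (fun ε => r • d (κ ⟨i, hi⟩) ε) :
          PiLp (ENNReal.ofReal p) (fun _ : Fin n → Bool => X)) else 0)) m]
        refine Finset.sum_congr rfl fun i _ => ?_
        rw [dif_pos i.2]
      rw [e1, Finset.smul_sum]
      simp [WithLp.ofLp_sum, Finset.sum_apply, smul_comm r]
    have h1 : ((∑ ε : Fin n → Bool, ‖∑ i : Fin m, a i • d (κ i) ε‖) / 2 ^ n) ^ p ≤ ‖Y‖ ^ p := by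
      rw [pilp_norm_rpow hp]
      have hj := Real.rpow_arith_mean_le_arith_mean_rpow (Finset.univ : Finset (Fin n → Bool))
        (fun _ => ((2 : ℝ) ^ n)⁻¹) (fun ε => ‖∑ i : Fin m, a i • d (κ i) ε‖)
        (fun _ _ => by positivity) (by simp) (fun _ _ => norm_nonneg _) hp
      rw [← Finset.mul_sum] at hj
      rw [div_eq_inv_mul]
      refine hj.trans (le_of_eq ?_)
      refine Finset.sum_congr rfl fun ε _ => ?_
      rw [hYε, norm_smul, Real.norm_of_nonneg hr0, Real.mul_rpow hr0 (norm_nonneg _), hrp]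
    exact (Real.rpow_le_rpow_iff (by positivity) (norm_nonneg _) hp0).1 h1

end Vale.Agent.P125
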