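import Vale.Agent.P125.CombG
import Vale.Agent.P125.Mart
import Vale.Agent.P125.Block

open scoped BigOperators

namespace Vale.Agent.P125

universe v

theorem pat_split (D : ℕ → ℤ) {A B : ℕ} (hAB : A ≤ B) (l1 l2 : List ℤ)
    (h : pat D A B = l1 ++ l2) : ∃ C, A ≤ C ∧ C ≤ B ∧ pat D A C = l1 := by
  induction B, hAB using Nat.le_induction generalizing l2 with
  | base =>
    have h0 : pat D A A = [] := pat_zero (fun x h1 h2 => absurd h2 (by omega))
    rw [h0] at h
    refine ⟨A, le_rfl, le_rfl, ?_⟩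
    rw [h0]
    exact (List.nil_eq_append_iff.1 h).1.symm
  | succ B hAB ih =>
    by_cases h0 : D B = 0
    · have e : pat D A (B + 1) = pat D A B := by
        rw [pat_append D hAB (Nat.le_succ B), pat_zero (A := B) (by
          intro x h1 h2
          have : x = B := by omega
          rw [this, h0]), List.append_nil]
      obtain ⟨C, c1, c2, c3⟩ := ih l2 (e ▸ h)
      exact ⟨C, c1, by omega, c3⟩
    · have e : pat D A (B + 1) = pat D A B ++ [D B] := by
        rw [pat_append D hAB (Nat.le_succ B), pat_single h0]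
      rcases List.eq_nil_or_concat l2 with h2 | ⟨l2', z, h2⟩
      · subst h2
        exact ⟨B + 1, by omega, le_rfl, by simpa using h⟩
      · subst h2
        rw [e, List.concat_eq_append, ← List.append_assoc] at h
        obtain ⟨C, c1, c2, c3⟩ := ih l2' (List.append_inj_left' h rfl)
        exact ⟨C, c1, by omega, c3⟩

theorem mem_pat {D : ℕ → ℤ} {A B x : ℕ} (h1 : A ≤ x) (h2 : x < B) (h3 : D x ≠ 0) :
    D x ∈ pat D A B := by
  unfold pat
  rw [List.mem_filter]
  refine ⟨List.mem_map.2 ⟨x, ?_, rfl⟩, by simpa using h3⟩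
  rw [List.mem_range'_1]
  omega

def altL (ρ T : ℕ) : List ℤ :=
  (List.replicate ρ (List.replicate T (-1) ++ List.replicate T 1)).flatten

theorem altL_succ (ρ T : ℕ) :
    altL (ρ + 1) T = (List.replicate T (-1) ++ List.replicate T 1) ++ altL ρ T := by
  unfold altL
  rw [List.replicate_succ, List.flatten_cons]

theorem altL_length (ρ T : ℕ) : (altL ρ T).length = 2 * ρ * T := by
  induction ρ with
  | zero => simp [altL]
  | succ ρ ih =>
    rw [altL_succ, List.length_append, ih]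
    simp
    ring

theorem altL_abs (ρ T : ℕ) : ((altL ρ T).map (fun z => |z|)).sum = 2 * ρ * T := by
  induction ρ with
  | zero => simp [altL]
  | succ ρ ih =>
    rw [altL_succ, List.map_append, List.sum_append, ih]
    simp
    ring

theorem altL_getD (ρ T i : ℕ) (hi : i < 2 * ρ * T) : (altL ρ T).getD i 0 = (-1) ^ (i / T + 1) := by
  induction ρ generalizing i with
  | zero => simp at hi
  | succ ρ ih =>
    have hT : 0 < T := by
      by_contra h
      have : T = 0 := by omega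
      subst this
      simp at hi
    rw [altL_succ]
    rcases Nat.lt_or_ge i T with h1 | h1
    · rw [List.getD_append _ _ _ _ (by simp; omega), List.getD_append _ _ _ _ (by simpa using h1),
        Nat.div_eq_of_lt h1, List.getD_eq_getElem _ _ (by simpa using h1), List.getElem_replicate]
      norm_num
    · rcases Nat.lt_or_ge i (2 * T) with h2 | h2
      · have h3 : i / T = 1 := Nat.div_eq_of_lt_le (by omega) (by omega)
        rw [List.getD_append _ _ _ _ (by simp; omega),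
          List.getD_append_right _ _ _ _ (by simpa using h1), h3,
          List.getD_eq_getElem _ _ (by simp; omega), List.getElem_replicate]
        norm_num
      · rw [List.getD_append_right _ _ _ _ (by simp; omega)]
        have e1 : i - (List.replicate T (-1 : ℤ) ++ List.replicate T 1).length = i - 2 * T := by
          simp; omega
        rw [e1, ih (i - 2 * T) (by
          have : 2 * (ρ + 1) * T = 2 * ρ * T + 2 * T := by ring
          omega)]
        have e2 : i / T = (i - 2 * T) / T + 2 := by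
          conv_lhs => rw [← Nat.sub_add_cancel h2]
          rw [Nat.add_mul_div_right _ _ hT]
        rw [e2]
        ring

theorem stage_lb {Y : Type*} [NormedAddCommGroup Y] [NormedSpace ℝ Y] {u : ℕ → Y}
    (hu : ∀ i, ‖u i‖ ≤ 1) {ρ T N : ℕ} {L : ℝ}
    (hL : ∀ κ : ℕ → ℕ, (∀ i j, i < j → j < 2 * ρ * T → κ i < κ j) →
      (∀ i, i < 2 * ρ * T → κ i < N) →
      L ≤ ‖∑ i ∈ Finset.range (2 * ρ * T), ((-1 : ℝ) ^ (i / T + 1)) • u (κ i)‖)
    {D : ℕ → ℤ} (hD : ∑ x ∈ Finset.range N, |D x| ≤ 2 * ((ρ + T : ℕ) : ℤ) * T) {A B : ℕ}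
    (hAB : A ≤ B) (hBN : B ≤ N) (hpat : pat D A B = altL ρ T) :
    L - 2 * T ^ 2 ≤ ‖∑ x ∈ Finset.range N, (D x : ℝ) • u x‖ := by
  obtain ⟨κ, k1, k2, k3⟩ := pat_emb D hAB
  rw [hpat] at k1 k2 k3
  rw [altL_length] at k1 k2 k3
  have h1 := hL κ k1 (fun i hi => (k2 i hi).2.trans_le hBN)
  have h2 : ∑ i ∈ Finset.range (2 * ρ * T), ((-1 : ℝ) ^ (i / T + 1)) • u (κ i)
      = ∑ x ∈ Finset.Ico A B, (D x : ℝ) • u x := by
    rw [k3 u]
    refine Finset.sum_congr rfl fun i hi => ?_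
    rw [altL_getD _ _ _ (Finset.mem_range.1 hi)]
    push_cast
    rfl
  rw [h2] at h1
  have hsub : Finset.Ico A B ⊆ Finset.range N := by
    intro x hx
    rw [Finset.mem_Ico] at hx
    rw [Finset.mem_range]
    omega
  have h3 := Finset.sum_sdiff (f := fun x => (D x : ℝ) • u x) hsub
  have h4 := Finset.sum_sdiff (f := fun x => |D x|) hsub
  have h5 : ∑ x ∈ Finset.Ico A B, |D x| = 2 * ρ * T := by
    rw [← pat_sum_abs, hpat, altL_abs]
  have h6 : ‖∑ x ∈ Finset.range N \ Finset.Ico A B, (D x : ℝ) • u x‖ ≤ 2 * T ^ 2 := by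
    have h7 : ∑ x ∈ Finset.range N \ Finset.Ico A B, |D x| ≤ 2 * (T : ℤ) ^ 2 := by
      have : (2 : ℤ) * ((ρ + T : ℕ) : ℤ) * T = 2 * ρ * T + 2 * (T : ℤ) ^ 2 := by push_cast; ring
      linarith
    have h8 : (∑ x ∈ Finset.range N \ Finset.Ico A B, |(D x : ℝ)|) ≤ 2 * (T : ℝ) ^ 2 := by
      exact_mod_cast h7
    refine le_trans (norm_sum_le _ _) (le_trans (Finset.sum_le_sum fun x _ => ?_) h8)
    rw [norm_smul, Real.norm_eq_abs]
    exact mul_le_of_le_one_right (abs_nonneg _) (hu x)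
  rw [← h3]
  have h9 := norm_sub_norm_le (∑ x ∈ Finset.Ico A B, (D x : ℝ) • u x)
    (-(∑ x ∈ Finset.range N \ Finset.Ico A B, (D x : ℝ) • u x))
  rw [sub_neg_eq_add, norm_neg, add_comm (∑ x ∈ Finset.Ico A B, (D x : ℝ) • u x)] at h9
  linarith

theorem stage_ub {Y : Type*} [NormedAddCommGroup Y] [NormedSpace ℝ Y] {u : ℕ → Y}
    (hu : ∀ i, ‖u i‖ ≤ 1) {ρ T N : ℕ} {a : ℝ}
    (hU : ∀ κ : ℕ → ℕ, (∀ i j, i < j → j < 2 * ρ → κ i < κ j) → (∀ i, i < 2 * ρ → κ i < N) →
      ‖∑ i ∈ Finset.range (2 * ρ), ((-1 : ℝ) ^ (i + 1)) • u (κ i)‖ ≤ 2 * a)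
    (κ : ℕ → ℕ) (k1 : ∀ i j, i < j → j < 2 * (ρ + T) → κ i < κ j)
    (k2 : ∀ i, i < 2 * (ρ + T) → κ i < N) :
    ‖∑ i ∈ Finset.range (2 * (ρ + T)), ((-1 : ℝ) ^ (i + 1)) • u (κ i)‖ ≤ 2 * a + 2 * T := by
  have h1 := hU κ (fun i j hij hj => k1 i j hij (by omega)) (fun i hi => k2 i (by omega))
  have e : 2 * (ρ + T) = 2 * ρ + 2 * T := by ring
  rw [e, Finset.sum_range_add]
  refine (norm_add_le _ _).trans (add_le_add h1 ?_)
  refine (norm_sum_le _ _).trans ?_
  have : ∀ i ∈ Finset.range (2 * T),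
      ‖((-1 : ℝ) ^ (2 * ρ + i + 1)) • u (κ (2 * ρ + i))‖ ≤ 1 := by
    intro i _
    rw [norm_smul, norm_pow, norm_neg, norm_one, one_pow, one_mul]
    exact hu _
  refine (Finset.sum_le_sum this).trans ?_
  simp

theorem exists_big {p : ℝ} (hp : 1 < p) (C : ℝ) : ∃ T : ℕ, 1 ≤ T ∧ C < (T : ℝ) ^ (p - 1) := by
  have h1 : Filter.Tendsto (fun n : ℕ => (n : ℝ) ^ (p - 1)) Filter.atTop Filter.atTop :=
    (tendsto_rpow_atTop (by linarith)).comp tendsto_natCast_atTop_atTop
  have h2 := (h1.eventually_gt_atTop C).and (Filter.eventually_ge_atTop 1)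
  obtain ⟨n, hn⟩ := h2.exists
  exact ⟨n, hn.2, hn.1⟩

theorem no_window {p K θ : ℝ} (hp : 1 < p) (hK : 0 < K) (hθ : 0 < θ)
    [Fact (1 ≤ ENNReal.ofReal p)] :
    ∃ n : ℕ, ∀ (Y : Type v) [NormedAddCommGroup Y] [NormedSpace ℝ Y],
      MarkovTypeWith Y p K → ¬ WindowSeq Y θ n := by
  have hp0 : 0 < p := by linarith
  obtain ⟨T0, hT0, hT0'⟩ := exists_big hp (2 * 24 ^ p * K ^ p)
  obtain ⟨T1, hT1, hT1'⟩ := exists_big hp (2 * (34 * T0 * K / θ) ^ p)
  set ρ := T1 + 1 with hρ
  set r := ρ + T0 with hr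
  obtain ⟨N0, hN0⟩ := comb_growth.{v} T0 r hT0 (by omega)
  obtain ⟨N1, hN1⟩ := comb_growth.{v} T1 r hT1 (by omega)
  obtain ⟨n, hn⟩ := block_vectors.{v} hp.le hθ T0 ρ (max N0 N1) hT0 (by omega)
  refine ⟨n, ?_⟩
  intro Y _ _ hM hW
  obtain ⟨Ω, _, _, u, a, ha, hu1, hu2, hu3, hu4⟩ := hn Y hW
  have hM' := markov_pi p K hp.le hM Ω
  have hT0r : (0 : ℝ) < T0 := by exact_mod_cast hT0
  have hT1r : (0 : ℝ) < T1 := by exact_mod_cast hT1
  have hUB : ∀ κ : ℕ → ℕ, (∀ i j, i < j → j < 2 * r → κ i < κ j) →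
      (∀ i, i < 2 * r → κ i < max N0 N1) →
      ‖∑ i ∈ Finset.range (2 * r), ((-1 : ℝ) ^ (i + 1)) • u (κ i)‖ ≤ 2 * a + 2 * T0 :=
    fun κ k1 k2 => stage_ub hu1 hu3 κ k1 k2
  -- stage one
  have ha16 : a < 16 * T0 := by
    by_contra hcon
    push Not at hcon
    have key := hN0 hp0 hK hM' u (LB := T0 * a / 8) (UB := 3 * a) (by positivity) ?_ ?_
    · have e1 : (T0 * a / 8 : ℝ) ^ p = (T0 : ℝ) ^ p * a ^ p / 8 ^ p := by
        rw [Real.div_rpow (by positivity) (by positivity), Real.mul_rpow hT0r.le ha.le]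
      have e2 : (3 * a : ℝ) ^ p = 3 ^ p * a ^ p := Real.mul_rpow (by norm_num) ha.le
      have e3 : (24 : ℝ) ^ p = 3 ^ p * 8 ^ p := by
        rw [← Real.mul_rpow (by norm_num) (by norm_num)]; norm_num
      have e4 : (T0 : ℝ) ^ p = (T0 : ℝ) ^ (p - 1) * T0 := by
        rw [← Real.rpow_add_one hT0r.ne']; ring_nf
      rw [e1, e2, e4] at key
      rw [e3] at hT0'
      have hap : (0 : ℝ) < a ^ p := Real.rpow_pos_of_pos ha p
      have h8 : (0 : ℝ) < 8 ^ p := Real.rpow_pos_of_pos (by norm_num) p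
      have h9 : (T0 : ℝ) ^ (p - 1) ≤ 2 * (3 ^ p * 8 ^ p) * K ^ p := by
        have h10 : 1 / 2 * ((T0 : ℝ) ^ (p - 1) * T0 * a ^ p / 8 ^ p) * (2 * 8 ^ p)
            ≤ K ^ p * T0 * (3 ^ p * a ^ p) * (2 * 8 ^ p) :=
          mul_le_mul_of_nonneg_right key (by positivity)
        have h11 : 1 / 2 * ((T0 : ℝ) ^ (p - 1) * T0 * a ^ p / 8 ^ p) * (2 * 8 ^ p)
            = (T0 : ℝ) ^ (p - 1) * (T0 * a ^ p) := by
          field_simp
        rw [h11] at h10
        refine le_of_mul_le_mul_right (h10.trans (le_of_eq ?_)) (by positivity : 0 < T0 * a ^ p)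
        ring
      linarith
    · intro D hD hDp
      obtain ⟨A, B, hAB, hBN, hpat⟩ := hDp
      have h12 : r - T0 = ρ := by omega
      rw [h12] at hpat
      have h13 := stage_lb hu1 (ρ := ρ) (T := T0) (N := N0) (L := T0 * a / 4)
        (fun κ k1 k2 => hu4 κ k1 (fun i hi => (k2 i hi).trans_le (le_max_left _ _)))
        (D := D) (by exact_mod_cast hD) hAB hBN hpat
      refine le_trans ?_ h13
      nlinarith
    · intro κ k1 k2
      refine (hUB κ k1 (fun i hi => (k2 i hi).trans_le (le_max_left _ _))).trans ?_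
      linarith
  -- stage two
  have key := hN1 hp0 hK hM' u (LB := θ * T1) (UB := 34 * T0) (by positivity) ?_ ?_
  · have e1 : (θ * T1 : ℝ) ^ p = θ ^ p * ((T1 : ℝ) ^ (p - 1) * T1) := by
      rw [Real.mul_rpow hθ.le hT1r.le]
      congr 1
      rw [← Real.rpow_add_one hT1r.ne']; ring_nf
    have e2 : (34 * T0 * K / θ : ℝ) ^ p = (34 * T0) ^ p * K ^ p / θ ^ p := by
      rw [Real.div_rpow (by positivity) hθ.le, Real.mul_rpow (by positivity) hK.le]
    rw [e1] at key
    rw [e2] at hT1'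
    have hθp : (0 : ℝ) < θ ^ p := Real.rpow_pos_of_pos hθ p
    have h9 : (T1 : ℝ) ^ (p - 1) ≤ 2 * ((34 * T0) ^ p * K ^ p / θ ^ p) := by
      have h10 : 1 / 2 * (θ ^ p * ((T1 : ℝ) ^ (p - 1) * T1)) * (2 / (θ ^ p * T1))
          ≤ K ^ p * T1 * (34 * T0) ^ p * (2 / (θ ^ p * T1)) :=
        mul_le_mul_of_nonneg_right key (by positivity)
      have h11 : 1 / 2 * (θ ^ p * ((T1 : ℝ) ^ (p - 1) * T1)) * (2 / (θ ^ p * T1))
          = (T1 : ℝ) ^ (p - 1) := by
        field_simp
      rw [h11] at h10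
      refine h10.trans (le_of_eq ?_)
      field_simp
    linarith
  · intro D hD hDp
    obtain ⟨A, B, hAB, hBN, hpat⟩ := hDp
    have h12 : r - T1 = (r - T1 - 1) + 1 := by omega
    have h13 : pat D A B = List.replicate T1 (-1) ++ (List.replicate T1 1 ++ altL (r - T1 - 1) T1) := by
      rw [← List.append_assoc, ← altL_succ, ← h12, hpat]
      rfl
    obtain ⟨C, c1, c2, c3⟩ := pat_split D hAB _ _ h13
    set D' : ℕ → ℝ := fun x => if x < N1 then (D x : ℝ) else 0 with hD'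
    have h14 := hu2 D' A C c1 (by omega) (by
      intro x hx
      rw [Finset.mem_Ico] at hx
      simp only [hD']
      split_ifs
      · by_cases h0 : D x = 0
        · rw [h0]; simp
        · have := mem_pat hx.1 hx.2 h0
          rw [c3] at this
          rw [List.eq_of_mem_replicate this]
          norm_num
      · exact le_rfl)
    have h15 : ∑ i ∈ Finset.Ico A C, |D' i| = T1 := by
      have h16 : ∑ i ∈ Finset.Ico A C, |D i| = T1 := by
        rw [← pat_sum_abs, c3]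
        simp
      have h17 : ∑ i ∈ Finset.Ico A C, |D' i| = ∑ i ∈ Finset.Ico A C, |(D i : ℝ)| := by
        refine Finset.sum_congr rfl fun x hx => ?_
        rw [Finset.mem_Ico] at hx
        simp only [hD']
        rw [if_pos (by omega)]
      rw [h17]
      exact_mod_cast h16
    have h18 : ∑ i ∈ Finset.range (max N0 N1), D' i • u i
        = ∑ i ∈ Finset.range N1, (D i : ℝ) • u i := by
      rw [← Finset.sum_subset (s₁ := Finset.range N1)
        (Finset.range_subset_range.2 (le_max_right _ _))]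
      · refine Finset.sum_congr rfl fun x hx => ?_
        simp only [hD']
        rw [if_pos (Finset.mem_range.1 hx)]
      · intro x _ hx
        simp only [hD']
        rw [if_neg (fun h => hx (Finset.mem_range.2 h)), zero_smul]
    rw [h15, h18] at h14
    exact h14
  · intro κ k1 k2
    refine (hUB κ k1 (fun i hi => (k2 i hi).trans_le (le_max_right _ _))).trans ?_
    linarith

end Vale.Agent.P125
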