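import Vale.Agent.P125.Step

open scoped BigOperators

namespace Vale.Agent.P125

/-- key positions -/
def kp (q s m : ℕ) : ℕ := s + (q - 1) * (m + 1)

theorem kp_strictMono {q : ℕ} (hq : 2 ≤ q) (s : ℕ) : StrictMono (kp q s) := by
  refine strictMono_nat_of_lt_succ fun m => ?_
  unfold kp
  have : (q - 1) * (m + 1) < (q - 1) * (m + 1 + 1) :=
    Nat.mul_lt_mul_of_pos_left (Nat.lt_succ_self _) (by omega)
  omega

def kf (q j j' n : ℕ) : ℕ := j' + n + (q - 2) * ((n + (q - 1 - j)) / q)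

def kg (q j j' n : ℕ) : ℕ := kf q j' j n + (q - 1)

theorem kf_strictMono (q j j' : ℕ) : StrictMono (kf q j j') := by
  intro m n h
  unfold kf
  have h1 : (m + (q - 1 - j)) / q ≤ (n + (q - 1 - j)) / q := Nat.div_le_div_right (by omega)
  have h2 := Nat.mul_le_mul_left (q - 2) h1
  omega

theorem kg_strictMono (q j j' : ℕ) : StrictMono (kg q j j') := by
  intro m n h
  unfold kg
  have := kf_strictMono q j' j h
  omega

theorem kf_v {q j : ℕ} (hq : 2 ≤ q) (hj : j < q) (j' i : ℕ) :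
    kf q j j' (i * q + j + 1) = kp q (j + j') (2 * i) := by
  unfold kf kp
  have h1 : (i * q + j + 1 + (q - 1 - j)) / q = i + 1 := by
    have : i * q + j + 1 + (q - 1 - j) = (i + 1) * q := by
      rw [Nat.add_mul]; omega
    rw [this, Nat.mul_div_cancel _ (by omega)]
  rw [h1]
  obtain ⟨k, rfl⟩ : ∃ k, q = k + 2 := ⟨q - 2, by omega⟩
  have e1 : k + 2 - 2 = k := by omega
  have e2 : k + 2 - 1 = k + 1 := by omega
  rw [e1, e2]
  ring

theorem kf_w {q j : ℕ} (hq : 2 ≤ q) (hj : j < q) (j' i : ℕ) :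
    kf q j j' ((i + 1) * q + j) = kp q (j + j') (2 * i + 1) := by
  unfold kf kp
  have h1 : ((i + 1) * q + j + (q - 1 - j)) / q = i + 1 := by
    have : (i + 1) * q + j + (q - 1 - j) = (q - 1) + (i + 1) * q := by omega
    rw [this, Nat.add_mul_div_right _ _ (by omega), Nat.div_eq_of_lt (by omega), zero_add]
  rw [h1]
  obtain ⟨k, rfl⟩ : ∃ k, q = k + 2 := ⟨q - 2, by omega⟩
  have e1 : k + 2 - 2 = k := by omega
  have e2 : k + 2 - 1 = k + 1 := by omega
  rw [e1, e2]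
  ring

theorem kg_v {q j' : ℕ} (hq : 2 ≤ q) (hj : j' < q) (j i : ℕ) :
    kg q j j' (i * q + j') = kp q (j + j') (2 * i) := by
  unfold kg kf kp
  have h1 : (i * q + j' + (q - 1 - j')) / q = i := by
    have : i * q + j' + (q - 1 - j') = (q - 1) + i * q := by omega
    rw [this, Nat.add_mul_div_right _ _ (by omega), Nat.div_eq_of_lt (by omega), zero_add]
  rw [h1]
  obtain ⟨k, rfl⟩ : ∃ k, q = k + 2 := ⟨q - 2, by omega⟩
  have e1 : k + 2 - 2 = k := by omega
  have e2 : k + 2 - 1 = k + 1 := by omega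
  rw [e1, e2]
  ring

theorem kg_w {q j' : ℕ} (hq : 2 ≤ q) (hj : j' < q) (j i : ℕ) :
    kg q j j' (i * q + j' + 1) = kp q (j + j') (2 * i + 1) := by
  unfold kg kf kp
  have h1 : (i * q + j' + 1 + (q - 1 - j')) / q = i + 1 := by
    have : i * q + j' + 1 + (q - 1 - j') = (i + 1) * q := by
      rw [Nat.add_mul]; omega
    rw [this, Nat.mul_div_cancel _ (by omega)]
  rw [h1]
  obtain ⟨k, rfl⟩ : ∃ k, q = k + 2 := ⟨q - 2, by omega⟩
  have e1 : k + 2 - 2 = k := by omega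
  have e2 : k + 2 - 1 = k + 1 := by omega
  rw [e1, e2]
  ring

theorem kf_lt {q j j' r n : ℕ} (hq : 2 ≤ q) (hj' : j' < q) (hn : n < (r + 1) * q) :
    kf q j j' n + (q - 1) < 2 * q * (r + 2) := by
  unfold kf
  have h1 : (n + (q - 1 - j)) / q ≤ r + 1 := by
    rw [← Nat.lt_succ_iff, Nat.div_lt_iff_lt_mul (by omega)]
    have : (r + 1).succ * q = (r + 1) * q + q := by rw [Nat.succ_mul]
    rw [this]
    omega
  have h2 := Nat.mul_le_mul_left (q - 2) h1
  obtain ⟨k, rfl⟩ : ∃ k, q = k + 2 := ⟨q - 2, by omega⟩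
  have e1 : k + 2 - 2 = k := by omega
  rw [e1] at h2
  rw [e1]
  have e2 : k + 2 - 1 = k + 1 := by omega
  rw [e2] at h2
  rw [e2]
  nlinarith

/-- the sequence read off by a label -/
def kk (q : ℕ) (i : Bool × Fin q × Fin q) : ℕ → ℕ :=
  if i.1 then kg q i.2.1 i.2.2 else kf q i.2.1 i.2.2

def flipI {q : ℕ} (i : Bool × Fin q × Fin q) : Bool × Fin q × Fin q := (!i.1, i.2)

def clI {q : ℕ} (i : Bool × Fin q × Fin q) : Fin q := if i.1 then i.2.2 else i.2.1

theorem flip_flip {q : ℕ} (i : Bool × Fin q × Fin q) : flipI (flipI i) = i := by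
  unfold flipI
  simp

theorem kk_strictMono (q : ℕ) (i : Bool × Fin q × Fin q) : StrictMono (kk q i) := by
  unfold kk
  split_ifs
  · exact kg_strictMono _ _ _
  · exact kf_strictMono _ _ _

theorem kk_lt {q r n : ℕ} (hq : 2 ≤ q) (i : Bool × Fin q × Fin q) (hn : n < (r + 1) * q) :
    kk q i n < 2 * q * (r + 2) := by
  unfold kk
  split_ifs
  · exact kf_lt hq i.2.1.2 hn
  · exact lt_of_le_of_lt (Nat.le_add_right _ _) (kf_lt hq i.2.2.2 hn)

end Vale.Agent.P125
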