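import Mathlib

open scoped BigOperators

namespace Vale.Agent.P125

def pat (D : ℕ → ℤ) (A B : ℕ) : List ℤ := ((List.range' A (B - A)).map D).filter (fun z => z ≠ 0)

theorem pat_append (D : ℕ → ℤ) {A B C : ℕ} (h1 : A ≤ B) (h2 : B ≤ C) :
    pat D A C = pat D A B ++ pat D B C := by
  unfold pat
  rw [← List.filter_append, ← List.map_append]
  congr 2
  have := List.range'_append (s := A) (m := B - A) (n := C - B) (step := 1)
  rw [one_mul] at this
  have e1 : A + (B - A) = B := by omega
  have e2 : B - A + (C - B) = C - A := by omega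
  rw [e1, e2] at this
  exact this.symm

theorem pat_congr {D D' : ℕ → ℤ} {A B : ℕ} (h : ∀ x, A ≤ x → x < B → D x = D' x) :
    pat D A B = pat D' A B := by
  unfold pat
  congr 1
  refine List.map_congr_left fun x hx => ?_
  rw [List.mem_range'_1] at hx
  exact h x hx.1 (by omega)

theorem pat_zero {D : ℕ → ℤ} {A B : ℕ} (h : ∀ x, A ≤ x → x < B → D x = 0) :
    pat D A B = [] := by
  unfold pat
  rw [List.filter_eq_nil_iff]
  intro z hz
  rw [List.mem_map] at hz
  obtain ⟨x, hx, rfl⟩ := hz
  rw [List.mem_range'_1] at hx
  simp [h x hx.1 (by omega)]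

theorem pat_single {D : ℕ → ℤ} {A : ℕ} (h : D A ≠ 0) : pat D A (A + 1) = [D A] := by
  unfold pat
  rw [Nat.add_sub_cancel_left]
  simp [h]

theorem pat_sum_abs (D : ℕ → ℤ) (A B : ℕ) :
    ((pat D A B).map (fun z => |z|)).sum = ∑ x ∈ Finset.Ico A B, |D x| := by
  rcases Nat.lt_or_ge B A with h | h
  · unfold pat
    have : B - A = 0 := by omega
    rw [this, Finset.Ico_eq_empty (by omega)]
    simp
  · induction B, h using Nat.le_induction with
    | base => simp [pat]
    | succ B hAB ih =>
      rw [pat_append D hAB (Nat.le_succ B), List.map_append, List.sum_append, ih,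
        Finset.sum_Ico_succ_top hAB]
      congr 1
      by_cases h0 : D B = 0
      · rw [pat_zero (by
          intro x h1 h2
          have : x = B := by omega
          rw [this, h0])]
        simp [h0]
      · rw [pat_single h0]
        simp

theorem pat_emb.{v} (D : ℕ → ℤ) {A B : ℕ} (hAB : A ≤ B) :
    ∃ κ : ℕ → ℕ, (∀ i j, i < j → j < (pat D A B).length → κ i < κ j) ∧
      (∀ i, i < (pat D A B).length → A ≤ κ i ∧ κ i < B) ∧
      ∀ {Y : Type v} [AddCommGroup Y] [Module ℝ Y] (u : ℕ → Y),
        ∑ x ∈ Finset.Ico A B, (D x : ℝ) • u x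
          = ∑ i ∈ Finset.range (pat D A B).length, (((pat D A B).getD i 0 : ℤ) : ℝ) • u (κ i) := by
  induction B, hAB using Nat.le_induction with
  | base =>
    refine ⟨id, ?_, ?_, ?_⟩
    · intro i j _ h
      simp [pat] at h
    · intro i h
      simp [pat] at h
    · intro Y _ _ u
      simp [pat]
  | succ B hAB ih =>
    obtain ⟨κ, k1, k2, k3⟩ := ih
    by_cases h0 : D B = 0
    · have e : pat D A (B + 1) = pat D A B := by
        rw [pat_append D hAB (Nat.le_succ B), pat_zero (A := B) (by
          intro x h1 h2
          have : x = B := by omega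
          rw [this, h0]), List.append_nil]
      rw [e]
      refine ⟨κ, k1, fun i hi => ⟨(k2 i hi).1, (k2 i hi).2.trans (Nat.lt_succ_self B)⟩, ?_⟩
      intro Y _ _ u
      rw [Finset.sum_Ico_succ_top hAB, h0, k3 u]
      simp
    · have e : pat D A (B + 1) = pat D A B ++ [D B] := by
        rw [pat_append D hAB (Nat.le_succ B), pat_single h0]
      set n := (pat D A B).length with hn
      have hlen : (pat D A (B + 1)).length = n + 1 := by
        rw [e, List.length_append]; simp [hn]
      rw [hlen]
      refine ⟨fun i => if i < n then κ i else B, ?_, ?_, ?_⟩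
      · intro i j hij hj
        have hi : i < n := by omega
        simp only [hi, if_true]
        split_ifs with hjn
        · exact k1 i j hij hjn
        · exact (k2 i hi).2
      · intro i hi
        simp only
        split_ifs with hin
        · exact ⟨(k2 i hin).1, (k2 i hin).2.trans (Nat.lt_succ_self B)⟩
        · exact ⟨hAB, Nat.lt_succ_self B⟩
      · intro Y _ _ u
        rw [Finset.sum_Ico_succ_top hAB, k3 u, Finset.sum_range_succ]
        congr 1
        · refine Finset.sum_congr rfl fun i hi => ?_
          rw [Finset.mem_range] at hi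
          simp only [if_pos hi]
          rw [e, List.getD_append _ _ _ _ hi]
        · simp only [if_neg (lt_irrefl n)]
          rw [e, List.getD_append_right _ _ _ _ (le_of_eq hn.symm)]
          simp [hn]

end Vale.Agent.P125
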