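import Vale.Agent.P125.Defs

open scoped BigOperators Topology

namespace Vale.Agent.P125

theorem mid_aux {X : Type*} [AddCommGroup X] [Module ℝ X] {a b : ℝ} (ha : 0 < a) {u w q : X}
    (h : (a + b) • q = a • u + b • w) :
    (1 / 2 : ℝ) • (u + w) = ((a + b) / (2 * a)) • q + (1 - (a + b) / (2 * a)) • w := by
  have h1 : ((a + b) / (2 * a)) • q = (1 / (2 * a)) • ((a + b) • q) := by
    rw [smul_smul]; congr 1; ring
  rw [h1, h]
  match_scalars <;> field_simp <;> ring

theorem smooth_key {X : Type*} [NormedAddCommGroup X] [NormedSpace ℝ X] (Ψ : X → ℝ)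
    (N : Seminorm ℝ X) {R : ℝ} (hR0 : 0 < R) (hconv : ConvexOn ℝ Set.univ Ψ) (h0 : Ψ 0 = R - 1)
    (hlow : ∀ x, ‖x‖ ≤ R * N x) (hlevel : ∀ x, N x = 1 → Ψ x = R)
    (hsm : ∀ ε : ℝ, 0 < ε → ∃ δ : ℝ, 0 < δ ∧ ∀ v : X, ‖v‖ ≤ δ → ∀ x : X,
      (Ψ (x + v) + Ψ (x - v)) / 2 - Ψ x ≤ ε * ‖v‖) :
    ∀ ε : ℝ, 0 < ε → ∃ δ : ℝ, 0 < δ ∧ ∀ τ : ℝ, 0 < τ → τ < δ → ∀ x y : X, N x = 1 →
      N y = 1 → (N (x + τ • y) + N (x - τ • y)) / 2 - 1 ≤ ε * τ := by
  intro ε hε
  obtain ⟨δ, hδ, hD⟩ := hsm (ε / (24 * R)) (by positivity)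
  refine ⟨min (1 / 2) (δ / (6 * R)), by positivity, ?_⟩
  intro τ hτ hτδ x y hx hy
  have hτ1 : τ < 1 / 2 := hτδ.trans_le (min_le_left _ _)
  have hτ2 : τ < δ / (6 * R) := hτδ.trans_le (min_le_right _ _)
  rw [lt_div_iff₀ (by positivity)] at hτ2
  set a := N (x + τ • y) with ha
  set b := N (x - τ • y) with hb
  have hτy : N (τ • y) = τ := by
    rw [map_smul_eq_mul, Real.norm_of_nonneg hτ.le, hy, mul_one]
  have ha1 : a ≤ 1 + τ := by
    have := map_add_le_add N x (τ • y)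
    rw [hx, hτy] at this
    exact this
  have hb1 : b ≤ 1 + τ := by
    have := map_sub_le_add N x (τ • y)
    rw [hx, hτy] at this
    exact this
  have hab : 2 ≤ a + b := by
    have h1 := map_add_le_add N (x + τ • y) (x - τ • y)
    have h2 : x + τ • y + (x - τ • y) = (2 : ℝ) • x := by
      rw [two_smul]; abel
    rw [h2, map_smul_eq_mul, hx] at h1
    simpa using h1
  have ha0 : 1 / 2 < a := by linarith
  have hb0 : 1 / 2 < b := by linarith
  have ha0' : 0 < a := by linarith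
  have hb0' : 0 < b := by linarith
  set u := a⁻¹ • (x + τ • y) with hu
  set w := b⁻¹ • (x - τ • y) with hw
  have hNu : N u = 1 := by
    rw [hu, map_smul_eq_mul, norm_inv, Real.norm_of_nonneg ha0'.le, ← ha,
      inv_mul_cancel₀ ha0'.ne']
  have hNw : N w = 1 := by
    rw [hw, map_smul_eq_mul, norm_inv, Real.norm_of_nonneg hb0'.le, ← hb,
      inv_mul_cancel₀ hb0'.ne']
  have hau : a • u = x + τ • y := by rw [hu, smul_smul, mul_inv_cancel₀ ha0'.ne', one_smul]
  have hbw : b • w = x - τ • y := by rw [hw, smul_smul, mul_inv_cancel₀ hb0'.ne', one_smul]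
  have hΨu := hlevel u hNu
  have hΨw := hlevel w hNw
  have hΨx := hlevel x hx
  set v : X := (1 / 2 : ℝ) • (u - w) with hv
  set z : X := (1 / 2 : ℝ) • (u + w) with hz
  have hzv : z + v = u := by
    rw [hz, hv, ← smul_add]
    have : u + w + (u - w) = (2 : ℝ) • u := by rw [two_smul]; abel
    rw [this, smul_smul]; norm_num
  have hzv' : z - v = w := by
    rw [hz, hv, ← smul_sub]
    have : u + w - (u - w) = (2 : ℝ) • w := by rw [two_smul]; abel
    rw [this, smul_smul]; norm_num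
  -- size of v
  have hvn : ‖v‖ ≤ 6 * R * τ := by
    have h1 : u - w = (a⁻¹ - b⁻¹) • x + (τ * (a⁻¹ + b⁻¹)) • y := by
      rw [hu, hw]
      module
    have hia : a⁻¹ ≤ 2 := by
      rw [inv_le_comm₀ ha0' (by norm_num)]; linarith
    have hib : b⁻¹ ≤ 2 := by
      rw [inv_le_comm₀ hb0' (by norm_num)]; linarith
    have hia0 : 0 < a⁻¹ := inv_pos.2 ha0'
    have hib0 : 0 < b⁻¹ := inv_pos.2 hb0'
    have h2 : |a⁻¹ - b⁻¹| ≤ 8 * τ := by
      have h3 : a⁻¹ - b⁻¹ = (b - a) * (a⁻¹ * b⁻¹) := by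
        field_simp
      rw [h3, abs_mul, abs_of_pos (mul_pos hia0 hib0)]
      have h4 : |b - a| ≤ 2 * τ := by
        rw [abs_le]; constructor <;> linarith
      have h5 : a⁻¹ * b⁻¹ ≤ 2 * 2 := mul_le_mul hia hib hib0.le (by norm_num)
      calc |b - a| * (a⁻¹ * b⁻¹) ≤ (2 * τ) * (2 * 2) :=
            mul_le_mul h4 h5 (by positivity) (by positivity)
        _ = 8 * τ := by ring
    have h6 : N (u - w) ≤ 12 * τ := by
      rw [h1]
      refine (map_add_le_add N _ _).trans ?_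
      rw [map_smul_eq_mul, map_smul_eq_mul, hx, hy, mul_one, mul_one, Real.norm_eq_abs,
        Real.norm_of_nonneg (by positivity)]
      have h7 : τ * (a⁻¹ + b⁻¹) ≤ τ * (2 + 2) := mul_le_mul_of_nonneg_left (by linarith) hτ.le
      linarith
    have h8 : N v = 1 / 2 * N (u - w) := by
      rw [hv, map_smul_eq_mul, Real.norm_of_nonneg (by norm_num)]
    have h9 := hlow v
    rw [h8] at h9
    have h10 : R * (1 / 2 * N (u - w)) ≤ R * (1 / 2 * (12 * τ)) :=
      mul_le_mul_of_nonneg_left (by linarith) hR0.le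
    linarith
  have hgap := hD v (hvn.trans (by linarith)) z
  rw [hzv, hzv', hΨu, hΨw] at hgap
  have hgap' : R - Ψ z ≤ ε / 4 * τ := by
    have h1 : ε / (24 * R) * ‖v‖ ≤ ε / (24 * R) * (6 * R * τ) :=
      mul_le_mul_of_nonneg_left hvn (by positivity)
    have h2 : ε / (24 * R) * (6 * R * τ) = ε / 4 * τ := by
      field_simp; norm_num
    linarith
  set s : ℝ := (a + b) / 2 with hs
  have hs1 : 1 ≤ s := by linarith
  have hs0 : 0 < s := by linarith
  have hs2 : s ≤ 2 := by linarith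
  -- upper bound at x / s
  have hup1 : Ψ (s⁻¹ • x) ≤ R - (1 - s⁻¹) := by
    have hi0 : 0 < s⁻¹ := inv_pos.2 hs0
    have hi1 : s⁻¹ ≤ 1 := inv_le_one_of_one_le₀ hs1
    have h1 := hconv.2 (Set.mem_univ x) (Set.mem_univ (0 : X)) hi0.le
      (by linarith : 0 ≤ 1 - s⁻¹) (by ring)
    rw [smul_zero, add_zero, hΨx] at h1
    simp only [smul_eq_mul] at h1
    rw [h0] at h1
    linarith
  -- lower bound
  have hxs : (2 * s) • (s⁻¹ • x) = a • u + b • w := by
    rw [hau, hbw, smul_smul, mul_assoc, mul_inv_cancel₀ hs0.ne', mul_one, two_smul]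
    abel
  have hzR : Ψ z ≤ R := by
    have h1 := hconv.2 (Set.mem_univ u) (Set.mem_univ w) (by norm_num : (0 : ℝ) ≤ 1 / 2)
      (by norm_num : (0 : ℝ) ≤ 1 / 2) (by norm_num)
    rw [← smul_add, hΨu, hΨw] at h1
    simp only [smul_eq_mul] at h1
    linarith
  have hRP : 0 ≤ R - Ψ (s⁻¹ • x) := by
    have := inv_le_one_of_one_le₀ hs1
    linarith
  have hlow1 : R - 2 * (R - Ψ z) ≤ Ψ (s⁻¹ • x) := by
    rcases le_total b a with hba | hba
    · -- λ = a/(a+b) ≥ 1/2
      have e1 : z = ((a + b) / (2 * a)) • (s⁻¹ • x) + (1 - (a + b) / (2 * a)) • w :=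
        mid_aux ha0' (by rw [← hxs, hs]; ring_nf)
      have c0 : 0 ≤ (a + b) / (2 * a) := by positivity
      have c1 : (a + b) / (2 * a) ≤ 1 := by rw [div_le_one (by positivity)]; linarith
      have h1 := hconv.2 (Set.mem_univ (s⁻¹ • x)) (Set.mem_univ w) c0
        (by linarith : 0 ≤ 1 - (a + b) / (2 * a)) (by ring)
      rw [← e1, hΨw] at h1
      simp only [smul_eq_mul] at h1
      have c2 : 1 / 2 ≤ (a + b) / (2 * a) := by
        rw [le_div_iff₀ (by positivity)]; linarith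
      have h2 := mul_le_mul_of_nonneg_right c2 hRP
      linarith
    · have e1 : z = ((a + b) / (2 * b)) • (s⁻¹ • x) + (1 - (a + b) / (2 * b)) • u := by
        rw [hz, add_comm u w, add_comm a b]
        exact mid_aux hb0' (by rw [add_comm (b • w), ← hxs, hs]; ring_nf)
      have c0 : 0 ≤ (a + b) / (2 * b) := by positivity
      have c1 : (a + b) / (2 * b) ≤ 1 := by rw [div_le_one (by positivity)]; linarith
      have h1 := hconv.2 (Set.mem_univ (s⁻¹ • x)) (Set.mem_univ u) c0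
        (by linarith : 0 ≤ 1 - (a + b) / (2 * b)) (by ring)
      rw [← e1, hΨu] at h1
      simp only [smul_eq_mul] at h1
      have c2 : 1 / 2 ≤ (a + b) / (2 * b) := by
        rw [le_div_iff₀ (by positivity)]; linarith
      have h2 := mul_le_mul_of_nonneg_right c2 hRP
      linarith
  have hfin : 1 - s⁻¹ ≤ ε / 2 * τ := by linarith
  have hfin2 : s - 1 = s * (1 - s⁻¹) := by field_simp
  show s - 1 ≤ ε * τ
  rw [hfin2]
  have h20 : s * (1 - s⁻¹) ≤ s * (ε / 2 * τ) := mul_le_mul_of_nonneg_left hfin hs0.le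
  have h21 : s * (ε / 2 * τ) ≤ 2 * (ε / 2 * τ) := mul_le_mul_of_nonneg_right hs2 (by positivity)
  linarith

theorem norm_of_function {X : Type*} [NormedAddCommGroup X] [NormedSpace ℝ X] (Ψ : X → ℝ) (C : ℝ)
    (hconv : ConvexOn ℝ Set.univ Ψ) (heven : ∀ x, Ψ (-x) = Ψ x)
    (hlip : ∀ x y, |Ψ x - Ψ y| ≤ ‖x - y‖) (hlo : ∀ x, ‖x‖ ≤ Ψ x) (hhi : ∀ x, Ψ x ≤ ‖x‖ + C)
    (hsm : ∀ ε : ℝ, 0 < ε → ∃ δ : ℝ, 0 < δ ∧ ∀ v : X, ‖v‖ ≤ δ → ∀ x : X,
      (Ψ (x + v) + Ψ (x - v)) / 2 - Ψ x ≤ ε * ‖v‖) :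
    ∃ N : Seminorm ℝ X, EquivNorm N ∧ UniformlySmooth N := by
  set R : ℝ := Ψ 0 + 1 with hR
  have hR1 : 1 ≤ R := by
    have := hlo 0
    rw [norm_zero] at this
    linarith
  set S : Set X := {x | Ψ x ≤ R} with hS
  have hcont : Continuous Ψ := by
    refine Metric.continuous_iff.2 fun b ε hε => ⟨ε, hε, fun a ha => ?_⟩
    rw [Real.dist_eq]
    rw [dist_eq_norm] at ha
    exact (hlip a b).trans_lt ha
  have hSconv : Convex ℝ S := by
    have := hconv.convex_le R
    simpa using this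
  have hSclosed : IsClosed S := isClosed_le hcont continuous_const
  have hball : Metric.ball (0 : X) 1 ⊆ S := by
    intro x hx
    rw [mem_ball_zero_iff] at hx
    have := (abs_le.1 (hlip x 0)).2
    rw [sub_zero] at this
    show Ψ x ≤ R
    linarith
  have hnhds : S ∈ 𝓝 (0 : X) := Filter.mem_of_superset (Metric.ball_mem_nhds 0 one_pos) hball
  have habs : Absorbent ℝ S := absorbent_nhds_zero hnhds
  have hbal : Balanced ℝ S := (balanced_iff_neg_mem hSconv).2 fun x hx => by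
    show Ψ (-x) ≤ R
    rw [heven]; exact hx
  let N : Seminorm ℝ X := gaugeSeminorm hbal hSconv habs
  have hN : ∀ x, N x = gauge S x := fun x => rfl
  have hup : ∀ x, N x ≤ ‖x‖ := by
    intro x
    have h1 := gauge_mono (absorbent_ball_zero (𝕜 := ℝ) one_pos) hball x
    rw [gauge_ball zero_le_one, div_one] at h1
    exact h1
  have hlow : ∀ x, ‖x‖ ≤ R * N x := by
    intro x
    have hsub : S ⊆ Metric.closedBall (0 : X) R := by
      intro y hy
      rw [mem_closedBall_zero_iff]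
      exact (hlo y).trans hy
    have h1 := gauge_mono habs hsub x
    rw [gauge_closedBall (by linarith), div_le_iff₀ (by linarith)] at h1
    rw [hN]
    linarith
  have hlevel : ∀ x, N x = 1 → Ψ x = R := by
    intro x hx
    rw [hN] at hx
    have h1 : x ∈ S := by
      have := (gauge_le_one_iff_mem_closure hSconv hnhds (x := x)).1 hx.le
      rwa [hSclosed.closure_eq] at this
    refine le_antisymm h1 ?_
    by_contra hlt
    push Not at hlt
    have h2 : x ∈ interior S := by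
      rw [mem_interior]
      refine ⟨{y | Ψ y < R}, fun y (hy : Ψ y < R) => show Ψ y ≤ R from le_of_lt hy,
        isOpen_lt hcont continuous_const, hlt⟩
    have h3 := (gauge_lt_one_iff_mem_interior hSconv hnhds).2 h2
    linarith
  refine ⟨N, ⟨1 / R, 1, by positivity, one_pos, fun x => ⟨?_, ?_⟩⟩, ?_⟩
  · rw [div_mul_eq_mul_div, one_mul, div_le_iff₀ (by linarith), mul_comm]
    exact hlow x
  · rw [one_mul]; exact hup x
  -- smoothness
  have key := smooth_key Ψ N (by linarith : 0 < R) hconv (by rw [hR]; ring) hlow hlevel hsm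
  -- conclusion
  unfold UniformlySmooth
  rw [Metric.tendsto_nhdsWithin_nhds]
  intro ε hε
  obtain ⟨δ, hδ, hk⟩ := key (ε / 2) (by positivity)
  refine ⟨δ, hδ, fun {τ} hτ hτδ => ?_⟩
  have hτ0 : 0 < τ := hτ
  rw [Real.dist_eq, sub_zero, abs_of_pos hτ0] at hτδ
  have h1 : smoothModulus N τ ≤ ε / 2 * τ := by
    unfold smoothModulus
    refine Real.sSup_le ?_ (by positivity)
    rintro _ ⟨x, y, hx, hy, rfl⟩
    exact hk τ hτ0 hτδ x y hx hy
  have h2 : 0 ≤ smoothModulus N τ := by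
    unfold smoothModulus
    refine Real.sSup_nonneg ?_
    rintro _ ⟨x, y, hx, hy, rfl⟩
    have h3 := map_add_le_add N (x + τ • y) (x - τ • y)
    have h4 : x + τ • y + (x - τ • y) = (2 : ℝ) • x := by
      rw [two_smul]; abel
    rw [h4, map_smul_eq_mul, hx] at h3
    have : (2 : ℝ) ≤ N (x + τ • y) + N (x - τ • y) := by simpa using h3
    linarith
  rw [Real.dist_eq, sub_zero, abs_of_nonneg (div_nonneg h2 hτ0.le), div_lt_iff₀ hτ0]
  have : ε / 2 * τ < ε * τ := by
    have := mul_pos hε hτ0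
    linarith
  linarith

end Vale.Agent.P125
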