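import Vale.Agent.P125.SmoothIter
import Vale.Agent.P125.SmoothNorm

open scoped BigOperators

namespace Vale.Agent.P125

theorem smooth_of_growth {X : Type*} [NormedAddCommGroup X] [NormedSpace ℝ X]
    (h : ∀ c : ℝ, 0 < c → ∃ n : ℕ, 1 ≤ n ∧ growth X n ≤ c * n) :
    ∃ N : Seminorm ℝ X, EquivNorm N ∧ UniformlySmooth N := by
  obtain ⟨Ψ, C, hg, h1, h2, h3⟩ := function_of_growth h
  exact norm_of_function Ψ C hg.conv hg.even hg.lip h1 h2 h3

end Vale.Agent.P125
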