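import Vale.Agent.P125.Defs

open scoped BigOperators Topology

namespace Vale.Agent.P125

section Iter

variable {X : Type*} [NormedAddCommGroup X] [NormedSpace ℝ X]

structure Good (Ψ : X → ℝ) : Prop where
  conv : ConvexOn ℝ Set.univ Ψ
  even : ∀ x, Ψ (-x) = Ψ x
  lip : ∀ x y, |Ψ x - Ψ y| ≤ ‖x - y‖

theorem Good.le {Ψ : X → ℝ} (h : Good Ψ) (x y : X) : Ψ (x + y) ≤ Ψ x + ‖y‖ := by
  have := (abs_le.1 (h.lip (x + y) x)).2
  rw [add_sub_cancel_left] at this
  linarith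

theorem stepOp_bdd {Ψ : X → ℝ} (h : Good Ψ) (τ : ℝ) (x : X) :
    BddAbove (Set.range fun v : {v : X // ‖v‖ ≤ τ} => (Ψ (x + v) + Ψ (x - v)) / 2) := by
  refine ⟨Ψ x + τ, ?_⟩
  rintro _ ⟨v, rfl⟩
  have h1 := h.le x v
  have h2 := h.le x (-v)
  rw [norm_neg, ← sub_eq_add_neg] at h2
  have h3 := v.2
  simp only
  linarith

theorem le_stepOp' {Ψ : X → ℝ} (h : Good Ψ) {τ : ℝ} (x : X) {v : X} (hv : ‖v‖ ≤ τ) :
    (Ψ (x + v) + Ψ (x - v)) / 2 ≤ stepOp τ Ψ x :=
  le_ciSup (stepOp_bdd h τ x) ⟨v, hv⟩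

theorem self_le_stepOp {Ψ : X → ℝ} (h : Good Ψ) {τ : ℝ} (hτ : 0 ≤ τ) (x : X) :
    Ψ x ≤ stepOp τ Ψ x := by
  have := le_stepOp' h (τ := τ) x (v := 0) (by simpa using hτ)
  simpa using this

theorem stepOp_le' {Ψ : X → ℝ} {τ : ℝ} (hτ : 0 ≤ τ) {x : X} {c : ℝ}
    (h : ∀ v : X, ‖v‖ ≤ τ → (Ψ (x + v) + Ψ (x - v)) / 2 ≤ c) : stepOp τ Ψ x ≤ c := by
  have : Nonempty {v : X // ‖v‖ ≤ τ} := ⟨⟨0, by simpa using hτ⟩⟩
  exact ciSup_le fun v => h v v.2

theorem good_stepOp {Ψ : X → ℝ} (h : Good Ψ) {τ : ℝ} (hτ : 0 ≤ τ) : Good (stepOp τ Ψ) := by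
  have hle : ∀ x y : X, stepOp τ Ψ x ≤ stepOp τ Ψ y + ‖x - y‖ := by
    intro x y
    refine stepOp_le' hτ fun v hv => ?_
    have h1 := h.le (y + v) (x - y)
    have h2 := h.le (y - v) (x - y)
    have e1 : y + v + (x - y) = x + v := by abel
    have e2 : y - v + (x - y) = x - v := by abel
    rw [e1] at h1
    rw [e2] at h2
    have h3 := le_stepOp' h y hv
    linarith
  refine ⟨⟨convex_univ, ?_⟩, ?_, ?_⟩
  · intro x _ y _ a b ha hb hab
    refine stepOp_le' hτ fun v hv => ?_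
    have e1 : a • x + b • y + v = a • (x + v) + b • (y + v) := by
      rw [smul_add, smul_add]
      have : v = a • v + b • v := by rw [← add_smul, hab, one_smul]
      nth_rewrite 1 [this]
      abel
    have e2 : a • x + b • y - v = a • (x - v) + b • (y - v) := by
      rw [smul_sub, smul_sub]
      have : v = a • v + b • v := by rw [← add_smul, hab, one_smul]
      nth_rewrite 1 [this]
      abel
    have h1 := h.conv.2 (Set.mem_univ (x + v)) (Set.mem_univ (y + v)) ha hb hab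
    have h2 := h.conv.2 (Set.mem_univ (x - v)) (Set.mem_univ (y - v)) ha hb hab
    rw [e1, e2]
    have h3 := mul_le_mul_of_nonneg_left (le_stepOp' h x hv) ha
    have h4 := mul_le_mul_of_nonneg_left (le_stepOp' h y hv) hb
    simp only [smul_eq_mul] at h1 h2 ⊢
    linarith
  · intro x
    unfold stepOp
    congr 1
    funext v
    have e1 : -x + (v : X) = -(x - v) := by abel
    have e2 : -x - (v : X) = -(x + v) := by abel
    rw [e1, e2, h.even, h.even]
    ring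
  · intro x y
    rw [abs_le]
    have h1 := hle x y
    have h2 := hle y x
    rw [norm_sub_rev] at h2
    constructor <;> linarith

theorem good_norm : Good (fun x : X => ‖x‖) :=
  ⟨convexOn_univ_norm, fun x => norm_neg x, fun x y => abs_norm_sub_norm_le x y⟩

theorem good_iter {Ψ : X → ℝ} (h : Good Ψ) {τ : ℝ} (hτ : 0 ≤ τ) (k : ℕ) :
    Good ((stepOp τ)^[k] Ψ) := by
  induction k with
  | zero => exact h
  | succ k ih =>
    rw [Function.iterate_succ', Function.comp_apply]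
    exact good_stepOp ih hτ

theorem iter_add_le {Ψ : X → ℝ} (h : Good Ψ) {τ : ℝ} (hτ : 0 ≤ τ) (k : ℕ) (x y : X) :
    ((stepOp τ)^[k] Ψ) (x + y) ≤ Ψ x + ((stepOp τ)^[k] (fun z : X => ‖z‖)) y := by
  induction k generalizing y with
  | zero => exact h.le x y
  | succ k ih =>
    rw [Function.iterate_succ', Function.comp_apply, Function.comp_apply]
    refine stepOp_le' hτ fun v hv => ?_
    have h1 := ih (y + v)
    have h2 := ih (y - v)
    have h3 := le_stepOp' (good_iter good_norm hτ k) y hv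
    have e1 : x + y + v = x + (y + v) := by abel
    have e2 : x + y - v = x + (y - v) := by abel
    rw [e1, e2]
    linarith

theorem iter_scale {τ : ℝ} (hτ : 0 < τ) (k : ℕ) (y : X) :
    ((stepOp τ)^[k] (fun z : X => ‖z‖)) (τ • y) ≤ τ * ((stepOp 1)^[k] (fun z : X => ‖z‖)) y := by
  induction k generalizing y with
  | zero =>
    simp only [Function.iterate_zero, id]
    rw [norm_smul, Real.norm_of_nonneg hτ.le]
  | succ k ih =>
    rw [Function.iterate_succ', Function.comp_apply, Function.iterate_succ', Function.comp_apply]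
    refine stepOp_le' hτ.le fun v hv => ?_
    have hw : ‖τ⁻¹ • v‖ ≤ 1 := by
      rw [norm_smul, norm_inv, Real.norm_of_nonneg hτ.le, inv_mul_le_iff₀ hτ, mul_one]
      exact hv
    have e0 : v = τ • (τ⁻¹ • v) := by rw [smul_smul, mul_inv_cancel₀ hτ.ne', one_smul]
    have h1 := ih (y + τ⁻¹ • v)
    have h2 := ih (y - τ⁻¹ • v)
    rw [smul_add, ← e0] at h1
    rw [smul_sub, ← e0] at h2
    have h3 := mul_le_mul_of_nonneg_left
      (le_stepOp' (good_iter good_norm zero_le_one k) y hw) hτ.le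
    linarith

theorem iter_le {Ψ : X → ℝ} (h : Good Ψ) {τ : ℝ} (hτ : 0 < τ) (k : ℕ) (x : X) :
    ((stepOp τ)^[k] Ψ) x ≤ Ψ x + τ * growth X k := by
  have h1 := iter_add_le h hτ.le k x 0
  have h2 := iter_scale hτ k (0 : X)
  rw [smul_zero] at h2
  rw [add_zero] at h1
  unfold growth
  linarith

theorem iter_mono {Ψ : X → ℝ} (h : Good Ψ) {τ : ℝ} (hτ : 0 ≤ τ) {k l : ℕ} (hkl : k ≤ l) (x : X) :
    ((stepOp τ)^[k] Ψ) x ≤ ((stepOp τ)^[l] Ψ) x := by
  induction l, hkl using Nat.le_induction with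
  | base => exact le_rfl
  | succ l _ ih =>
    refine ih.trans ?_
    rw [Function.iterate_succ', Function.comp_apply]
    exact self_le_stepOp (good_iter h hτ l) hτ x

theorem single_scale {Ψ : X → ℝ} (h : Good Ψ) {τ : ℝ} (hτ : 0 < τ) {n : ℕ} (hn : 1 ≤ n) :
    ∃ Ψ' : X → ℝ, Good Ψ' ∧ (∀ x, Ψ x ≤ Ψ' x) ∧ (∀ x, Ψ' x ≤ Ψ x + τ * growth X n) ∧
      ∀ x v, ‖v‖ ≤ τ → (Ψ' (x + v) + Ψ' (x - v)) / 2 - Ψ' x ≤ τ * growth X n / n := by
  have hn0 : (0 : ℝ) < n := by exact_mod_cast hn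
  set H : ℕ → X → ℝ := fun k => (stepOp τ)^[k] Ψ with hH
  have hg : ∀ k, Good (H k) := fun k => good_iter h hτ.le k
  set Ψ' : X → ℝ := fun x => (∑ k ∈ Finset.range n, H k x) / n with hΨ'
  have h0 : ∀ x, H 0 x = Ψ x := fun x => rfl
  have hlast : ∀ x, H n x ≤ Ψ x + τ * growth X n := fun x => iter_le h hτ n x
  refine ⟨Ψ', ⟨⟨convex_univ, ?_⟩, ?_, ?_⟩, ?_, ?_, ?_⟩
  · intro x _ y _ a b ha hb hab
    simp only [hΨ', smul_eq_mul]
    have : a * ((∑ k ∈ Finset.range n, H k x) / n) + b * ((∑ k ∈ Finset.range n, H k y) / n)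
        = (∑ k ∈ Finset.range n, (a * H k x + b * H k y)) / n := by
      rw [Finset.sum_add_distrib, ← Finset.mul_sum, ← Finset.mul_sum]
      ring
    rw [this]
    refine div_le_div_of_nonneg_right (Finset.sum_le_sum fun k _ => ?_) hn0.le
    exact (hg k).conv.2 (Set.mem_univ x) (Set.mem_univ y) ha hb hab
  · intro x
    simp only [hΨ']
    congr 1
    exact Finset.sum_congr rfl fun k _ => (hg k).even x
  · intro x y
    simp only [hΨ']
    rw [← sub_div, ← Finset.sum_sub_distrib, abs_div, abs_of_pos hn0, div_le_iff₀ hn0]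
    refine (Finset.abs_sum_le_sum_abs _ _).trans ?_
    refine (Finset.sum_le_sum fun k _ => (hg k).lip x y).trans ?_
    rw [Finset.sum_const, Finset.card_range, nsmul_eq_mul, mul_comm]
  · intro x
    simp only [hΨ']
    rw [le_div_iff₀ hn0]
    have : ∑ k ∈ Finset.range n, Ψ x ≤ ∑ k ∈ Finset.range n, H k x :=
      Finset.sum_le_sum fun k _ => by
        rw [← h0 x]
        exact iter_mono h hτ.le (Nat.zero_le k) x
    rw [Finset.sum_const, Finset.card_range, nsmul_eq_mul] at this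
    linarith
  · intro x
    simp only [hΨ']
    rw [div_le_iff₀ hn0]
    have : ∑ k ∈ Finset.range n, H k x ≤ ∑ k ∈ Finset.range n, (Ψ x + τ * growth X n) :=
      Finset.sum_le_sum fun k hk =>
        (iter_mono h hτ.le (Finset.mem_range.1 hk).le x).trans (hlast x)
    rw [Finset.sum_const, Finset.card_range, nsmul_eq_mul] at this
    linarith
  · intro x v hv
    simp only [hΨ']
    have e : ((∑ k ∈ Finset.range n, H k (x + v)) / n + (∑ k ∈ Finset.range n, H k (x - v)) / n) / 2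
        - (∑ k ∈ Finset.range n, H k x) / n
        = (∑ k ∈ Finset.range n, ((H k (x + v) + H k (x - v)) / 2 - H k x)) / n := by
      rw [Finset.sum_sub_distrib, ← Finset.sum_div, Finset.sum_add_distrib]
      ring
    rw [e]
    refine div_le_div_of_nonneg_right ?_ hn0.le
    calc ∑ k ∈ Finset.range n, ((H k (x + v) + H k (x - v)) / 2 - H k x)
        ≤ ∑ k ∈ Finset.range n, (H (k + 1) x - H k x) := by
          refine Finset.sum_le_sum fun k _ => sub_le_sub_right ?_ _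
          have e1 : H (k + 1) = stepOp τ (H k) := by
            simp only [hH]
            rw [Function.iterate_succ', Function.comp_apply]
          rw [e1]
          exact le_stepOp' (hg k) x hv
      _ = H n x - H 0 x := Finset.sum_range_sub (fun k => H k x) n
      _ ≤ τ * growth X n := by
          have := hlast x
          rw [h0]
          linarith

structure St (X : Type*) [NormedAddCommGroup X] [NormedSpace ℝ X] where
  Ψ : X → ℝ
  τ : ℝ
  m : ℝ
  good : Good Ψ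
  τpos : 0 < τ
  mpos : 0 < m

theorem st_step (h : ∀ c : ℝ, 0 < c → ∃ n : ℕ, 1 ≤ n ∧ growth X n ≤ c * n) (j : ℕ) (s : St X) :
    ∃ s' : St X, (∀ x, s.Ψ x ≤ s'.Ψ x) ∧ (∀ x, s'.Ψ x ≤ s.Ψ x + s.m / 4) ∧
      (∀ x v, ‖v‖ ≤ s'.τ → (s'.Ψ (x + v) + s'.Ψ (x - v)) / 2 - s'.Ψ x ≤ (1 / 2) ^ j * s'.τ) ∧
      s'.m ≤ s.m / 2 ∧ s'.m ≤ (1 / 2) ^ j * s'.τ := by
  have hb : (0 : ℝ) < (1 / 2) ^ j := by positivity
  have hb1 : ((1 : ℝ) / 2) ^ j ≤ 1 := pow_le_one₀ (by norm_num) (by norm_num)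
  obtain ⟨n, hn, hgr⟩ := h _ hb
  have hn0 : (0 : ℝ) < n := by exact_mod_cast hn
  have hm := s.mpos
  set τ' : ℝ := s.m / (4 * n) with hτ'
  have hτ'0 : 0 < τ' := by positivity
  obtain ⟨Ψ', g1, g2, g3, g4⟩ := single_scale s.good hτ'0 hn
  have h1 : τ' * growth X n ≤ (1 / 2) ^ j * (s.m / 4) := by
    calc τ' * growth X n ≤ τ' * ((1 / 2) ^ j * n) := mul_le_mul_of_nonneg_left hgr hτ'0.le
      _ = _ := by rw [hτ']; field_simp
  refine ⟨⟨Ψ', τ', min (s.m / 2) ((1 / 2) ^ j * τ'), g1, hτ'0, by positivity⟩, g2, ?_, ?_,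
    min_le_left _ _, min_le_right _ _⟩
  · intro x
    refine (g3 x).trans ?_
    have : (1 / 2 : ℝ) ^ j * (s.m / 4) ≤ 1 * (s.m / 4) :=
      mul_le_mul_of_nonneg_right hb1 (by positivity)
    linarith
  · intro x v hv
    refine (g4 x v hv).trans ?_
    rw [div_le_iff₀ hn0]
    calc τ' * growth X n ≤ τ' * ((1 / 2) ^ j * n) := mul_le_mul_of_nonneg_left hgr hτ'0.le
      _ = (1 / 2) ^ j * τ' * n := by ring

theorem function_of_growth (h : ∀ c : ℝ, 0 < c → ∃ n : ℕ, 1 ≤ n ∧ growth X n ≤ c * n) :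
    ∃ (Ψ : X → ℝ) (C : ℝ), Good Ψ ∧ (∀ x, ‖x‖ ≤ Ψ x) ∧ (∀ x, Ψ x ≤ ‖x‖ + C) ∧
      ∀ ε : ℝ, 0 < ε → ∃ δ : ℝ, 0 < δ ∧ ∀ v : X, ‖v‖ ≤ δ → ∀ x : X,
        (Ψ (x + v) + Ψ (x - v)) / 2 - Ψ x ≤ ε * ‖v‖ := by
  choose next hnext using st_step h
  let s0 : St X := ⟨fun x => ‖x‖, 1, 1, good_norm, one_pos, one_pos⟩
  let sq : ℕ → St X := fun n => Nat.rec s0 (fun j s => next j s) n
  have hsq0 : sq 0 = s0 := rfl
  have hsq : ∀ j, sq (j + 1) = next j (sq j) := fun j => rfl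
  have r1 : ∀ j x, (sq j).Ψ x ≤ (sq (j + 1)).Ψ x := fun j => (hnext j (sq j)).1
  have r2 : ∀ j x, (sq (j + 1)).Ψ x ≤ (sq j).Ψ x + (sq j).m / 4 := fun j => (hnext j (sq j)).2.1
  have r3 : ∀ j x v, ‖v‖ ≤ (sq (j + 1)).τ → ((sq (j + 1)).Ψ (x + v) + (sq (j + 1)).Ψ (x - v)) / 2
      - (sq (j + 1)).Ψ x ≤ (1 / 2) ^ j * (sq (j + 1)).τ := fun j => (hnext j (sq j)).2.2.1
  have r4 : ∀ j, (sq (j + 1)).m ≤ (sq j).m / 2 := fun j => (hnext j (sq j)).2.2.2.1
  have r5 : ∀ j, (sq (j + 1)).m ≤ (1 / 2) ^ j * (sq (j + 1)).τ := fun j =>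
    (hnext j (sq j)).2.2.2.2
  have hmono : ∀ i j x, i ≤ j → (sq i).Ψ x ≤ (sq j).Ψ x := by
    intro i j x hij
    induction j, hij using Nat.le_induction with
    | base => exact le_rfl
    | succ j _ ih => exact ih.trans (r1 j x)
  have hup : ∀ i j x, i ≤ j → (sq j).Ψ x ≤ (sq i).Ψ x + ((sq i).m - (sq j).m) / 2 := by
    intro i j x hij
    induction j, hij using Nat.le_induction with
    | base => simp
    | succ j _ ih =>
      have h1 := r2 j x
      have h2 := r4 j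
      linarith
  have hup' : ∀ i j x, (sq j).Ψ x ≤ (sq i).Ψ x + (sq i).m / 2 := by
    intro i j x
    have hmi := (sq i).mpos
    rcases le_total i j with hij | hij
    · have h1 := hup i j x hij
      have h2 := (sq j).mpos
      linarith
    · have h1 := hmono j i x hij
      linarith
  have hbdd : ∀ x, BddAbove (Set.range fun j => (sq j).Ψ x) := by
    intro x
    refine ⟨(sq 0).Ψ x + (sq 0).m / 2, ?_⟩
    rintro _ ⟨j, rfl⟩
    exact hup' 0 j x
  set Φ : X → ℝ := fun x => ⨆ j, (sq j).Ψ x with hΦ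
  have f1 : ∀ j x, (sq j).Ψ x ≤ Φ x := fun j x => le_ciSup (hbdd x) j
  have f2 : ∀ j x, Φ x ≤ (sq j).Ψ x + (sq j).m / 2 := fun j x => ciSup_le fun i => hup' j i x
  have hgood : Good Φ := by
    refine ⟨⟨convex_univ, ?_⟩, ?_, ?_⟩
    · intro x _ y _ a b ha hb hab
      refine ciSup_le fun j => ?_
      refine ((sq j).good.conv.2 (Set.mem_univ x) (Set.mem_univ y) ha hb hab).trans ?_
      simp only [smul_eq_mul]
      exact add_le_add (mul_le_mul_of_nonneg_left (f1 j x) ha)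
        (mul_le_mul_of_nonneg_left (f1 j y) hb)
    · intro x
      simp only [hΦ]
      congr 1
      funext j
      exact (sq j).good.even x
    · intro x y
      have key : ∀ x y, Φ x ≤ Φ y + ‖x - y‖ := by
        intro x y
        refine ciSup_le fun j => ?_
        have h1 := (abs_le.1 ((sq j).good.lip x y)).2
        have h2 := f1 j y
        linarith
      have h1 := key x y
      have h2 := key y x
      rw [norm_sub_rev] at h2
      rw [abs_le]
      constructor <;> linarith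
  refine ⟨Φ, 1 / 2, hgood, fun x => f1 0 x, fun x => f2 0 x, ?_⟩
  intro ε hε
  obtain ⟨j, hj⟩ := exists_pow_lt_of_lt_one (half_pos hε) (by norm_num : (1 / 2 : ℝ) < 1)
  have hτ := (sq (j + 1)).τpos
  refine ⟨(sq (j + 1)).τ, hτ, ?_⟩
  intro v hv x
  have hD : ∀ w : X, ‖w‖ ≤ (sq (j + 1)).τ →
      (Φ (x + w) + Φ (x - w)) / 2 - Φ x ≤ 2 * (1 / 2) ^ j * (sq (j + 1)).τ := by
    intro w hw
    have h1 := r3 j x w hw
    have h2 := r5 j
    have h3 := f2 (j + 1) (x + w)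
    have h4 := f2 (j + 1) (x - w)
    have h5 := f1 (j + 1) x
    have h6 := (sq (j + 1)).mpos
    linarith
  by_cases hv0 : v = 0
  · subst hv0
    simp
  have hvn : 0 < ‖v‖ := norm_pos_iff.2 hv0
  set s : ℝ := ‖v‖ / (sq (j + 1)).τ with hs
  have hs0 : 0 < s := by positivity
  have hs1 : s ≤ 1 := (div_le_one hτ).2 hv
  set w : X := s⁻¹ • v with hw
  have hwn : ‖w‖ = (sq (j + 1)).τ := by
    rw [hw, norm_smul, norm_inv, Real.norm_of_nonneg hs0.le, hs]
    field_simp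
  have hvw : v = s • w := by rw [hw, smul_smul, mul_inv_cancel₀ hs0.ne', one_smul]
  have c1 := hgood.conv.2 (Set.mem_univ x) (Set.mem_univ (x + w)) (by linarith : 0 ≤ 1 - s) hs0.le
    (by ring)
  have c2 := hgood.conv.2 (Set.mem_univ x) (Set.mem_univ (x - w)) (by linarith : 0 ≤ 1 - s) hs0.le
    (by ring)
  have e1 : (1 - s) • x + s • (x + w) = x + v := by
    rw [hvw, sub_smul, one_smul, smul_add]; abel
  have e2 : (1 - s) • x + s • (x - w) = x - v := by
    rw [hvw, sub_smul, one_smul, smul_sub]; abel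
  rw [e1] at c1
  rw [e2] at c2
  simp only [smul_eq_mul] at c1 c2
  have h7 := mul_le_mul_of_nonneg_left (hD w hwn.le) hs0.le
  have h8 : s * (sq (j + 1)).τ = ‖v‖ := by rw [hs]; field_simp
  have h9 : s * (2 * (1 / 2) ^ j * (sq (j + 1)).τ) = 2 * (1 / 2) ^ j * ‖v‖ := by
    rw [← h8]; ring
  rw [h9] at h7
  have h10 : 2 * (1 / 2 : ℝ) ^ j * ‖v‖ ≤ ε * ‖v‖ :=
    mul_le_mul_of_nonneg_right (by linarith) hvn.le
  linarith

end Iter

end Vale.Agent.P125
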