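import Vale.Agent.P125.Pat

open scoped BigOperators

namespace Vale.Agent.P125

def InvY (r q t : ℕ) (y : ℕ → ℕ) (b lo hi : ℕ) (D : ℕ → ℤ) : Prop :=
  1 ≤ lo ∧ hi < r ∧ hi + 1 + t = lo + r ∧
  ∀ k, lo ≤ k → k ≤ hi →
    pat D (y (k * q + b)) (y (k * q + b + 1) + 1) = List.replicate t (-1) ++ List.replicate t 1 ∧
    (∀ x, y ((k - 1) * q + b + 1) < x → x < y (k * q + b) → D x = 0) ∧
    (∀ x, y (k * q + b + 1) < x → x < y ((k + 1) * q + b) → D x = 0)

theorem invY_step {r q t s a b jb lo hi : ℕ} {y y' : ℕ → ℕ} {D g : ℕ → ℤ}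
    (hy : StrictMono y) (hs : s ≤ 1) (ha : a < q) (hjb : jb < q) (htr : t < r)
    (hn1 : a < jb → a + 1 < jb ∧ jb + 1 < q + a) (hn2 : jb < a → jb + 1 < a ∧ a + 1 < q + jb)
    (hn3 : a ≠ jb)
    (R1 : ∀ i, i < r → y' ((i + s) * q + b) = y (i * q + a + 1))
    (R2 : ∀ i, i + s < r → y' ((i + s) * q + b + 1) = y ((i + 1) * q + a))
    (g1 : ∀ i, i < r → g (y (i * q + a + 1)) = -1)
    (g2 : ∀ i, i + s < r → g (y ((i + 1) * q + a)) = 1)
    (g0 : ∀ x, g x ≠ 0 → ∃ k, x = y (k * q + a) ∨ x = y (k * q + a + 1))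
    (h : InvY r q t y jb lo hi D) :
    InvY r q (t + 1) y' b (lo + s) (hi - 1 + s) (fun x => D x + g x) := by
  obtain ⟨h1, h2, h3, h4⟩ := h
  have hlohi : lo ≤ hi := by omega
  refine ⟨by omega, by omega, by omega, ?_⟩
  intro n hn1' hn2'
  obtain ⟨i, rfl⟩ : ∃ i, n = i + s := ⟨n - s, by omega⟩
  have hi1 : lo ≤ i := by omega
  have hi2 : i + 1 ≤ hi := by omega
  have hir : i + s < r := by omega
  have hir' : i < r := by omega
  have hmono : ∀ {m n : ℕ}, m < n → y m < y n := fun h => hy h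
  have hmono' : ∀ {m n : ℕ}, m ≤ n → y m ≤ y n := fun h => hy.monotone h
  have gz1 : ∀ x, y (i * q + a + 1) < x → x < y ((i + 1) * q + a) → g x = 0 := by
    intro x hx1 hx2
    by_contra hg
    obtain ⟨k, hk | hk⟩ := g0 x hg
    · rw [hk] at hx1 hx2
      have c1 := hy.lt_iff_lt.1 hx1
      have c2 := hy.lt_iff_lt.1 hx2
      have d1 : i < k := by
        by_contra hc
        have : k * q ≤ i * q := Nat.mul_le_mul_right q (by omega)
        omega
      have d2 : (i + 1) * q ≤ k * q := Nat.mul_le_mul_right q (by omega)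
      omega
    · rw [hk] at hx1 hx2
      have c1 := hy.lt_iff_lt.1 hx1
      have c2 := hy.lt_iff_lt.1 hx2
      have d1 : i < k := by
        by_contra hc
        have : k * q ≤ i * q := Nat.mul_le_mul_right q (by omega)
        omega
      have d2 : (i + 1) * q ≤ k * q := Nat.mul_le_mul_right q (by omega)
      omega
  have gz2 : ∀ m x, y (m * q + a) < x → x < y (m * q + a + 1) → g x = 0 := by
    intro m x hx1 hx2
    by_contra hg
    obtain ⟨k, hk | hk⟩ := g0 x hg
    · rw [hk] at hx1 hx2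
      have c1 := hy.lt_iff_lt.1 hx1
      have c2 := hy.lt_iff_lt.1 hx2
      omega
    · rw [hk] at hx1 hx2
      have c1 := hy.lt_iff_lt.1 hx1
      have c2 := hy.lt_iff_lt.1 hx2
      omega
  -- the old window inside the new one
  obtain ⟨k, hk1, hk2, hA, hB, hC, hE⟩ : ∃ k, lo ≤ k ∧ k ≤ hi ∧
      i * q + a + 1 < k * q + jb ∧ k * q + jb + 1 < (i + 1) * q + a ∧
      (k - 1) * q + jb + 1 ≤ i * q + a ∧ (i + 1) * q + a + 1 ≤ (k + 1) * q + jb := by
    rcases Nat.lt_or_ge a jb with hlt | hge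
    · obtain ⟨c1, c2⟩ := hn1 hlt
      refine ⟨i, hi1, by omega, by omega, ?_, ?_, ?_⟩
      · rw [Nat.add_mul]; omega
      · obtain ⟨i', rfl⟩ : ∃ i', i = i' + 1 := ⟨i - 1, by omega⟩
        rw [Nat.add_sub_cancel, Nat.add_mul i' 1]
        omega
      · omega
    · have hlt : jb < a := by omega
      obtain ⟨c1, c2⟩ := hn2 hlt
      refine ⟨i + 1, by omega, by omega, ?_, by omega, ?_, ?_⟩
      · rw [Nat.add_mul]; omega
      · rw [Nat.add_sub_cancel]; omega
      · rw [Nat.add_mul (i + 1) 1]; omega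
  obtain ⟨w1, w2, w3⟩ := h4 k hk1 hk2
  have e1 := R1 i hir'
  have e2 := R2 i hir
  refine ⟨?_, ?_, ?_⟩
  · rw [e1, e2]
    have o1 : y (i * q + a + 1) < y (k * q + jb) := hmono hA
    have o2 : y (k * q + jb) < y (k * q + jb + 1) := hmono (by omega)
    have o3 : y (k * q + jb + 1) < y ((i + 1) * q + a) := hmono hB
    have o4 : y ((k - 1) * q + jb + 1) < y (i * q + a + 1) := hmono (by omega)
    have o5 : y ((i + 1) * q + a) < y ((k + 1) * q + jb) := hmono (by omega)
    rw [pat_append _ (B := y (i * q + a + 1) + 1) (by omega) (by omega),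
      pat_append _ (A := y (i * q + a + 1) + 1) (B := y (k * q + jb)) (by omega) (by omega),
      pat_append _ (A := y (k * q + jb)) (B := y (k * q + jb + 1) + 1) (by omega) (by omega),
      pat_append _ (A := y (k * q + jb + 1) + 1) (B := y ((i + 1) * q + a)) (by omega) (by omega)]
    have p1 : pat (fun x => D x + g x) (y (i * q + a + 1)) (y (i * q + a + 1) + 1) = [-1] := by
      have : D (y (i * q + a + 1)) + g (y (i * q + a + 1)) = -1 := by
        rw [w2 _ o4 o1, g1 i hir']; norm_num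
      rw [pat_single (by rw [this]; norm_num), this]
    have p2 : pat (fun x => D x + g x) (y (i * q + a + 1) + 1) (y (k * q + jb)) = [] := by
      refine pat_zero fun x hx1 hx2 => ?_
      rw [w2 x (by omega) hx2, gz1 x (by omega) (by omega)]; norm_num
    have p3 : pat (fun x => D x + g x) (y (k * q + jb)) (y (k * q + jb + 1) + 1)
        = List.replicate t (-1) ++ List.replicate t 1 := by
      rw [← w1]
      refine pat_congr fun x hx1 hx2 => ?_
      rw [gz1 x (by omega) (by omega)]; norm_num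
    have p4 : pat (fun x => D x + g x) (y (k * q + jb + 1) + 1) (y ((i + 1) * q + a)) = [] := by
      refine pat_zero fun x hx1 hx2 => ?_
      rw [w3 x (by omega) (by omega), gz1 x (by omega) (by omega)]; norm_num
    have p5 : pat (fun x => D x + g x) (y ((i + 1) * q + a)) (y ((i + 1) * q + a) + 1) = [1] := by
      have : D (y ((i + 1) * q + a)) + g (y ((i + 1) * q + a)) = 1 := by
        rw [w3 _ o3 o5, g2 i hir]; norm_num
      rw [pat_single (by rw [this]; norm_num), this]
    rw [p1, p2, p3, p4, p5, List.replicate_succ, List.replicate_succ']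
    simp
  · intro x hx1 hx2
    obtain ⟨i', rfl⟩ : ∃ i', i = i' + 1 := ⟨i - 1, by omega⟩
    have e3 : (i' + 1 + s - 1) = i' + s := by omega
    rw [e3, R2 i' (by omega)] at hx1
    rw [e1] at hx2
    have o6 : y ((k - 1) * q + jb + 1) ≤ y ((i' + 1) * q + a) := hmono' hC
    have o7 : y ((i' + 1) * q + a + 1) < y (k * q + jb) := hmono hA
    show D x + g x = 0
    rw [w2 x (by omega) (by omega), gz2 _ x hx1 hx2]; norm_num
  · intro x hx1 hx2
    have e4 : (i + s + 1) = (i + 1) + s := by omega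
    rw [e4, R1 (i + 1) (by omega)] at hx2
    rw [e2] at hx1
    have o8 : y (k * q + jb + 1) < y ((i + 1) * q + a) := hmono hB
    have o9 : y ((i + 1) * q + a + 1) ≤ y ((k + 1) * q + jb) := hmono' hE
    show D x + g x = 0
    rw [w3 x (by omega) (by omega), gz2 _ x hx1 hx2]; norm_num

end Vale.Agent.P125
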