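import Mathlib

namespace Vale.Agent.P125

/-- `X` has Markov type `p` with constant `K`: for every finite set `S`, every probability vector `π`
on `S`, every stochastic matrix `P` on `S` reversible with respect to `π`, every `f : S → X` and every
`t ≥ 1`, `E ‖f(Z_t) - f(Z_0)‖ ^ p ≤ K ^ p * t * E ‖f(Z_1) - f(Z_0)‖ ^ p` for the stationary chain. -/
def MarkovTypeConst (X : Type*) [NormedAddCommGroup X] [NormedSpace ℝ X] (p K : ℝ) : Prop :=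
  ∀ (S : Type) [Fintype S] [DecidableEq S] (π : S → ℝ) (P : Matrix S S ℝ),
    (∀ i, 0 ≤ π i) → ∑ i, π i = 1 → (∀ i j, 0 ≤ P i j) → (∀ i, ∑ j, P i j = 1) →
    (∀ i j, π i * P i j = π j * P j i) →
    ∀ (f : S → X) (t : ℕ), 1 ≤ t →
      ∑ i, ∑ j, π i * (P ^ t) i j * ‖f j - f i‖ ^ p ≤
        K ^ p * t * ∑ i, ∑ j, π i * P i j * ‖f j - f i‖ ^ p

/-- `X` has Markov type `p` for some `p > 1`. -/
def NontrivialMarkovType (X : Type*) [NormedAddCommGroup X] [NormedSpace ℝ X] : Prop :=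
  ∃ p : ℝ, 1 < p ∧ ∃ K : ℝ, 0 < K ∧ MarkovTypeConst X p K

/-- `X` admits an equivalent uniformly convex norm `N`. -/
def Superreflexive (X : Type*) [NormedAddCommGroup X] [NormedSpace ℝ X] : Prop :=
  ∃ N : Seminorm ℝ X,
    (∃ a b : ℝ, 0 < a ∧ 0 < b ∧ ∀ x, a * ‖x‖ ≤ N x ∧ N x ≤ b * ‖x‖) ∧
    ∀ ε : ℝ, 0 < ε → ε ≤ 2 → ∃ δ : ℝ, 0 < δ ∧
      ∀ x y : X, N x ≤ 1 → N y ≤ 1 → ε ≤ N (x - y) → N ((1 / 2 : ℝ) • (x + y)) ≤ 1 - δ

end Vale.Agent.P125
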